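import Crest.Agent.FD.ZLin

/-!
# Row 178 (S0268), chunk CPLX: the complexes of `A`-modules
-/

set_option autoImplicit false

namespace Crest.Agent.FD

open MvPolynomial

noncomputable section

/-- `d1 : C_1 → C_0` -/
def d1W (n : ℕ) : CW (n + 1) 4 1 →ₗ[AA] CW (n + 1) 1 0 :=
  Wmap (ce1 TN) fun p c hc => by
    have := ce1_memN n (p - 1) c hc
    rw [show p - 1 + 1 = p - 0 by ring] at this
    exact this

/-- `d2 : C_2 → C_1` -/
def d2W (n : ℕ) : CW (n + 1) 6 2 →ₗ[AA] CW (n + 1) 4 1 :=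
  Wmap (ce2 TN) fun p c hc => by
    have := ce2_memN n (p - 2) c hc
    rw [show p - 2 + 1 = p - 1 by ring] at this
    exact this

/-- `d3 : C_3 → C_2` -/
def d3W (n : ℕ) : CW (n + 1) 4 3 →ₗ[AA] CW (n + 1) 6 2 :=
  Wmap (ce3 TN) fun p c hc => by
    have := ce3_memN n (p - 3) c hc
    rw [show p - 3 + 1 = p - 2 by ring] at this
    exact this

/-- `d4 : C_4 → C_3` -/
def d4W (n : ℕ) : CW (n + 1) 1 4 →ₗ[AA] CW (n + 1) 4 3 :=
  Wmap (ce4 TN) fun p c hc => by
    have := ce4_memN n (p - 4) c hc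
    rw [show p - 4 + 1 = p - 3 by ring] at this
    exact this

/-- `C_0 → E_n` -/
def evW (n : ℕ) : CW (n + 1) 1 0 →ₗ[AA] EW n :=
  Wmap (evE n) fun p c hc => evE_mem n (p - 0) c hc p

/-- `Q_n = C_1 / d2 C_2` -/
abbrev QW (n : ℕ) : Type := CW (n + 1) 4 1 ⧸ LinearMap.range (d2W n)

theorem d1W_d2W (n : ℕ) (x : CW (n + 1) 6 2) : d1W n (d2W n x) = 0 := by
  apply Subtype.ext
  funext i
  exact KData.ce1_ce2 isRt_TN _

/-- `Q_n → C_0` -/
def deltaW (n : ℕ) : QW n →ₗ[AA] CW (n + 1) 1 0 :=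
  (LinearMap.range (d2W n)).liftQ (d1W n) (by
    rintro _ ⟨x, rfl⟩
    exact d1W_d2W n x)

/-- the family `zN (x_i)` as an element of `C_1` -/
def zW (n : ℕ) (x : XW n) : CW (n + 1) 4 1 :=
  ⟨fun i => zN (x.1 i : Fs ℂ), fun i a => by
    refine FsF_mono_N n ?_ (zN_mem n _ (x.2 i) a)
    have : (0 : ℤ) ≤ vz i := Int.natCast_nonneg _
    linarith⟩

theorem zW_apply (n : ℕ) (x : XW n) (i : Fin 5) : (zW n x).1 i = zN (x.1 i : Fs ℂ) := rfl

theorem zW_add (n : ℕ) (x y : XW n) : zW n (x + y) = zW n x + zW n y := by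
  apply Subtype.ext
  funext i
  exact map_add zN (x.1 i : Fs ℂ) (y.1 i : Fs ℂ)

set_option synthInstance.maxHeartbeats 400000 in
/-- linearity of `zW` modulo boundaries -/
theorem zW_smul (n : ℕ) (a : AA) (x : XW n) :
    a • zW n x - zW n (a • x) ∈ LinearMap.range (d2W n) := by
  have h : ∀ i j : Fin 5, ∃ w : Fin 6 → Fs N, (∀ b, w b ∈ FsF (n + 1) Nf (vz i - 2)) ∧
      a.mat i j • zN (x.1 j : Fs ℂ) - zN (Psi (a.mat i j • oneN).1 (x.1 j : Fs ℂ)) =
        ce2 TN w := by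
    intro i j
    obtain ⟨w, hw, hw'⟩ := zlin n _ (a.mat i j) (AA_mem a i j) (x.1 j : Fs ℂ) (x.2 j)
    refine ⟨w, fun b => FsF_mono_N n ?_ (hw b), hw'⟩
    have : (0 : ℤ) ≤ vz j := Int.natCast_nonneg _
    linarith
  choose w hw hw' using h
  refine ⟨⟨fun i => ∑ j, w i j, fun i => ?_⟩, ?_⟩
  · exact Submodule.sum_mem _ fun j _ => (fun b => hw i j b : w i j ∈ KF 6 2 _ (vz i))
  · apply Subtype.ext
    funext i
    show ce2 TN (∑ j, w i j) = (a • (zW n x).1) i - zN (((a • x : XW n).1 i) : Fs ℂ)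
    have h1 : (((a • x : XW n).1 i) : Fs ℂ) =
        ∑ j, (Psi (a.mat i j • oneN).1 (x.1 j : Fs ℂ) : Fs ℂ) := rfl
    rw [map_sum, AA_smul_apply, h1, map_sum, ← Finset.sum_sub_distrib]
    exact Finset.sum_congr rfl fun j _ => (hw' i j).symm

/-- `X_(n-1) → Q_n` (linearity: `zlin`) -/
def phiW (n : ℕ) : XW n →ₗ[AA] QW n where
  toFun x := Submodule.Quotient.mk (zW n x)
  map_add' x y := by rw [zW_add]; rfl
  map_smul' a x := by
    rw [RingHom.id_apply, ← Submodule.Quotient.mk_smul]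
    exact ((Submodule.Quotient.eq _).2 (zW_smul n a x)).symm

theorem phiW_apply (n : ℕ) (x : XW n) : phiW n x = Submodule.Quotient.mk (zW n x) := rfl

theorem phiW_injective (n : ℕ) : Function.Injective (phiW n) := by
  rw [injective_iff_map_eq_zero]
  intro x hx
  rw [phiW_apply, Submodule.Quotient.mk_eq_zero] at hx
  obtain ⟨w, hw⟩ := hx
  apply Subtype.ext
  funext i
  have h1 : zN (x.1 i : Fs ℂ) = ce2 TN (w.1 i) :=
    (congrFun (congrArg Subtype.val hw) i).symm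
  exact NEx1_inj n _ (x.1 i : Fs ℂ) (x.2 i) (w.1 i) (w.2 i) h1

theorem phiW_deltaW_exact (n : ℕ) : Function.Exact (phiW n) (deltaW n) := by
  intro y
  constructor
  · intro hy
    obtain ⟨c, rfl⟩ := Submodule.mkQ_surjective _ y
    have hc : d1W n c = 0 := hy
    have h1 : ∀ i : Fin 5, ∃ q ∈ Vh n, ∃ w : Fin 6 → Fs N,
        (∀ a, w a ∈ FsF (n + 1) Nf (vz i - 2)) ∧ c.1 i = zN q + ce2 TN w := by
      intro i
      have h2 : ce1 TN (c.1 i) = 0 := congrFun (congrArg Subtype.val hc) i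
      obtain ⟨q, hq, w, hw, h3⟩ := NEx1 n _ (c.1 i) (c.2 i) h2
      refine ⟨q, hq, w, fun a => ?_, h3⟩
      have h4 := hw a
      rwa [show vz i - 1 - 1 = vz i - 2 by ring] at h4
    choose q hq w hw h3 using h1
    refine ⟨⟨fun i => (q i : Fs ℂ), fun i => hq i⟩, ?_⟩
    rw [phiW_apply]
    refine ((Submodule.Quotient.eq _).2 ?_).symm
    refine ⟨⟨fun i => w i, fun i => hw i⟩, ?_⟩
    apply Subtype.ext
    funext i
    show ce2 TN (w i) = c.1 i - zN (q i)
    rw [h3 i, add_sub_cancel_left]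
  · rintro ⟨x, rfl⟩
    apply Subtype.ext
    funext i
    exact zN_cycle (x.1 i : Fs ℂ)

theorem deltaW_evW_exact (n : ℕ) : Function.Exact (deltaW n) (evW n) := by
  intro c
  constructor
  · intro hc
    have h1 : ∀ i : Fin 5, ∃ w : Fin 4 → Fs N,
        (∀ a, w a ∈ FsF (n + 1) Nf (vz i - 1)) ∧ ce1 TN w = c.1 i := by
      intro i
      have h2 : evE n (c.1 i) = 0 := congrFun (congrArg Subtype.val hc) i
      have h3 : (0 : ℤ) ≤ vz i - 0 := by rw [sub_zero]; exact Int.natCast_nonneg _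
      obtain ⟨w, hw, h4⟩ := NEx0 n _ h3 (c.1 i) (c.2 i) h2
      refine ⟨w, fun a => ?_, h4⟩
      have h5 := hw a
      rwa [sub_zero] at h5
    choose w hw h3 using h1
    refine ⟨Submodule.Quotient.mk ⟨fun i => w i, fun i => hw i⟩, ?_⟩
    apply Subtype.ext
    funext i
    exact h3 i
  · rintro ⟨y, rfl⟩
    obtain ⟨x, rfl⟩ := Submodule.mkQ_surjective _ y
    apply Subtype.ext
    funext i
    exact evE_ce1 n (x.1 i)

theorem evW_surjective (n : ℕ) : Function.Surjective (evW n) := by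
  intro y
  have h1 : ∀ i : Fin 5, ∃ c : Fin 1 → Fs N,
      (∀ a, c a ∈ FsF (n + 1) Nf 0) ∧ evE n c = y.1 i := by
    intro i
    exact evE_surj n (y.1 i : Fs ℂ × Fs ℂ).1 (y.1 i : Fs ℂ × Fs ℂ).2 (y.2 i).1 (y.2 i).2
  choose c hc h2 using h1
  refine ⟨⟨fun i => c i, fun i a => FsF_mono_N n ?_ (hc i a)⟩, ?_⟩
  · rw [sub_zero]; exact Int.natCast_nonneg _
  · apply Subtype.ext
    funext i
    exact h2 i

theorem d4W_injective (n : ℕ) : Function.Injective (d4W n) := by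
  rw [injective_iff_map_eq_zero]
  intro x hx
  apply Subtype.ext
  funext i
  exact NEx4 n _ (x.1 i) (x.2 i) (congrFun (congrArg Subtype.val hx) i)

theorem d4W_d3W_exact (n : ℕ) : Function.Exact (d4W n) (d3W n) := by
  intro c
  constructor
  · intro hc
    have h1 : ∀ i : Fin 5, ∃ w : Fin 1 → Fs N,
        (∀ a, w a ∈ FsF (n + 1) Nf (vz i - 4)) ∧ ce4 TN w = c.1 i := by
      intro i
      obtain ⟨w, hw, h4⟩ := NEx3 n _ (c.1 i) (c.2 i) (congrFun (congrArg Subtype.val hc) i)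
      refine ⟨w, fun a => ?_, h4⟩
      have h5 := hw a
      rwa [show vz i - 3 - 1 = vz i - 4 by ring] at h5
    choose w hw h3 using h1
    refine ⟨⟨fun i => w i, fun i => hw i⟩, ?_⟩
    apply Subtype.ext
    funext i
    exact h3 i
  · rintro ⟨x, rfl⟩
    apply Subtype.ext
    funext i
    exact KData.ce3_ce4 isRt_TN (x.1 i)

theorem d3W_d2W_exact (n : ℕ) : Function.Exact (d3W n) (d2W n) := by
  intro c
  constructor
  · intro hc
    have h1 : ∀ i : Fin 5, ∃ w : Fin 4 → Fs N,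
        (∀ a, w a ∈ FsF (n + 1) Nf (vz i - 3)) ∧ ce3 TN w = c.1 i := by
      intro i
      obtain ⟨w, hw, h4⟩ := NEx2 n _ (c.1 i) (c.2 i) (congrFun (congrArg Subtype.val hc) i)
      refine ⟨w, fun a => ?_, h4⟩
      have h5 := hw a
      rwa [show vz i - 2 - 1 = vz i - 3 by ring] at h5
    choose w hw h3 using h1
    refine ⟨⟨fun i => w i, fun i => hw i⟩, ?_⟩
    apply Subtype.ext
    funext i
    exact h3 i
  · rintro ⟨x, rfl⟩
    apply Subtype.ext
    funext i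
    exact KData.ce2_ce3 isRt_TN (x.1 i)

theorem d2W_mk_exact (n : ℕ) : Function.Exact (d2W n) (LinearMap.range (d2W n)).mkQ := by
  intro y
  rw [Submodule.mkQ_apply, Submodule.Quotient.mk_eq_zero]
  rfl

end

end Crest.Agent.FD
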