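import Mathlib

/-!
# Row 178 (S0268): the finitistic dimension conjecture fails.  Definitions, part 1

`S = ℂ[X_00, X_01, X_10, X_11]` is the polynomial (PBW) model of `U(gl_2)`: left multiplication by
`E_ij` is `Lop i j`, right multiplication by `E_ij` is `Rop i j`.
`Qb = S² / gt(S²)` is the bimodule generated by `b_0, b_1` (`h ↔ h_0 b_0 + h_1 b_1`), where
`b_k E_ij = E_ij b_k + δ_ki b_j`.
-/

set_option autoImplicit false

namespace Crest.Agent.FD

open MvPolynomial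

noncomputable section

/-- index of matrix units -/
abbrev I4 := Fin 2 × Fin 2

/-- polynomial model of `U(gl_2)` -/
abbrev S := MvPolynomial I4 ℂ

/-- pairs of polynomials: `h ↔ h_0 b_0 + h_1 b_1` -/
abbrev P2 := Fin 2 → S

/-- filtration of `S` by total degree, indexed by `ℤ` -/
def Sf (m : ℤ) : Submodule ℂ S := restrictSupport ℂ {α | ((α.degree : ℕ) : ℤ) ≤ m}

/-- multiplication by the variable `X a` -/
def mX (a : I4) : S →ₗ[ℂ] S := LinearMap.mulLeft ℂ (X a)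

/-- partial derivative -/
def dX (a : I4) : S →ₗ[ℂ] S := ((pderiv a : Derivation ℂ S S) : S →ₗ[ℂ] S)

@[simp] theorem mX_apply (a : I4) (p : S) : mX a p = X a * p := rfl
@[simp] theorem dX_apply (a : I4) (p : S) : dX a p = pderiv a p := rfl

/-- right multiplication by `E_ij` -/
def Rop (i j : Fin 2) : S →ₗ[ℂ] S := mX (i, j) + ∑ m : Fin 2, mX (m, j) ∘ₗ dX (m, i)

/-- left multiplication by `E_ij` -/
def Lop (i j : Fin 2) : S →ₗ[ℂ] S := mX (i, j) + ∑ m : Fin 2, mX (i, m) ∘ₗ dX (j, m)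

theorem Rop_apply (i j : Fin 2) (p : S) :
    Rop i j p = X (i, j) * p + (X (0, j) * pderiv (0, i) p + X (1, j) * pderiv (1, i) p) := by
  simp [Rop, Fin.sum_univ_two]

theorem Lop_apply (i j : Fin 2) (p : S) :
    Lop i j p = X (i, j) * p + (X (i, 0) * pderiv (j, 0) p + X (i, 1) * pderiv (j, 1) p) := by
  simp [Lop, Fin.sum_univ_two]

/-- right multiplication by `E_ij` on `P2` (twisted) -/
def Rt (i j : Fin 2) : P2 →ₗ[ℂ] P2 :=
  LinearMap.pi fun l => Rop i j ∘ₗ LinearMap.proj l +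
    (if l = j then (LinearMap.proj i : P2 →ₗ[ℂ] S) else 0)

theorem Rt_apply (i j : Fin 2) (h : P2) (l : Fin 2) :
    Rt i j h l = Rop i j (h l) + (if l = j then h i else 0) := by
  by_cases hl : l = j <;> simp [Rt, hl]

/-- left multiplication by `E_ij` on `P2` -/
def Lt (i j : Fin 2) : P2 →ₗ[ℂ] P2 := LinearMap.pi fun l => Lop i j ∘ₗ LinearMap.proj l

@[simp] theorem Lt_apply (i j : Fin 2) (h : P2) (l : Fin 2) : Lt i j h l = Lop i j (h l) := rfl

/-- `(h_0, h_1) ↦ h_0 β_0 + h_1 β_1`, `β_0 = E_11 b_0 - E_10 b_1`, `β_1 = - E_01 b_0 + E_00 b_1`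
(0-based indices) -/
def gt : P2 →ₗ[ℂ] P2 :=
  LinearMap.pi ![Rop 1 1 ∘ₗ LinearMap.proj 0 - Rop 0 1 ∘ₗ LinearMap.proj 1,
    - (Rop 1 0 ∘ₗ LinearMap.proj 0) + Rop 0 0 ∘ₗ LinearMap.proj 1]

@[simp] theorem gt_zero (h : P2) : gt h 0 = Rop 1 1 (h 0) - Rop 0 1 (h 1) := rfl
@[simp] theorem gt_one (h : P2) : gt h 1 = - Rop 1 0 (h 0) + Rop 0 0 (h 1) := rfl

end

end Crest.Agent.FD
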