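import Crest.Agent.FD.PolyId

/-!
# Row 178 (S0268): definitions, part 2: the bimodule `N = U ⊕ Q` and the ring `TT`
-/

set_option autoImplicit false

namespace Crest.Agent.FD

open MvPolynomial

noncomputable section

/-- `Q = S² / gt(S²)` -/
abbrev Qb := P2 ⧸ (LinearMap.range gt)

/-- the quotient map -/
def qm : P2 →ₗ[ℂ] Qb := (LinearMap.range gt).mkQ

theorem qm_surjective : Function.Surjective qm := Submodule.mkQ_surjective _

theorem qm_eq_zero_iff (h : P2) : qm h = 0 ↔ ∃ h', gt h' = h := by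
  simp [qm]

@[simp] theorem qm_gt (h : P2) : qm (gt h) = 0 := (qm_eq_zero_iff _).2 ⟨h, rfl⟩

/-- right multiplication by `E_ij` on `Q` -/
def RQ (i j : Fin 2) : Qb →ₗ[ℂ] Qb :=
  Submodule.mapQ _ _ (Rt i j) (by
    rintro _ ⟨h, rfl⟩
    exact ⟨Rt i j h, gt_Rt i j h⟩)

/-- left multiplication by `E_ij` on `Q` -/
def LQ (i j : Fin 2) : Qb →ₗ[ℂ] Qb :=
  Submodule.mapQ _ _ (Lt i j) (by
    rintro _ ⟨h, rfl⟩
    exact ⟨Lt i j h, gt_Lt i j h⟩)

@[simp] theorem RQ_qm (i j : Fin 2) (h : P2) : RQ i j (qm h) = qm (Rt i j h) := rfl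
@[simp] theorem LQ_qm (i j : Fin 2) (h : P2) : LQ i j (qm h) = qm (Lt i j h) := rfl

/-- the regular bimodule `N = U ⊕ Q` of `T = U ⋉ Q` -/
abbrev N := S × Qb

/-- the unit of `T`, as an element of `N` -/
def oneN : N := (1, 0)

/-- right multiplication by `E_ij` on `N` -/
def RN (i j : Fin 2) : Module.End ℂ N := LinearMap.prodMap (Rop i j) (RQ i j)

/-- right multiplication by `b_k` on `N` -/
def RB (k : Fin 2) : Module.End ℂ N :=
  LinearMap.inr ℂ S Qb ∘ₗ qm ∘ₗ LinearMap.single ℂ (fun _ : Fin 2 => S) k ∘ₗ LinearMap.fst ℂ S Qb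

/-- left multiplication by `E_ij` on `N` -/
def LN (i j : Fin 2) : Module.End ℂ N := LinearMap.prodMap (Lop i j) (LQ i j)

/-- left multiplication by `b_k` : `S → P2`, `s ↦ ((δ_kl + ∂_kl) s)_l` -/
def LBp (k : Fin 2) : S →ₗ[ℂ] P2 :=
  LinearMap.pi fun l => (if k = l then LinearMap.id else 0) + dX (k, l)

/-- left multiplication by `b_k` on `N` -/
def LB (k : Fin 2) : Module.End ℂ N :=
  LinearMap.inr ℂ S Qb ∘ₗ qm ∘ₗ LBp k ∘ₗ LinearMap.fst ℂ S Qb

@[simp] theorem RN_apply (i j : Fin 2) (n : N) : RN i j n = (Rop i j n.1, RQ i j n.2) := rfl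
@[simp] theorem LN_apply (i j : Fin 2) (n : N) : LN i j n = (Lop i j n.1, LQ i j n.2) := rfl
@[simp] theorem RB_apply (k : Fin 2) (n : N) : RB k n = (0, qm (Pi.single k n.1)) := rfl
@[simp] theorem LB_apply (k : Fin 2) (n : N) : LB k n = (0, qm (LBp k n.1)) := rfl
theorem LBp_apply (k : Fin 2) (s : S) (l : Fin 2) :
    LBp k s l = (if k = l then s else 0) + dX (k, l) s := by
  by_cases h : k = l <;> simp [LBp, h]

/-- filtration of `P2` by degree -/
def P2f (m : ℤ) : Submodule ℂ P2 := Submodule.pi Set.univ fun _ => Sf m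

theorem mem_P2f {m : ℤ} {h : P2} : h ∈ P2f m ↔ ∀ l, h l ∈ Sf m := by simp [P2f]

/-- filtration of `Q`; `b_k` has degree `-1` -/
def Qf (m : ℤ) : Submodule ℂ Qb := (P2f (m + 1)).map qm

/-- filtration of `N` -/
def Nf (m : ℤ) : Submodule ℂ N := (Sf m).prod (Qf m)

theorem mem_Nf {m : ℤ} {n : N} : n ∈ Nf m ↔ n.1 ∈ Sf m ∧ n.2 ∈ Qf m := Iff.rfl

/-- all right multiplications -/
def rightOps : Set (Module.End ℂ N) := {f | (∃ i j, f = RN i j) ∨ ∃ k, f = RB k}

/-- the ring `T = U ⋉ Q`, realised as the centraliser of the right multiplications of `N` -/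
def Tsub : Subalgebra ℂ (Module.End ℂ N) := Subalgebra.centralizer ℂ rightOps

/-- the ring `T` as a type -/
def TT : Type := Tsub

instance : Ring TT := inferInstanceAs (Ring Tsub)
instance : Algebra ℂ TT := inferInstanceAs (Algebra ℂ Tsub)

/-- the underlying endomorphism of `N` -/
def TT.toEnd (t : TT) : Module.End ℂ N := (show Tsub from t).1

/-- elements of `T` from endomorphisms commuting with the right multiplications -/
def TT.mk (f : Module.End ℂ N) (hf : f ∈ Tsub) : TT := (⟨f, hf⟩ : Tsub)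

theorem TT.toEnd_mem (t : TT) : t.toEnd ∈ Tsub := (show Tsub from t).2

instance : Module TT N := inferInstanceAs (Module Tsub N)
instance : IsScalarTower ℂ TT N := inferInstanceAs (IsScalarTower ℂ Tsub N)
instance : SMulCommClass TT ℂ N := inferInstanceAs (SMulCommClass Tsub ℂ N)
instance : SMulCommClass ℂ TT N := inferInstanceAs (SMulCommClass ℂ Tsub N)

theorem TT.smul_def (t : TT) (n : N) : t • n = t.toEnd n := rfl

@[simp] theorem TT.mk_smul (f : Module.End ℂ N) (hf : f ∈ Tsub) (n : N) : TT.mk f hf • n = f n :=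
  rfl

theorem TT.ext' {t t' : TT} (h : t.toEnd = t'.toEnd) : t = t' := Subtype.ext h

theorem mem_Tsub {f : Module.End ℂ N} :
    f ∈ Tsub ↔ (∀ i j n, f (RN i j n) = RN i j (f n)) ∧ ∀ k n, f (RB k n) = RB k (f n) := by
  unfold Tsub
  rw [Subalgebra.mem_centralizer_iff]
  constructor
  · intro h
    refine ⟨fun i j n => ?_, fun k n => ?_⟩
    · exact (LinearMap.congr_fun (h (RN i j) (Or.inl ⟨i, j, rfl⟩)) n).symm
    · exact (LinearMap.congr_fun (h (RB k) (Or.inr ⟨k, rfl⟩)) n).symm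
  · rintro ⟨h1, h2⟩ g (⟨i, j, rfl⟩ | ⟨k, rfl⟩)
    · exact LinearMap.ext fun n => (h1 i j n).symm
    · exact LinearMap.ext fun n => (h2 k n).symm

theorem TT_RN (t : TT) (i j : Fin 2) (n : N) : t • (RN i j n) = RN i j (t • n) :=
  (mem_Tsub.1 t.toEnd_mem).1 i j n

theorem TT_RB (t : TT) (k : Fin 2) (n : N) : t • (RB k n) = RB k (t • n) :=
  (mem_Tsub.1 t.toEnd_mem).2 k n

/-- the filtration of `T`: `t ∈ T_m` iff `t · 1 ∈ N_m` -/
def Tf (m : ℤ) : Submodule ℂ TT where
  carrier := {t | t • oneN ∈ Nf m}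
  add_mem' := by
    intro a b ha hb
    have : (a + b) • oneN = a • oneN + b • oneN := add_smul _ _ _
    change (a + b) • oneN ∈ Nf m
    rw [this]
    exact add_mem ha hb
  zero_mem' := by
    change (0 : TT) • oneN ∈ Nf m
    rw [zero_smul]
    exact zero_mem _
  smul_mem' := by
    intro c t ht
    change (c • t) • oneN ∈ Nf m
    rw [smul_assoc]
    exact (Nf m).smul_mem c ht

theorem mem_Tf {m : ℤ} {t : TT} : t ∈ Tf m ↔ t • oneN ∈ Nf m := Iff.rfl

end

end Crest.Agent.FD
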