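import Mathlib

/-!
# Row 178 (S0268): generic operators

* `Fs Y = ℕ → ℕ → Y` is `Y ⊗ ℂ[[x_0, x_1]]`, with `xop i` (multiplication by `x_i`),
  `dop i` (`∂/∂x_i`), `rho i j = x_i ∂_j`.
* Chevalley--Eilenberg differentials `ce1, ..., ce4` of a right `gl_2`-module (operators
  `T 0, T 1, T 2, T 3` = right action of `E_00, E_01, E_10, E_11`).
-/

set_option autoImplicit false

namespace Crest.Agent.FD

/-- formal power series in two variables with coefficients in `Y` -/
abbrev Fs (Y : Type) : Type := ℕ → ℕ → Y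

section
variable {R : Type} {Y Z : Type} [Ring R] [AddCommGroup Y] [Module R Y]
  [AddCommGroup Z] [Module R Z]

/-- pointwise application of a linear map -/
def pw (f : Y →ₗ[R] Z) : Fs Y →ₗ[R] Fs Z where
  toFun y i k := f (y i k)
  map_add' _ _ := by funext i k; simp
  map_smul' _ _ := by funext i k; simp

@[simp] theorem pw_apply (f : Y →ₗ[R] Z) (y : Fs Y) (i k : ℕ) : pw f y i k = f (y i k) := rfl

/-- the operation on `Fs Y` of multiplication by `x_j` -/
def xfun (j : Fin 2) (y : Fs Y) : Fs Y := fun i k =>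
  if j = 0 then (if i = 0 then 0 else y (i - 1) k) else (if k = 0 then 0 else y i (k - 1))

/-- the operation `∂/∂x_j` on `Fs Y` -/
def dfun (j : Fin 2) (y : Fs Y) : Fs Y := fun i k =>
  if j = 0 then (i + 1) • y (i + 1) k else (k + 1) • y i (k + 1)

variable (R Y) in
/-- multiplication by `x_j` -/
def xop (j : Fin 2) : Fs Y →ₗ[R] Fs Y where
  toFun := xfun j
  map_add' a b := by
    funext i k
    simp only [xfun, Pi.add_apply]
    split_ifs <;> simp
  map_smul' c a := by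
    funext i k
    simp only [xfun, Pi.smul_apply, RingHom.id_apply]
    split_ifs <;> simp

variable (R Y) in
/-- `∂/∂x_j` -/
def dop (j : Fin 2) : Fs Y →ₗ[R] Fs Y where
  toFun := dfun j
  map_add' a b := by
    funext i k
    simp only [dfun, Pi.add_apply]
    split_ifs <;> simp
  map_smul' c a := by
    funext i k
    simp only [dfun, Pi.smul_apply, RingHom.id_apply]
    split_ifs <;> exact smul_comm _ _ _

theorem xop_apply (j : Fin 2) (y : Fs Y) : xop R Y j y = xfun j y := rfl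
theorem dop_apply (j : Fin 2) (y : Fs Y) : dop R Y j y = dfun j y := rfl

variable (R Y) in
/-- `rho i j = x_i ∂_j` -/
def rho (i j : Fin 2) : Fs Y →ₗ[R] Fs Y := xop R Y i ∘ₗ dop R Y j

theorem rho_apply (i j : Fin 2) (y : Fs Y) : rho R Y i j y = xfun i (dfun j y) := rfl

/-- `T_a = (right action of E_a on Y) - rho_a`, `a = 00, 01, 10, 11` -/
def Top (r : Fin 2 → Fin 2 → Module.End R Y) : Fin 4 → Module.End R (Fs Y) :=
  ![pw (r 0 0) - rho R Y 0 0, pw (r 0 1) - rho R Y 0 1,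
    pw (r 1 0) - rho R Y 1 0, pw (r 1 1) - rho R Y 1 1]

/-- the linear parts (in `T`) of the Chevalley--Eilenberg differentials.  Bases:
`Λ² : 01, 02, 03, 12, 13, 23`; `Λ³ : 012, 013, 023, 123`. -/
def cel1 (T : Fin 4 → Module.End R Y) : (Fin 4 → Y) →ₗ[R] (Fin 1 → Y) where
  toFun y := ![T 0 (y 0) + T 1 (y 1) + T 2 (y 2) + T 3 (y 3)]
  map_add' a b := by ext i; fin_cases i; simp; abel
  map_smul' c a := by ext i; fin_cases i; simp

def cel2 (T : Fin 4 → Module.End R Y) : (Fin 6 → Y) →ₗ[R] (Fin 4 → Y) where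
  toFun y := ![- T 1 (y 0) - T 2 (y 1) - T 3 (y 2),
    T 0 (y 0) - T 2 (y 3) - T 3 (y 4),
    T 0 (y 1) + T 1 (y 3) - T 3 (y 5),
    T 0 (y 2) + T 1 (y 4) + T 2 (y 5)]
  map_add' a b := by ext i; fin_cases i <;> simp <;> abel
  map_smul' c a := by ext i; fin_cases i <;> simp [smul_add, smul_sub]

def cel3 (T : Fin 4 → Module.End R Y) : (Fin 4 → Y) →ₗ[R] (Fin 6 → Y) where
  toFun y := ![T 2 (y 0) + T 3 (y 1),
    - T 1 (y 0) + T 3 (y 2),
    - T 1 (y 1) - T 2 (y 2),
    T 0 (y 0) + T 3 (y 3),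
    T 0 (y 1) - T 2 (y 3),
    T 0 (y 2) + T 1 (y 3)]
  map_add' a b := by ext i; fin_cases i <;> simp <;> abel
  map_smul' c a := by ext i; fin_cases i <;> simp [smul_add, smul_sub]

/-- the fourth Chevalley--Eilenberg differential -/
def ce4 (T : Fin 4 → Module.End R Y) : (Fin 1 → Y) →ₗ[R] (Fin 4 → Y) where
  toFun y := ![- T 3 (y 0), T 2 (y 0), - T 1 (y 0), T 0 (y 0)]
  map_add' a b := by ext i; fin_cases i <;> simp <;> abel
  map_smul' c a := by ext i; fin_cases i <;> simp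

/-- the constant parts of the Chevalley--Eilenberg differentials (Lie brackets) -/
def cec2 : (Fin 6 → Y) →ₗ[R] (Fin 4 → Y) where
  toFun y := ![- y 3, - y 0 - y 4, y 1 + y 5, y 3]
  map_add' a b := by ext i; fin_cases i <;> simp <;> abel
  map_smul' c a := by ext i; fin_cases i <;> simp [smul_add, smul_sub]

def cec3 : (Fin 4 → Y) →ₗ[R] (Fin 6 → Y) where
  toFun y := ![y 1, - y 2, - y 0 - y 3, 0, - y 1, y 2]
  map_add' a b := by ext i; fin_cases i <;> simp <;> abel
  map_smul' c a := by ext i; fin_cases i <;> simp [smul_add, smul_sub]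

/-- the first Chevalley--Eilenberg differential -/
def ce1 (T : Fin 4 → Module.End R Y) : (Fin 4 → Y) →ₗ[R] (Fin 1 → Y) := cel1 T

/-- the second Chevalley--Eilenberg differential -/
def ce2 (T : Fin 4 → Module.End R Y) : (Fin 6 → Y) →ₗ[R] (Fin 4 → Y) := cel2 T + cec2

/-- the third Chevalley--Eilenberg differential -/
def ce3 (T : Fin 4 → Module.End R Y) : (Fin 4 → Y) →ₗ[R] (Fin 6 → Y) := cel3 T + cec3

/-- `T 0, ..., T 3` satisfy the commutation relations of a right `gl_2`-action -/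
structure IsRt (T : Fin 4 → Y → Y) : Prop where
  h10 : ∀ y, T 1 (T 0 y) - T 0 (T 1 y) = T 1 y
  h20 : ∀ y, T 2 (T 0 y) - T 0 (T 2 y) = - T 2 y
  h30 : ∀ y, T 3 (T 0 y) - T 0 (T 3 y) = 0
  h21 : ∀ y, T 2 (T 1 y) - T 1 (T 2 y) = T 0 y - T 3 y
  h31 : ∀ y, T 3 (T 1 y) - T 1 (T 3 y) = T 1 y
  h32 : ∀ y, T 3 (T 2 y) - T 2 (T 3 y) = - T 2 y

end

end Crest.Agent.FD
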