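import Crest.Agent.FD.TRing
import Crest.Agent.FD.Ops

/-!
# Row 178 (S0268): definitions, part 3: the algebra `AA` and its modules `WS F`
-/

set_option autoImplicit false

namespace Crest.Agent.FD

open MvPolynomial

noncomputable section

/-- the position of a vertex, as an integer -/
abbrev vz (i : Fin 5) : ℤ := ((i : ℕ) : ℤ)

/-- the algebra `A = {a ∈ M_5(T) : a_ij ∈ T_(i-j)}` -/
def Asub : Subalgebra ℂ (Matrix (Fin 5) (Fin 5) TT) where
  carrier := {a | ∀ i j, a i j ∈ Tf (vz i - vz j)}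
  mul_mem' := by
    intro a b ha hb i j
    rw [Matrix.mul_apply]
    refine Submodule.sum_mem _ fun k _ => ?_
    have := Tf_mul (ha i k) (hb k j)
    rwa [show vz i - vz k + (vz k - vz j) = vz i - vz j by ring] at this
  add_mem' := by
    intro a b ha hb i j
    exact Submodule.add_mem _ (ha i j) (hb i j)
  algebraMap_mem' := by
    intro r i j
    rw [Matrix.algebraMap_matrix_apply]
    split_ifs with h
    · subst h
      rw [sub_self, Algebra.algebraMap_eq_smul_one]
      exact Submodule.smul_mem _ _ one_mem_Tf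
    · exact Submodule.zero_mem _

/-- the finite dimensional algebra, as a type -/
def AA : Type := Asub

instance : Ring AA := inferInstanceAs (Ring Asub)
instance : Algebra ℂ AA := inferInstanceAs (Algebra ℂ Asub)

/-- the matrix of an element of `A` -/
def AA.mat (a : AA) : Matrix (Fin 5) (Fin 5) TT := (show Asub from a).1

/-- elements of `A` from matrices -/
def AA.mk (a : Matrix (Fin 5) (Fin 5) TT) (ha : ∀ i j, a i j ∈ Tf (vz i - vz j)) : AA :=
  (⟨a, ha⟩ : Asub)

@[simp] theorem AA.mk_mat (a : Matrix (Fin 5) (Fin 5) TT) (ha : ∀ i j, a i j ∈ Tf (vz i - vz j)) :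
    (AA.mk a ha).mat = a := rfl

theorem AA_mem (a : AA) (i j : Fin 5) : a.mat i j ∈ Tf (vz i - vz j) :=
  (show Asub from a).2 i j

theorem AA.ext' {a b : AA} (h : a.mat = b.mat) : a = b := Subtype.ext h

@[simp] theorem AA.mat_mul (a b : AA) : (a * b).mat = a.mat * b.mat := rfl
@[simp] theorem AA.mat_add (a b : AA) : (a + b).mat = a.mat + b.mat := rfl
@[simp] theorem AA.mat_one : (1 : AA).mat = 1 := rfl
@[simp] theorem AA.mat_zero : (0 : AA).mat = 0 := rfl
@[simp] theorem AA.mat_smul (c : ℂ) (a : AA) : (c • a).mat = c • a.mat := rfl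

/-- the action of `A ⊂ M_5(T)` on `Y^5` for a `T`-module `Y` -/
instance modAA {Y : Type} [AddCommGroup Y] [Module TT Y] : Module AA (Fin 5 → Y) where
  smul a x := fun i => ∑ j, a.mat i j • x j
  one_smul x := by
    funext i
    show ∑ j, (1 : AA).mat i j • x j = x i
    simp [Matrix.one_apply]
  mul_smul a b x := by
    funext i
    show ∑ j, (a * b).mat i j • x j = ∑ j, a.mat i j • ∑ k, b.mat j k • x k
    simp_rw [AA.mat_mul, Matrix.mul_apply, Finset.smul_sum, Finset.sum_smul, mul_smul]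
    rw [Finset.sum_comm]
  smul_zero a := by
    funext i
    show ∑ j, a.mat i j • (0 : Fin 5 → Y) j = 0
    simp
  smul_add a x y := by
    funext i
    show ∑ j, a.mat i j • (x + y) j = ∑ j, a.mat i j • x j + ∑ j, a.mat i j • y j
    simp [smul_add, Finset.sum_add_distrib]
  add_smul a b x := by
    funext i
    show ∑ j, (a + b).mat i j • x j = ∑ j, a.mat i j • x j + ∑ j, b.mat i j • x j
    simp [add_smul, Finset.sum_add_distrib]
  zero_smul x := by
    funext i
    show ∑ j, (0 : AA).mat i j • x j = 0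
    simp

section WS

variable {Y Z : Type} [AddCommGroup Y] [Module ℂ Y] [Module TT Y]
  [AddCommGroup Z] [Module ℂ Z] [Module TT Z]

theorem AA_smul_apply (a : AA) (x : Fin 5 → Y) (i : Fin 5) :
    (a • x) i = ∑ j, a.mat i j • x j := rfl

/-- compatibility of a filtration of a `T`-module -/
def Compat (F : ℤ → Submodule ℂ Y) : Prop :=
  ∀ (m p : ℤ) (t : TT) (y : Y), t ∈ Tf m → y ∈ F p → t • y ∈ F (m + p)

/-- the `A`-module of a filtered `T`-module -/
def WS (F : ℤ → Submodule ℂ Y) (hF : Compat F) : Submodule AA (Fin 5 → Y) where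
  carrier := {x | ∀ i, x i ∈ F (vz i)}
  add_mem' := by
    intro a b ha hb i
    exact Submodule.add_mem _ (ha i) (hb i)
  zero_mem' := fun i => Submodule.zero_mem _
  smul_mem' := by
    intro a x hx i
    rw [AA_smul_apply]
    refine Submodule.sum_mem _ fun k _ => ?_
    have := hF _ _ _ _ (AA_mem a i k) (hx k)
    rwa [show vz i - vz k + vz k = vz i by ring] at this

theorem mem_WS {F : ℤ → Submodule ℂ Y} {hF : Compat F} {x : Fin 5 → Y} :
    x ∈ WS F hF ↔ ∀ i, x i ∈ F (vz i) := Iff.rfl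

/-- the `A`-linear map induced by a filtered `T`-linear map -/
def Wmap {F : ℤ → Submodule ℂ Y} {hF : Compat F} {G : ℤ → Submodule ℂ Z} {hG : Compat G}
    (f : Y →ₗ[TT] Z) (hf : ∀ p y, y ∈ F p → f y ∈ G p) : WS F hF →ₗ[AA] WS G hG where
  toFun x := ⟨fun i => f (x.1 i), fun i => hf _ _ (x.2 i)⟩
  map_add' x y := by
    ext i
    simp
  map_smul' a x := by
    apply Subtype.ext
    funext i
    simp only [Submodule.coe_smul, RingHom.id_apply, AA_smul_apply, map_sum, map_smul]

@[simp] theorem Wmap_coe {F : ℤ → Submodule ℂ Y} {hF : Compat F} {G : ℤ → Submodule ℂ Z}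
    {hG : Compat G} (f : Y →ₗ[TT] Z) (hf : ∀ p y, y ∈ F p → f y ∈ G p) (x : WS F hF) (i : Fin 5) :
    (Wmap (hF := hF) (hG := hG) f hf x).1 i = f (x.1 i) := rfl

end WS

section Filt

variable {Y : Type} [AddCommGroup Y] [Module ℂ Y]

/-- `V_(m-1) ⊗ Y`, i.e. homogeneous elements of degree `m - 1` (zero for `m = 0`) -/
def Vh (m : ℕ) : Submodule ℂ (Fs ℂ) where
  carrier := {v | ∀ i k, i + k + 1 ≠ m → v i k = 0}
  add_mem' := by
    intro a b ha hb i k h
    simp [ha i k h, hb i k h]
  zero_mem' := fun _ _ _ => rfl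
  smul_mem' := by
    intro c a ha i k h
    simp [ha i k h]

/-- filtration of `Fs Y` induced by a filtration of `Y`, with support in degree `m - 1` -/
def FsF (m : ℕ) (F : ℤ → Submodule ℂ Y) (p : ℤ) : Submodule ℂ (Fs Y) where
  carrier := {y | ∀ i k, y i k ∈ F p ∧ (i + k + 1 ≠ m → y i k = 0)}
  add_mem' := by
    intro a b ha hb i k
    refine ⟨Submodule.add_mem _ (ha i k).1 (hb i k).1, fun h => ?_⟩
    simp [(ha i k).2 h, (hb i k).2 h]
  zero_mem' := fun _ _ => ⟨Submodule.zero_mem _, fun _ => rfl⟩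
  smul_mem' := by
    intro c a ha i k
    refine ⟨Submodule.smul_mem _ _ (ha i k).1, fun h => ?_⟩
    simp [(ha i k).2 h]

theorem mem_FsF {m : ℕ} {F : ℤ → Submodule ℂ Y} {p : ℤ} {y : Fs Y} :
    y ∈ FsF m F p ↔ ∀ i k, y i k ∈ F p ∧ (i + k + 1 ≠ m → y i k = 0) := Iff.rfl

/-- filtration of `Y^r`, shifted by `j` -/
def KF (r : ℕ) (j : ℤ) (F : ℤ → Submodule ℂ Y) (p : ℤ) : Submodule ℂ (Fin r → Y) where
  carrier := {c | ∀ a, c a ∈ F (p - j)}
  add_mem' := by
    intro a b ha hb i
    exact Submodule.add_mem _ (ha i) (hb i)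
  zero_mem' := fun _ => Submodule.zero_mem _
  smul_mem' := by
    intro c a ha i
    exact Submodule.smul_mem _ _ (ha i)

theorem mem_KF {r : ℕ} {j : ℤ} {F : ℤ → Submodule ℂ Y} {p : ℤ} {c : Fin r → Y} :
    c ∈ KF r j F p ↔ ∀ a, c a ∈ F (p - j) := Iff.rfl

end Filt

/-- compatibility of the filtrations of `(Fs N)^r` -/
theorem compatK (m r : ℕ) (j : ℤ) : Compat (KF r j (FsF m Nf)) := by
  intro a p t y ht hy ω i k
  refine ⟨?_, fun h => ?_⟩
  · have := Tf_smul ht (hy ω i k).1
    rwa [show a + (p - j) = a + p - j by ring] at this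
  · show t • (y ω i k) = 0
    rw [(hy ω i k).2 h, smul_zero]

/-- the module `C` : `(P_j ⊗ V_(m-1))^r` -/
abbrev CW (m r : ℕ) (j : ℤ) : Type := WS (KF r j (FsF m Nf)) (compatK m r j)

/-- right multiplication as a `T`-linear map -/
def RNT (i j : Fin 2) : Module.End TT N where
  toFun n := RN i j n
  map_add' := map_add _
  map_smul' t n := by
    rw [← TT_RN]
    rfl

@[simp] theorem RNT_apply (i j : Fin 2) (n : N) : RNT i j n = RN i j n := rfl

/-- the operators `T_a` on `Fs N`, `T`-linear -/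
def TN : Fin 4 → Module.End TT (Fs N) := Top RNT

end

end Crest.Agent.FD
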