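import Crest.Agent.FD.Defs1

/-!
# Row 178 (S0268), chunk DEG: degree filtration of `S = ℂ[X_00, X_01, X_10, X_11]`

`Sf m` = polynomials of total degree `≤ m` (`m : ℤ`, so `Sf m = ⊥` for `m < 0`).
-/

set_option autoImplicit false

namespace Crest.Agent.FD

open MvPolynomial

theorem deg_mem_Sf_iff {m : ℤ} {s : S} :
    s ∈ Sf m ↔ ∀ α ∈ s.support, ((α.degree : ℕ) : ℤ) ≤ m := by
  rw [Sf, mem_restrictSupport_iff]
  rfl

theorem deg_Sf_le {m : ℤ} (N : Submodule ℂ S)
    (h : ∀ α : I4 →₀ ℕ, ((α.degree : ℕ) : ℤ) ≤ m → monomial α (1 : ℂ) ∈ N) : Sf m ≤ N := by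
  rw [Sf, restrictSupport_eq_span, Submodule.span_le]
  rintro _ ⟨α, hα, rfl⟩
  exact h α hα

theorem deg_monomial_mem {m : ℤ} {α : I4 →₀ ℕ} (c : ℂ) (h : ((α.degree : ℕ) : ℤ) ≤ m) :
    (monomial α c : S) ∈ Sf m := by
  rw [Sf, monomial_mem_restrictSupport]
  exact Or.inl h

theorem Sf_mono {m m' : ℤ} (h : m ≤ m') : Sf m ≤ Sf m' := by
  intro s hs
  rw [deg_mem_Sf_iff] at hs ⊢
  exact fun α hα => (hs α hα).trans h

theorem Sf_neg {m : ℤ} (h : m < 0) : Sf m = ⊥ := by
  rw [eq_bot_iff]
  intro s hs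
  rw [deg_mem_Sf_iff] at hs
  rw [Submodule.mem_bot, ← MvPolynomial.support_eq_empty, Finset.eq_empty_iff_forall_notMem]
  intro α hα
  have := hs α hα
  omega

theorem one_mem_Sf : (1 : S) ∈ Sf 0 := by
  have : (1 : S) = monomial 0 1 := rfl
  rw [this]
  exact deg_monomial_mem _ (by simp)

theorem mem_Sf_zero {s : S} (h : s ∈ Sf 0) : ∃ c : ℂ, s = c • (1 : S) := by
  have key : Sf 0 ≤ Submodule.span ℂ {(1 : S)} := by
    apply deg_Sf_le
    intro α hα
    have h0 : α.degree = 0 := by omega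
    rw [Finsupp.degree_eq_zero_iff] at h0
    subst h0
    exact Submodule.subset_span rfl
  obtain ⟨c, hc⟩ := Submodule.mem_span_singleton.1 (key h)
  exact ⟨c, hc.symm⟩

theorem exists_mem_Sf (s : S) : ∃ m : ℕ, s ∈ Sf m := by
  refine ⟨s.support.sup (fun α => α.degree), ?_⟩
  rw [deg_mem_Sf_iff]
  intro α hα
  exact_mod_cast Finset.le_sup (f := fun α : I4 →₀ ℕ => α.degree) hα

theorem mX_mem {m : ℤ} {s : S} (a : I4) (h : s ∈ Sf m) : mX a s ∈ Sf (m + 1) := by
  have key : Sf m ≤ (Sf (m + 1)).comap (mX a) := by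
    apply deg_Sf_le
    intro α hα
    rw [Submodule.mem_comap, mX_apply, X, monomial_mul]
    apply deg_monomial_mem
    rw [map_add, Finsupp.degree_single]
    push_cast
    omega
  exact key h

theorem dX_mem {m : ℤ} {s : S} (a : I4) (h : s ∈ Sf m) : dX a s ∈ Sf (m - 1) := by
  have key : Sf m ≤ (Sf (m - 1)).comap (dX a) := by
    apply deg_Sf_le
    intro α hα
    rw [Submodule.mem_comap, dX_apply, pderiv_monomial]
    by_cases h0 : α a = 0
    · rw [h0]
      simp
    · apply deg_monomial_mem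
      have h1 : Finsupp.single a 1 ≤ α := by
        rw [Finsupp.single_le_iff]
        omega
      have h2 : α - Finsupp.single a 1 + Finsupp.single a 1 = α := tsub_add_cancel_of_le h1
      have h3 := congrArg Finsupp.degree h2
      rw [map_add, Finsupp.degree_single] at h3
      omega
  exact key h

/-- Euler: `∑ X_a ∂_a` acts as `m` modulo lower degree.  (On the monomial `X^α` it acts as
`|α|`; so `(|α| - m) X^α` is `0` or lies in `Sf (m-1)`.) -/
theorem euler_mem {m : ℤ} {s : S} (h : s ∈ Sf m) :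
    (mX (0, 0) (dX (0, 0) s) + mX (0, 1) (dX (0, 1) s) + mX (1, 0) (dX (1, 0) s)
      + mX (1, 1) (dX (1, 1) s)) - (m : ℂ) • s ∈ Sf (m - 1) := by
  have key : Sf m ≤ (Sf (m - 1)).comap (mX (0, 0) ∘ₗ dX (0, 0) + mX (0, 1) ∘ₗ dX (0, 1)
      + mX (1, 0) ∘ₗ dX (1, 0) + mX (1, 1) ∘ₗ dX (1, 1) - (m : ℂ) • LinearMap.id) := by
    apply deg_Sf_le
    intro α hα
    have h1 : ∀ a : I4, X a * pderiv a (monomial α (1 : ℂ)) = (α a : ℂ) • monomial α (1 : ℂ) := by
      intro a
      rw [X_mul_pderiv_monomial, Nat.cast_smul_eq_nsmul]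
    have h2 : (α.degree : ℂ) = α (0, 0) + α (0, 1) + α (1, 0) + α (1, 1) := by
      rw [Finsupp.degree_eq_sum, Fintype.sum_prod_type]
      simp [Fin.sum_univ_two]
      ring
    rw [Submodule.mem_comap]
    have h3 : (mX (0, 0) ∘ₗ dX (0, 0) + mX (0, 1) ∘ₗ dX (0, 1)
      + mX (1, 0) ∘ₗ dX (1, 0) + mX (1, 1) ∘ₗ dX (1, 1) - (m : ℂ) • LinearMap.id :
        S →ₗ[ℂ] S) (monomial α (1 : ℂ)) = ((α.degree : ℂ) - m) • monomial α (1 : ℂ) := by
      simp only [LinearMap.sub_apply, LinearMap.add_apply, LinearMap.comp_apply, mX_apply,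
        dX_apply, h1, LinearMap.smul_apply, LinearMap.id_apply, h2]
      module
    rw [h3]
    by_cases h4 : ((α.degree : ℕ) : ℤ) = m
    · have : ((α.degree : ℂ) - m) = 0 := by
        rw [← h4]
        simp
      rw [this, zero_smul]
      exact Submodule.zero_mem _
    · apply Submodule.smul_mem
      apply deg_monomial_mem
      omega
  exact key h

theorem Rop_sub_mem {m : ℤ} {s : S} (i j : Fin 2) (h : s ∈ Sf m) :
    Rop i j s - mX (i, j) s ∈ Sf m := by
  have h1 : Rop i j s - mX (i, j) s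
      = mX (0, j) (dX (0, i) s) + mX (1, j) (dX (1, i) s) := by
    rw [Rop_apply]
    simp
  rw [h1]
  have h2 := mX_mem (0, j) (dX_mem (0, i) h)
  have h3 := mX_mem (1, j) (dX_mem (1, i) h)
  rw [sub_add_cancel] at h2 h3
  exact Submodule.add_mem _ h2 h3

theorem Rop_mem {m : ℤ} {s : S} (i j : Fin 2) (h : s ∈ Sf m) : Rop i j s ∈ Sf (m + 1) := by
  have h1 := Sf_mono (by omega : m ≤ m + 1) (Rop_sub_mem i j h)
  have h2 := Submodule.add_mem _ h1 (mX_mem (i, j) h)
  rwa [sub_add_cancel] at h2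

theorem deg_Lop_sub_mem {m : ℤ} {s : S} (i j : Fin 2) (h : s ∈ Sf m) :
    Lop i j s - mX (i, j) s ∈ Sf m := by
  have h1 : Lop i j s - mX (i, j) s
      = mX (i, 0) (dX (j, 0) s) + mX (i, 1) (dX (j, 1) s) := by
    rw [Lop_apply]
    simp
  rw [h1]
  have h2 := mX_mem (i, 0) (dX_mem (j, 0) h)
  have h3 := mX_mem (i, 1) (dX_mem (j, 1) h)
  rw [sub_add_cancel] at h2 h3
  exact Submodule.add_mem _ h2 h3

theorem Lop_mem {m : ℤ} {s : S} (i j : Fin 2) (h : s ∈ Sf m) : Lop i j s ∈ Sf (m + 1) := by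
  have h1 := Sf_mono (by omega : m ≤ m + 1) (deg_Lop_sub_mem i j h)
  have h2 := Submodule.add_mem _ h1 (mX_mem (i, j) h)
  rwa [sub_add_cancel] at h2

theorem deg_exists_pred {α : I4 →₀ ℕ} (h : 0 < α.degree) :
    ∃ (i j : Fin 2) (β : I4 →₀ ℕ), β.degree + 1 = α.degree ∧
      (monomial α (1 : ℂ) : S) = mX (i, j) (monomial β (1 : ℂ)) := by
  have h0 : α ≠ 0 := by
    rintro rfl
    simp at h
  obtain ⟨⟨i, j⟩, ha⟩ := Finsupp.ne_iff.1 h0
  have ha' : α (i, j) ≠ 0 := by simpa using ha
  have h1 : Finsupp.single (i, j) 1 ≤ α := by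
    rw [Finsupp.single_le_iff]
    omega
  have h2 : α - Finsupp.single (i, j) 1 + Finsupp.single (i, j) 1 = α := tsub_add_cancel_of_le h1
  refine ⟨i, j, α - Finsupp.single (i, j) 1, ?_, ?_⟩
  · have h3 := congrArg Finsupp.degree h2
    rw [map_add, Finsupp.degree_single] at h3
    exact h3
  · rw [mX_apply, X, monomial_mul, add_comm, h2, one_mul]

/-- filtered generation by the right multiplications `Rop`: since
`Rop i j s = X_ij s + (degree ≤ deg s)`, every element of `Sf m` is obtained from `1` by at most `m`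
applications of the `Rop i j` and linear combinations. -/
theorem Sf_induction_R {P : ℤ → S → Prop} (hone : P 0 1) (hzero : ∀ m, P m 0)
    (hadd : ∀ m s s', P m s → P m s' → P m (s + s')) (hsmul : ∀ m (c : ℂ) s, P m s → P m (c • s))
    (hmono : ∀ m s, P m s → P (m + 1) s)
    (hR : ∀ m s i j, P m s → P (m + 1) (Rop i j s)) :
    ∀ m s, s ∈ Sf m → P m s := by
  have key : ∀ n : ℕ, ∀ s, s ∈ Sf n → P n s := by
    intro n
    induction n with
    | zero =>
      intro s hs
      obtain ⟨c, rfl⟩ := mem_Sf_zero hs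
      exact hsmul _ _ _ hone
    | succ n ih =>
      have h1 : Sf ((n + 1 : ℕ) : ℤ) ≤
          { carrier := {s | P ((n + 1 : ℕ) : ℤ) s}
            add_mem' := fun ha hb => hadd _ _ _ ha hb
            zero_mem' := hzero _
            smul_mem' := fun c x hx => hsmul _ c x hx } := by
        apply deg_Sf_le
        intro α hα
        show P ((n + 1 : ℕ) : ℤ) (monomial α 1)
        rw [Nat.cast_succ]
        by_cases h0 : α.degree ≤ n
        · exact hmono _ _ (ih _ (deg_monomial_mem _ (by exact_mod_cast h0)))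
        · obtain ⟨i, j, β, hβ, hm⟩ := deg_exists_pred (α := α) (by omega)
          have hβ' : (monomial β (1 : ℂ) : S) ∈ Sf n := by
            apply deg_monomial_mem
            push_cast at hα
            omega
          have h2 : (monomial α (1 : ℂ) : S) = Rop i j (monomial β 1)
              + (-1 : ℂ) • (Rop i j (monomial β 1) - mX (i, j) (monomial β 1)) := by
            rw [hm]
            module
          rw [h2]
          exact hadd _ _ _ (hR _ _ _ _ (ih _ hβ'))
            (hsmul _ _ _ (hmono _ _ (ih _ (Rop_sub_mem i j hβ'))))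
      intro s hs
      exact h1 hs
  intro m s hs
  by_cases hm : m < 0
  · rw [Sf_neg hm, Submodule.mem_bot] at hs
    rw [hs]
    exact hzero _
  · obtain ⟨n, rfl⟩ := Int.eq_ofNat_of_zero_le (not_lt.1 hm)
    exact key n s hs

/-- the same for `Lop`, without filtration -/
theorem S_induction_L {P : S → Prop} (hone : P 1) 
    (hadd : ∀ s s', P s → P s' → P (s + s')) (hsmul : ∀ (c : ℂ) s, P s → P (c • s))
    (hL : ∀ s i j, P s → P (Lop i j s)) :
    ∀ s, P s := by
  have hzero : P 0 := by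
    have := hsmul 0 1 hone
    rwa [zero_smul] at this
  have key : ∀ n : ℕ, ∀ s, s ∈ Sf n → P s := by
    intro n
    induction n with
    | zero =>
      intro s hs
      obtain ⟨c, rfl⟩ := mem_Sf_zero hs
      exact hsmul _ _ hone
    | succ n ih =>
      have h1 : Sf ((n + 1 : ℕ) : ℤ) ≤
          { carrier := {s | P s}
            add_mem' := fun ha hb => hadd _ _ ha hb
            zero_mem' := hzero
            smul_mem' := fun c x hx => hsmul c x hx } := by
        apply deg_Sf_le
        intro α hα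
        show P (monomial α 1)
        by_cases h0 : α.degree ≤ n
        · exact ih _ (deg_monomial_mem _ (by exact_mod_cast h0))
        · obtain ⟨i, j, β, hβ, hm⟩ := deg_exists_pred (α := α) (by omega)
          have hβ' : (monomial β (1 : ℂ) : S) ∈ Sf n := by
            apply deg_monomial_mem
            push_cast at hα
            omega
          have h2 : (monomial α (1 : ℂ) : S) = Lop i j (monomial β 1)
              + (-1 : ℂ) • (Lop i j (monomial β 1) - mX (i, j) (monomial β 1)) := by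
            rw [hm]
            module
          rw [h2]
          exact hadd _ _ (hL _ _ _ (ih _ hβ')) (hsmul _ _ (ih _ (deg_Lop_sub_mem i j hβ')))
      intro s hs
      exact h1 hs
  intro s
  obtain ⟨n, hn⟩ := exists_mem_Sf s
  exact key n s hn

theorem Sf_finite (m : ℤ) : Module.Finite ℂ (Sf m) := by
  have hfin : Set.Finite {α : I4 →₀ ℕ | ((α.degree : ℕ) : ℤ) ≤ m} := by
    apply (Finsupp.finite_of_degree_le (σ := I4) m.toNat).subset
    intro α hα
    simp only [Set.mem_ofPred_eq] at hα ⊢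
    omega
  have := hfin.to_subtype
  exact Module.Finite.of_basis (basisRestrictSupport ℂ {α : I4 →₀ ℕ | ((α.degree : ℕ) : ℤ) ≤ m})

theorem deg_mem_Sf_iff_totalDegree {n : ℕ} {s : S} : s ∈ Sf n ↔ s.totalDegree ≤ n := by
  rw [deg_mem_Sf_iff, MvPolynomial.totalDegree, Finset.sup_le_iff]
  constructor
  · intro h α hα
    have := h α hα
    rw [Finsupp.degree_apply] at this
    exact_mod_cast this
  · intro h α hα
    have := h α hα
    rw [Finsupp.degree_apply]
    exact_mod_cast this

/-- the determinant -/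
noncomputable def degDet : S := X (0, 0) * X (1, 1) - X (0, 1) * X (1, 0)

theorem degDet_ne : degDet ≠ 0 := by
  intro h
  have := congrArg (MvPolynomial.eval (fun a : I4 => if a.1 = a.2 then (1 : ℂ) else 0)) h
  simp [degDet] at this

theorem degDet_hom : degDet.IsHomogeneous 2 :=
  ((isHomogeneous_X ℂ _).mul (isHomogeneous_X ℂ _)).sub
    ((isHomogeneous_X ℂ _).mul (isHomogeneous_X ℂ _))

theorem degDet_totalDegree : degDet.totalDegree = 2 :=
  degDet_hom.totalDegree degDet_ne

theorem deg_of_det_mul {n : ℤ} {s : S} (h : degDet * s ∈ Sf (n + 2)) : s ∈ Sf n := by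
  by_cases hs : s = 0
  · rw [hs]
    exact Submodule.zero_mem _
  by_cases hn : n + 2 < 0
  · rw [Sf_neg hn, Submodule.mem_bot] at h
    exact absurd (mul_eq_zero.1 h) (by simp [degDet_ne, hs])
  obtain ⟨k, hk⟩ := Int.eq_ofNat_of_zero_le (not_lt.1 hn)
  rw [hk, deg_mem_Sf_iff_totalDegree, MvPolynomial.totalDegree_mul_of_isDomain degDet_ne hs,
    degDet_totalDegree] at h
  have h2 : s ∈ Sf (s.totalDegree : ℕ) := deg_mem_Sf_iff_totalDegree.2 le_rfl
  exact Sf_mono (by omega) h2

/-- strictness of `gt`: multiply `gt h = (R11 h0 - R01 h1, - R10 h0 + R00 h1)` by the adjugate of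
the matrix of leading forms: `X00 (gt h)_0 + X01 (gt h)_1 = (X00 X11 - X01 X10) h_0 + lower`.
If `gt h` has degree `≤ m+1` and `h` has degree `≤ d` with `d > m`, then
`(X00 X11 - X01 X10) h_l` has degree `≤ d + 1`, so `h_l` has degree `≤ d - 1`
(`MvPolynomial.totalDegree_mul_of_isDomain`).  Descend. -/
theorem gt_strict {m : ℤ} {h : P2} (hg : ∀ l, gt h l ∈ Sf (m + 1)) : ∀ l, h l ∈ Sf m := by
  have step : ∀ d : ℤ, m ≤ d → (∀ l, h l ∈ Sf (d + 1)) → ∀ l, h l ∈ Sf d := by
    intro d hd hh
    have e11 := Rop_sub_mem 1 1 (hh 0)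
    have e01 := Rop_sub_mem 0 1 (hh 1)
    have e10 := Rop_sub_mem 1 0 (hh 0)
    have e00 := Rop_sub_mem 0 0 (hh 1)
    have g0 := Sf_mono (by omega : m + 1 ≤ d + 1) (hg 0)
    have g1 := Sf_mono (by omega : m + 1 ≤ d + 1) (hg 1)
    rw [gt_zero] at g0
    rw [gt_one] at g1
    have f0 : X (1, 1) * h 0 - X (0, 1) * h 1 ∈ Sf (d + 1) := by
      have := Submodule.add_mem _ (Submodule.sub_mem _ g0 e11) e01
      convert this using 1
      simp only [mX_apply]
      ring
    have f1 : - (X (1, 0) * h 0) + X (0, 0) * h 1 ∈ Sf (d + 1) := by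
      have := Submodule.sub_mem _ (Submodule.add_mem _ g1 e10) e00
      convert this using 1
      simp only [mX_apply]
      ring
    intro l
    apply deg_of_det_mul
    have hd2 : d + 2 = d + 1 + 1 := by ring
    rw [hd2]
    fin_cases l
    · have := Submodule.add_mem _ (mX_mem (0, 0) f0) (mX_mem (0, 1) f1)
      convert this using 1
      simp only [mX_apply, degDet]
      simp
      ring
    · have := Submodule.add_mem _ (mX_mem (1, 0) f0) (mX_mem (1, 1) f1)
      convert this using 1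
      simp only [mX_apply, degDet]
      simp
      ring
  have down : ∀ k : ℕ, (∀ l, h l ∈ Sf (m + k)) → ∀ l, h l ∈ Sf m := by
    intro k
    induction k with
    | zero => intro hk l; simpa using hk l
    | succ k ih =>
      intro hk
      apply ih
      apply step (m + k) (by omega)
      intro l
      have := hk l
      push_cast at this
      rwa [← add_assoc] at this
  obtain ⟨m0, h0⟩ := exists_mem_Sf (h 0)
  obtain ⟨m1, h1⟩ := exists_mem_Sf (h 1)
  apply down (max (m0 : ℤ) m1 - m).toNat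
  intro l
  fin_cases l
  · exact Sf_mono (by omega) h0
  · exact Sf_mono (by omega) h1

end Crest.Agent.FD
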