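import Crest.Agent.FD.Inst

/-!
# Row 178 (S0268), chunk HQ: homology of `K(Q ⊗ V_n)`

`H_0 = V_(n-1)` (via `PsiQ`), `H_1 = V_(n-1)` (via `zQ`), `H_j = 0` for `j ≥ 2` (Snake).

Key identity (in `P2 ⊗ V_n`), for `p_0, p_1 ∈ V_n` and `e_l = Pi.single l 1`:
`gt (e_0 ⊗ p_0 + e_1 ⊗ p_1) = e_0 ⊗ (gV p)_0 + e_1 ⊗ (gV p)_1 + ce1 (zP p)` where
`zP p = (e_1 ⊗ p_1, - e_0 ⊗ p_1, - e_1 ⊗ p_0, e_0 ⊗ p_0)`
(components at `E_00, E_01, E_10, E_11`).
-/

set_option autoImplicit false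

namespace Crest.Agent.FD

open MvPolynomial

noncomputable section

/-- generators of `P2` -/
def eP (l : Fin 2) : P2 := Pi.single l 1

/-- `b_l ∈ Q` -/
def bQ (l : Fin 2) : Qb := qm (eP l)

/-- `zP p ∈ K_1(P2 ⊗ V_n)` -/
def zP (p : Fin 2 → Fs ℂ) : Fin 4 → Fs P2 :=
  ![pt (eP 1) (p 1), - pt (eP 0) (p 1), - pt (eP 1) (p 0), pt (eP 0) (p 0)]

/-- `zQ q ∈ K_1(Q ⊗ V_n)` for `q ∈ V_(n-1)` -/
def zQ (q : Fs ℂ) : Fin 4 → Fs Qb :=
  ![pt (bQ 1) (xfun 1 q), - pt (bQ 0) (xfun 1 q), - pt (bQ 1) (xfun 0 q), pt (bQ 0) (xfun 0 q)]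

theorem hqa_eP_mem (l : Fin 2) : eP l ∈ P2f 0 := by
  rw [mem_P2f]
  intro l'
  by_cases h : l' = l
  · subst h
    simpa [eP] using one_mem_Sf
  · simp [eP, h]

theorem hqa_eP_same (l : Fin 2) : eP l l = 1 := by simp [eP]

theorem hqa_eP_ne {l l' : Fin 2} (h : l' ≠ l) : eP l l' = 0 := by simp [eP, h]

theorem hqa_pt_mem {Y : Type} [AddCommGroup Y] [Module ℂ Y] {F : ℤ → Submodule ℂ Y} {m : ℤ} {y : Y}
    (hy : y ∈ F m) (n : ℕ) (v : Fs ℂ) (hv : v ∈ Vh n) : pt y v ∈ FsF n F m := by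
  intro i k
  refine ⟨Submodule.smul_mem _ _ hy, fun h => ?_⟩
  show v i k • y = 0
  rw [hv i k h, zero_smul]

theorem pt_mem (n : ℕ) (l : Fin 2) (v : Fs ℂ) (hv : v ∈ Vh (n + 1)) :
    pt (eP l) v ∈ FsF (n + 1) P2f 0 :=
  hqa_pt_mem (hqa_eP_mem l) (n + 1) v hv

/-- elements of `G 0` are of the form `e_0 ⊗ p_0 + e_1 ⊗ p_1` -/
theorem exists_pt (n : ℕ) (y : Fs P2) (hy : y ∈ FsF (n + 1) P2f 0) :
    ∃ p : Fin 2 → Fs ℂ, (∀ l, p l ∈ Vh (n + 1)) ∧ y = pt (eP 0) (p 0) + pt (eP 1) (p 1) := by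
  have key : ∀ i k l, ∃ c : ℂ, y i k l = c • (1 : S) := fun i k l =>
    mem_Sf_zero ((mem_P2f.1 (hy i k).1) l)
  choose c hc using key
  refine ⟨fun l i k => if i + k + 1 = n + 1 then c i k l else 0, ?_, ?_⟩
  · intro l i k h
    exact if_neg h
  · funext i k
    by_cases h : i + k + 1 = n + 1
    · funext l
      simp only [Pi.add_apply, pt, h, if_true, Pi.smul_apply]
      fin_cases l
      · simpa [eP] using hc i k 0
      · simpa [eP] using hc i k 1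
    · rw [(hy i k).2 h]
      simp only [Pi.add_apply, pt, h, if_false, zero_smul, add_zero]

theorem pt_inj (v w : Fs ℂ) (h : pt (eP 0) v + pt (eP 1) w = 0) : v = 0 ∧ w = 0 := by
  constructor
  · funext i k
    have h1 := congrFun (congrFun (congrFun h i) k) 0
    simpa [pt, eP] using h1
  · funext i k
    have h1 := congrFun (congrFun (congrFun h i) k) 1
    simpa [pt, eP] using h1

theorem hqa_Rop_one (i j : Fin 2) : Rop i j (1 : S) = X (i, j) := by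
  rw [Rop_apply]
  simp

theorem hqa_Top_pt {Y : Type} [AddCommGroup Y] [Module ℂ Y] (r : Fin 2 → Fin 2 → Module.End ℂ Y)
    (y : Y) (v : Fs ℂ) :
    Top r 0 (pt y v) = pt (r 0 0 y) v - pt y (rho ℂ ℂ 0 0 v) ∧
    Top r 1 (pt y v) = pt (r 0 1 y) v - pt y (rho ℂ ℂ 0 1 v) ∧
    Top r 2 (pt y v) = pt (r 1 0 y) v - pt y (rho ℂ ℂ 1 0 v) ∧
    Top r 3 (pt y v) = pt (r 1 1 y) v - pt y (rho ℂ ℂ 1 1 v) := by
  have key : ∀ i j : Fin 2, (pw (r i j) - rho ℂ Y i j) (pt y v) =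
      pt (r i j y) v - pt y (rho ℂ ℂ i j v) := by
    intro i j
    have h1 : pw (r i j) (pt y v) = pt (r i j y) v := by
      funext a b
      simp [pt]
    have h2 : rho ℂ Y i j (pt y v) = pt y (rho ℂ ℂ i j v) := by
      have h3 : ∀ j : Fin 2, ∀ v : Fs ℂ, dfun j (pt y v) = pt y (dfun j v) := by
        intro j v
        funext a b
        simp only [dfun, pt]
        split_ifs <;> exact (smul_assoc _ _ _).symm
      have h4 : ∀ j : Fin 2, ∀ v : Fs ℂ, xfun j (pt y v) = pt y (xfun j v) := by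
        intro j v
        funext a b
        simp only [xfun, pt]
        split_ifs <;> simp
      rw [rho_apply, rho_apply, h3, h4]
    rw [LinearMap.sub_apply, h1, h2]
  exact ⟨key 0 0, key 0 1, key 1 0, key 1 1⟩

theorem hqa_pt_add {Y : Type} [AddCommGroup Y] [Module ℂ Y] (y : Y) (v w : Fs ℂ) :
    pt y (v + w) = pt y v + pt y w := by
  funext i k
  simp [pt, add_smul]

theorem hqa_pt_sub {Y : Type} [AddCommGroup Y] [Module ℂ Y] (y : Y) (v w : Fs ℂ) :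
    pt y (v - w) = pt y v - pt y w := by
  funext i k
  simp [pt, sub_smul]

theorem hqa_pt_neg {Y : Type} [AddCommGroup Y] [Module ℂ Y] (y : Y) (v : Fs ℂ) :
    pt y (- v) = - pt y v := by
  funext i k
  simp [pt]

theorem hqa_pt_smul {Y : Type} [AddCommGroup Y] [Module ℂ Y] (y : Y) (c : ℂ) (v : Fs ℂ) :
    pt y (c • v) = c • pt y v := by
  funext i k
  simp [pt, mul_smul]

theorem hqa_pt_zero {Y : Type} [AddCommGroup Y] [Module ℂ Y] (y : Y) :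
    pt y (0 : Fs ℂ) = 0 := by
  funext i k
  simp [pt]

theorem hqa_pw_pt {Y Z : Type} [AddCommGroup Y] [Module ℂ Y] [AddCommGroup Z] [Module ℂ Z]
    (f : Y →ₗ[ℂ] Z) (y : Y) (v : Fs ℂ) : pw f (pt y v) = pt (f y) v := by
  funext i k
  simp [pt]

/-- the key identity -/
theorem key_zP (p : Fin 2 → Fs ℂ) :
    (fun _ => pw gt (pt (eP 0) (p 0) + pt (eP 1) (p 1))) =
      (fun _ => pt (eP 0) (gV p 0) + pt (eP 1) (gV p 1) : Fin 1 → Fs P2) +
        ce1 (Top Rt) (zP p) := by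
  funext a
  fin_cases a
  have e1 : ce1 (Top Rt) (zP p) 0 = Top Rt 0 (pt (eP 1) (p 1)) - Top Rt 1 (pt (eP 0) (p 1))
      - Top Rt 2 (pt (eP 1) (p 0)) + Top Rt 3 (pt (eP 0) (p 0)) := by
    simp [ce1, cel1, zP]
    abel
  have e2 : pw gt (pt (eP 0) (p 0) + pt (eP 1) (p 1)) = pt (gt (eP 0)) (p 0) + pt (gt (eP 1)) (p 1)
      := by rw [map_add, hqa_pw_pt, hqa_pw_pt]
  show pw gt (pt (eP 0) (p 0) + pt (eP 1) (p 1)) =
    (pt (eP 0) (gV p 0) + pt (eP 1) (gV p 1)) + ce1 (Top Rt) (zP p) 0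
  rw [e1, e2, (hqa_Top_pt Rt (eP 1) (p 1)).1, (hqa_Top_pt Rt (eP 0) (p 1)).2.1,
    (hqa_Top_pt Rt (eP 1) (p 0)).2.2.1, (hqa_Top_pt Rt (eP 0) (p 0)).2.2.2, gV_eq]
  simp only [Matrix.cons_val_zero, Matrix.cons_val_one, hqa_pt_add, hqa_pt_sub, hqa_pt_neg]
  have g0 : gt (eP 0) = Rt 1 1 (eP 0) - Rt 1 0 (eP 1) + eP 0 := by
    funext l
    fin_cases l <;> simp [gt_zero, gt_one, Rt_apply, eP, hqa_Rop_one]
  have g1 : gt (eP 1) = Rt 0 0 (eP 1) - Rt 0 1 (eP 0) + eP 1 := by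
    funext l
    fin_cases l <;> simp [gt_zero, gt_one, Rt_apply, eP, hqa_Rop_one]
  have g0' : pt (gt (eP 0)) (p 0) = pt (Rt 1 1 (eP 0)) (p 0) - pt (Rt 1 0 (eP 1)) (p 0)
      + pt (eP 0) (p 0) := by
    rw [g0]
    funext i k
    simp [pt, smul_add, smul_sub]
  have g1' : pt (gt (eP 1)) (p 1) = pt (Rt 0 0 (eP 1)) (p 1) - pt (Rt 0 1 (eP 0)) (p 1)
      + pt (eP 1) (p 1) := by
    rw [g1]
    funext i k
    simp [pt, smul_add, smul_sub]
  rw [g0', g1']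
  abel

theorem hqa_zP_nat (p : Fin 2 → Fs ℂ) (a : Fin 4) : pw qm (zP p a) =
    (![pt (bQ 1) (p 1), - pt (bQ 0) (p 1), - pt (bQ 1) (p 0), pt (bQ 0) (p 0)] : Fin 4 → Fs Qb) a := by
  fin_cases a <;> simp [zP, hqa_pw_pt, bQ]

theorem zQ_eq (q : Fs ℂ) : zQ q = fun a => pw qm (zP (fun l => xfun l q) a) := by
  funext a
  rw [hqa_zP_nat]
  rfl

theorem zQ_mem (n : ℕ) (q : Fs ℂ) (hq : q ∈ Vh n) (a : Fin 4) :
    zQ q a ∈ FsF (n + 1) Qf (-1) := by
  have hb : ∀ l, bQ l ∈ Qf (-1) := by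
    intro l
    refine Submodule.mem_map_of_mem (f := qm) ?_
    simpa using hqa_eP_mem l
  have hx : ∀ j, xfun j q ∈ Vh (n + 1) := fun j => xfun_mem_Vh j n q hq
  fin_cases a
  · exact hqa_pt_mem (hb 1) _ _ (hx 1)
  · exact Submodule.neg_mem _ (hqa_pt_mem (hb 0) _ _ (hx 1))
  · exact Submodule.neg_mem _ (hqa_pt_mem (hb 1) _ _ (hx 0))
  · exact hqa_pt_mem (hb 0) _ _ (hx 0)

theorem hqa_nat1 {Y Z : Type} [AddCommGroup Y] [Module ℂ Y] [AddCommGroup Z] [Module ℂ Z]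
    (T : Fin 4 → Module.End ℂ Y) (T' : Fin 4 → Module.End ℂ Z) (f : Y →ₗ[ℂ] Z)
    (h : ∀ a y, f (T a y) = T' a (f y)) (c : Fin 4 → Y) :
    ce1 T' (fun a => f (c a)) = fun a => f (ce1 T c a) := by
  funext a
  fin_cases a
  simp [ce1, cel1, h]

theorem hqa_nat2 {Y Z : Type} [AddCommGroup Y] [Module ℂ Y] [AddCommGroup Z] [Module ℂ Z]
    (T : Fin 4 → Module.End ℂ Y) (T' : Fin 4 → Module.End ℂ Z) (f : Y →ₗ[ℂ] Z)
    (h : ∀ a y, f (T a y) = T' a (f y)) (c : Fin 6 → Y) :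
    ce2 T' (fun a => f (c a)) = fun a => f (ce2 T c a) := by
  funext a
  fin_cases a <;> simp [ce2, cel2, cec2, h]

theorem hqa_ce1_qm (c : Fin 4 → Fs P2) :
    ce1 (Top RQ) (fun a => pw qm (c a)) = fun a => pw qm (ce1 (Top Rt) c a) :=
  hqa_nat1 (Top Rt) (Top RQ) (pw qm) (KQ 0).hπT c

theorem hqa_ce2_qm (c : Fin 6 → Fs P2) :
    ce2 (Top RQ) (fun a => pw qm (c a)) = fun a => pw qm (ce2 (Top Rt) c a) :=
  hqa_nat2 (Top Rt) (Top RQ) (pw qm) (KQ 0).hπT c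

theorem hqa_ce1_gt (c : Fin 4 → Fs P2) :
    ce1 (Top Rt) (fun a => pw gt (c a)) = fun a => pw gt (ce1 (Top Rt) c a) :=
  hqa_nat1 (Top Rt) (Top Rt) (pw gt) (KQ 0).hγT c

theorem hqa_qm_gt (y : Fs P2) : pw qm (pw gt y) = 0 := by
  funext i k
  exact qm_gt _

theorem hqa_ce1_zP_x (q : Fs ℂ) : ce1 (Top Rt) (zP (fun l => xfun l q)) =
    fun _ => pw gt (pt (eP 0) (xfun 0 q) + pt (eP 1) (xfun 1 q)) := by
  have h := key_zP (fun l => xfun l q)
  rw [gV_x] at h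
  simp only [Pi.zero_apply, hqa_pt_zero, add_zero] at h
  rw [h]
  funext a
  simp

theorem zQ_cycle (q : Fs ℂ) : ce1 (Top RQ) (zQ q) = 0 := by
  rw [zQ_eq, hqa_ce1_qm, hqa_ce1_zP_x]
  funext a
  exact hqa_qm_gt _

/-- every 1-cycle is homologous to some `zQ q` (`exZ1`, `key_zP`, `sep`, `gV_ker`, `ex1`) -/
theorem HQ1 (n : ℕ) (m : ℤ) (c : Fin 4 → Fs Qb) (hc : ∀ a, c a ∈ FsF (n + 1) Qf m)
    (h : ce1 (Top RQ) c = 0) :
    ∃ q ∈ Vh n, ∃ w : Fin 6 → Fs Qb, (∀ a, w a ∈ FsF (n + 1) Qf (m - 1)) ∧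
      c = zQ q + ce2 (Top RQ) w := by
  by_cases hm : m + 1 < 0
  · have hc0 : c = 0 := by
      funext a
      funext i k
      have h1 := (hc a i k).1
      rw [Qf, P2f, Sf_neg hm] at h1
      obtain ⟨y, hy, hy2⟩ := h1
      have : y = 0 := by
        funext l
        have := hy l (Set.mem_univ _)
        simpa using this
      rw [this, map_zero] at hy2
      exact hy2.symm
    refine ⟨0, Submodule.zero_mem _, 0, fun a => Submodule.zero_mem _, ?_⟩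
    rw [hc0, map_zero, zQ_eq]
    have hx : (fun l : Fin 2 => xfun l (0 : Fs ℂ)) = 0 := by
      funext l
      exact map_zero (xop ℂ ℂ l)
    rw [hx, add_zero]
    funext a
    show 0 = pw qm (zP 0 a)
    rw [hqa_zP_nat]
    fin_cases a <;> simp [hqa_pt_zero]
  · obtain ⟨c', hc', hpc, y₀, hy₀, hce⟩ := (KQ n).exZ1 m c (by simpa only [GZ_KQ] using hc) h
    obtain ⟨p, hp, hy⟩ := exists_pt n (y₀ 0) (hy₀ 0)
    have hkey := key_zP p
    have hcc : ce1 (Top Rt) (c' - zP p) = fun _ => pt (eP 0) (gV p 0) + pt (eP 1) (gV p 1) := by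
      have h1 : ce1 (Top Rt) c' = fun _ => pw gt (pt (eP 0) (p 0) + pt (eP 1) (p 1)) := by
        have h2 : ce1 (Top Rt) c' = fun a => pw gt (y₀ a) := hce
        rw [h2]
        funext a
        fin_cases a
        show pw gt (y₀ 0) = _
        rw [hy]
      rw [map_sub, h1, hkey]
      abel
    have hzP : ∀ a, zP p a ∈ FsF (n + 1) P2f 0 := by
      intro a
      fin_cases a
      · exact pt_mem n 1 _ (hp 1)
      · exact Submodule.neg_mem _ (pt_mem n 0 _ (hp 1))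
      · exact Submodule.neg_mem _ (pt_mem n 1 _ (hp 0))
      · exact pt_mem n 0 _ (hp 0)
    have hmono : ∀ {m m' : ℤ}, m ≤ m' → FsF (n + 1) P2f m ≤ FsF (n + 1) P2f m' :=
      fun {m m'} h => (KQ n).hGmono m m' h
    have hmem : ∀ a, (c' - zP p) a ∈ FsF (n + 1) P2f (m + 1) := fun a =>
      Submodule.sub_mem _ (hc' a) (hmono (by omega) (hzP a))
    have hgVm := gV_mem n p hp
    have hsep : ce1 (Top Rt) (c' - zP p) = 0 := by
      refine (KQ n).toKData.sep (m + 1) (c' - zP p) hmem fun a => ?_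
      show ce1 (Top Rt) (c' - zP p) a ∈ FsF (n + 1) P2f 0
      rw [hcc]
      exact Submodule.add_mem _ (pt_mem n 0 _ (hgVm 0)) (pt_mem n 1 _ (hgVm 1))
    have hg : gV p = 0 := by
      rw [hsep] at hcc
      have h1 := pt_inj _ _ (congrFun hcc 0).symm
      funext l
      fin_cases l
      · exact h1.1
      · exact h1.2
    obtain ⟨q, hq, hpq⟩ := gV_ker n p hp hg
    obtain ⟨w, hw, hwc⟩ := (KQ n).toKData.ex1 (m + 1) (c' - zP p) hmem hsep
    refine ⟨q, hq, fun a => pw qm (w a), fun a => ?_, ?_⟩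
    · rw [← GZ_KQ]
      refine Submodule.mem_map_of_mem (f := (KQ n).π) ?_
      have := hw a
      simpa using this
    · have hpx : p = fun l => xfun l q := funext hpq
      rw [zQ_eq, ← hpx, hqa_ce2_qm]
      funext a
      have h1 : c' a = zP p a + ce2 (Top Rt) w a := by
        have h2 : ce2 (Top Rt) w = c' - zP p := hwc
        rw [h2, Pi.sub_apply]
        abel
      have h3 : pw qm (c' a) = c a := hpc a
      rw [← h3, h1, map_add]
      rfl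

/-- `zQ q` is a boundary only if `q = 0` (lift to `P2`, apply `ce1`, injectivity of `gt`, `sep`) -/
theorem HQ1_inj (n : ℕ) (m : ℤ) (q : Fs ℂ) (hq : q ∈ Vh n) (w : Fin 6 → Fs Qb)
    (hw : ∀ a, w a ∈ FsF (n + 1) Qf m) (h : zQ q = ce2 (Top RQ) w) : q = 0 := by
  have hlift : ∀ a, ∃ y ∈ FsF (n + 1) P2f (m + 1), pw qm y = w a := by
    intro a
    have h1 := hw a
    rw [← GZ_KQ] at h1
    exact h1
  choose w' hw' hww using hlift
  have hq1 : ∀ l, xfun l q ∈ Vh (n + 1) := fun j => xfun_mem_Vh j n q hq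
  have hzP : ∀ a, zP (fun l => xfun l q) a ∈ FsF (n + 1) P2f 0 := by
    intro a
    fin_cases a
    · exact pt_mem n 1 _ (hq1 1)
    · exact Submodule.neg_mem _ (pt_mem n 0 _ (hq1 1))
    · exact Submodule.neg_mem _ (pt_mem n 1 _ (hq1 0))
    · exact pt_mem n 0 _ (hq1 0)
  have hmono : ∀ {m m' : ℤ}, m ≤ m' → FsF (n + 1) P2f m ≤ FsF (n + 1) P2f m' :=
    fun {m m'} h => (KQ n).hGmono m m' h
  set M : ℤ := max 0 (m + 1 + 1) with hM
  have hce2 : ∀ a, ce2 (Top Rt) w' a ∈ FsF (n + 1) P2f (m + 1 + 1) :=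
    (KQ n).toKData.ce2_mem (m + 1) w' hw'
  have hd : ∀ a, (zP (fun l => xfun l q) - ce2 (Top Rt) w') a ∈ FsF (n + 1) P2f M := fun a =>
    Submodule.sub_mem _ (hmono (le_max_left _ _) (hzP a)) (hmono (le_max_right _ _) (hce2 a))
  have hπ : ∀ a, pw qm ((zP (fun l => xfun l q) - ce2 (Top Rt) w') a) = 0 := by
    intro a
    rw [Pi.sub_apply, map_sub, sub_eq_zero]
    have h1 := congrFun h a
    have h2 : w = fun a => pw qm (w' a) := funext fun a => (hww a).symm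
    rw [zQ_eq, h2, hqa_ce2_qm] at h1
    exact h1
  have hker : ∀ a, ∃ u ∈ FsF (n + 1) P2f (M - 1),
      pw gt u = (zP (fun l => xfun l q) - ce2 (Top Rt) w') a := fun a =>
    (KQ n).hker M _ (hd a) (hπ a)
  choose u hu hug using hker
  have h1 : ce1 (Top Rt) (zP (fun l => xfun l q)) = fun a => pw gt (ce1 (Top Rt) u a) := by
    rw [← hqa_ce1_gt]
    have h2 : (fun a => pw gt (u a)) = zP (fun l => xfun l q) - ce2 (Top Rt) w' := funext hug
    have h3 : ce1 (Top Rt) (ce2 (Top Rt) w') = 0 := KData.ce1_ce2 (KQ n).hT w'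
    rw [h2, map_sub, h3, sub_zero]
  rw [hqa_ce1_zP_x] at h1
  have h4 := congrFun h1 0
  have hcu : ∀ a, ce1 (Top Rt) u a ∈ FsF (n + 1) P2f (M - 1 + 1) :=
    (KQ n).toKData.ce1_mem (M - 1) u hu
  have hpt : pt (eP 0) (xfun 0 q) + pt (eP 1) (xfun 1 q) ∈ FsF (n + 1) P2f 0 :=
    Submodule.add_mem _ (pt_mem n 0 _ (hq1 0)) (pt_mem n 1 _ (hq1 1))
  have h5 : pt (eP 0) (xfun 0 q) + pt (eP 1) (xfun 1 q) - ce1 (Top Rt) u 0 = 0 := by
    have hcu0 : ce1 (Top Rt) u 0 ∈ FsF (n + 1) P2f M := by simpa using hcu 0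
    refine (KQ n).γ_inj M _ (Submodule.sub_mem _ (hmono (le_max_left _ _) hpt) hcu0) ?_
    show pw gt _ = 0
    rw [map_sub, sub_eq_zero]
    exact h4
  rw [sub_eq_zero] at h5
  have h6 : ce1 (Top Rt) u = 0 := by
    refine (KQ n).toKData.sep (M - 1) u hu fun a => ?_
    fin_cases a
    show ce1 (Top Rt) u 0 ∈ FsF (n + 1) P2f 0
    rw [← h5]
    exact hpt
  rw [h6] at h5
  exact xfun_injective 0 q (pt_inj _ _ h5).1

/-- `H_0`: by `exZ0`, `c ≡ b_0 ⊗ p_0 + b_1 ⊗ p_1`; evaluation gives `∂_0 p_0 + ∂_1 p_1 = 0`, so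
`p = gV p / (n+1)` (`gV_div`) and `key_zP` shows that it is a boundary -/
theorem HQ0 (n : ℕ) (m : ℤ) (hm : 0 ≤ m) (c : Fin 1 → Fs Qb) (hc : ∀ a, c a ∈ FsF (n + 1) Qf m)
    (h : evG PsiQ n (c 0) = 0) :
    ∃ w : Fin 4 → Fs Qb, (∀ a, w a ∈ FsF (n + 1) Qf (m - 1)) ∧ ce1 (Top RQ) w = c := by
  obtain ⟨y₀, hy₀, w, hw, hcw⟩ := (KQ n).exZ0 m c (by simpa only [GZ_KQ] using hc)
  have hcw' : c = (fun a => pw qm (y₀ a)) + ce1 (Top RQ) w := hcw
  obtain ⟨p, hp, hy⟩ := exists_pt n (y₀ 0) (hy₀ 0)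
  have hev : evG PsiQ n (ce1 (Top RQ) w 0) = 0 := by
    have hT : ∀ a y, evG PsiQ n (Top RQ a y) = 0 := fun a y =>
      evG_Top PsiQ n RQ (fun i j y v => by rw [PsiQ_RQ]; rfl) a y
    simp [ce1, cel1, hT]
  have hy1 : (fun a => pw qm (y₀ a)) = fun _ => pt (bQ 0) (p 0) + pt (bQ 1) (p 1) := by
    funext a
    fin_cases a
    show pw qm (y₀ 0) = _
    rw [hy, map_add, hqa_pw_pt, hqa_pw_pt]
    rfl
  have hPsib : ∀ l (v : Fs ℂ), PsiQ (bQ l) v = dfun l v := by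
    intro l v
    fin_cases l
    · show PsiP (eP 0) v = _
      rw [PsiP_apply, hqa_eP_same, hqa_eP_ne (by decide : (1 : Fin 2) ≠ 0), Psi_one, map_zero]
      simp [dop_apply]
    · show PsiP (eP 1) v = _
      rw [PsiP_apply, hqa_eP_same, hqa_eP_ne (by decide : (0 : Fin 2) ≠ 1), Psi_one, map_zero]
      simp [dop_apply]
  have hdiv : dfun 0 (p 0) + dfun 1 (p 1) = 0 := by
    rw [hcw', hy1, Pi.add_apply, map_add, hev, add_zero, map_add, evG_pt _ _ _ _ (hp 0),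
      evG_pt _ _ _ _ (hp 1), hPsib, hPsib] at h
    exact h
  have hgd := gV_div n p hp hdiv
  have hn : ((n : ℂ) + 1) ≠ 0 := by
    exact_mod_cast Nat.succ_ne_zero n
  have hz : ce1 (Top RQ) (fun a => pw qm (zP p a)) =
      - (((n : ℂ) + 1) • fun _ => pt (bQ 0) (p 0) + pt (bQ 1) (p 1)) := by
    rw [hqa_ce1_qm]
    have h1 := key_zP p
    have h2 : ce1 (Top Rt) (zP p) = fun _ => pw gt (pt (eP 0) (p 0) + pt (eP 1) (p 1)) -
        (pt (eP 0) (gV p 0) + pt (eP 1) (gV p 1)) := by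
      funext a
      have h3 := congrFun h1 a
      simp only [Pi.add_apply] at h3
      rw [eq_sub_iff_add_eq, h3]
      abel
    rw [h2]
    funext a
    show pw qm (pw gt (pt (eP 0) (p 0) + pt (eP 1) (p 1)) -
      (pt (eP 0) (gV p 0) + pt (eP 1) (gV p 1))) =
        - (((n : ℂ) + 1) • (pt (bQ 0) (p 0) + pt (bQ 1) (p 1)))
    rw [map_sub, hqa_qm_gt, zero_sub, hgd, hgd, hqa_pt_smul, hqa_pt_smul, ← smul_add, map_smul,
      map_add, hqa_pw_pt, hqa_pw_pt]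
    rfl
  refine ⟨w - ((n : ℂ) + 1)⁻¹ • fun a => pw qm (zP p a), fun a => ?_, ?_⟩
  · refine Submodule.sub_mem _ ?_ (Submodule.smul_mem _ _ ?_)
    · have := hw a
      rwa [GZ_KQ] at this
    · have hzP : zP p a ∈ FsF (n + 1) P2f 0 := by
        fin_cases a
        · exact pt_mem n 1 _ (hp 1)
        · exact Submodule.neg_mem _ (pt_mem n 0 _ (hp 1))
        · exact Submodule.neg_mem _ (pt_mem n 1 _ (hp 0))
        · exact pt_mem n 0 _ (hp 0)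
      rw [← GZ_KQ]
      refine Submodule.mem_map_of_mem (f := (KQ n).π) ?_
      exact (KQ n).hGmono 0 _ (by omega) hzP
  · rw [map_sub, map_smul, hz, hcw', hy1, smul_neg, smul_smul, inv_mul_cancel₀ hn, one_smul]
    abel

theorem HQ2 (n : ℕ) (m : ℤ) (c : Fin 6 → Fs Qb) (hc : ∀ a, c a ∈ FsF (n + 1) Qf m)
    (h : ce2 (Top RQ) c = 0) :
    ∃ w : Fin 4 → Fs Qb, (∀ a, w a ∈ FsF (n + 1) Qf (m - 1)) ∧ ce3 (Top RQ) w = c := by
  have := (KQ n).exZ2 m c (by simpa only [GZ_KQ] using hc) h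
  simp only [GZ_KQ] at this
  exact this

theorem HQ3 (n : ℕ) (m : ℤ) (c : Fin 4 → Fs Qb) (hc : ∀ a, c a ∈ FsF (n + 1) Qf m)
    (h : ce3 (Top RQ) c = 0) :
    ∃ w : Fin 1 → Fs Qb, (∀ a, w a ∈ FsF (n + 1) Qf (m - 1)) ∧ ce4 (Top RQ) w = c := by
  have := (KQ n).exZ3 m c (by simpa only [GZ_KQ] using hc) h
  simp only [GZ_KQ] at this
  exact this

theorem HQ4 (n : ℕ) (m : ℤ) (c : Fin 1 → Fs Qb) (hc : ∀ a, c a ∈ FsF (n + 1) Qf m)
    (h : ce4 (Top RQ) c = 0) : c = 0 :=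
  (KQ n).exZ4 m c (by simpa only [GZ_KQ] using hc) h

/-- `H_0` of `K(S ⊗ V_n)` (`ex0`, elements of `G 0` are `1 ⊗ v`, and `evG Psi n (1 ⊗ v) = v`) -/
theorem HS0 (n : ℕ) (m : ℤ) (c : Fin 1 → Fs S) (hc : ∀ a, c a ∈ FsF (n + 1) Sf m)
    (h : evG Psi n (c 0) = 0) :
    ∃ w : Fin 4 → Fs S, (∀ a, w a ∈ FsF (n + 1) Sf (m - 1)) ∧ ce1 (Top Rop) w = c := by
  obtain ⟨g, hg, w, hw, hcw⟩ := (KS n).ex0 m c hc
  have hcw' : c = g + ce1 (Top Rop) w := hcw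
  have hev : evG Psi n (ce1 (Top Rop) w 0) = 0 := by
    have hT : ∀ a y, evG Psi n (Top Rop a y) = 0 := fun a y =>
      evG_Top Psi n Rop (fun i j y v => by rw [Psi_Rop]; rfl) a y
    simp [ce1, cel1, hT]
  have hg0 : ∃ v ∈ Vh (n + 1), g 0 = pt (1 : S) v := by
    have key : ∀ i k, ∃ c : ℂ, g 0 i k = c • (1 : S) := fun i k => mem_Sf_zero (hg 0 i k).1
    choose b hb using key
    refine ⟨fun i k => if i + k + 1 = n + 1 then b i k else 0, ?_, ?_⟩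
    · intro i k h
      exact if_neg h
    · funext i k
      by_cases h : i + k + 1 = n + 1
      · simp only [pt, h, if_true]
        exact hb i k
      · rw [(hg 0 i k).2 h]
        simp only [pt, h, if_false, zero_smul]
  obtain ⟨v, hv, hgv⟩ := hg0
  have hv0 : v = 0 := by
    rw [hcw', Pi.add_apply, map_add, hev, add_zero, hgv, evG_pt _ _ _ _ hv, Psi_one] at h
    exact h
  refine ⟨w, hw, ?_⟩
  rw [hcw']
  funext a
  fin_cases a
  show ce1 (Top Rop) w 0 = g 0 + ce1 (Top Rop) w 0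
  rw [hgv, hv0, hqa_pt_zero, zero_add]

end

end Crest.Agent.FD
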