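import Mathlib

/-!
# Row 178 (S0268), chunk HOMO: the homological bookkeeping (over an arbitrary ring `A`)

Given modules `X n` (`X 0 = 0`) and exact sequences
* `0 → X n → E n → X (n+1) → 0`,
* `0 → X n → Q n → C0 n → E n → 0`,
* `0 → C4 n → C3 n → C2 n → C1 n → Q n → 0`,  `C0, ..., C4` projective,
and such that `C4 0 → C3 0` has no retraction, every `X n` has finite projective dimension and
these are unbounded.

Proof.  `HasProjectiveDimensionLT` abbreviated `PD`.  `PD (Q n) 4`.  Let `K n = ker (C0 n → E n)`.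
Finite: induction on `n` using `0 → X n → Q n → K n → 0`, `0 → K n → C0 n → E n → 0`,
`0 → X n → E n → X (n+1) → 0` and `hasProjectiveDimensionLT_X₃`.
Unbounded: assume `∀ n, PD (X n) m`.  Claim: `∀ n, PD (X n) (m+1)` and `4 ≤ m - 1` imply
`∀ n, PD (X n) (m-1)`: `PD (E n) (m+1)` (X₂), `PD (K n) m` (X₁, `C0 n` projective), `PD (X n) (m-1)`
(X₁ with `PD (Q n) 4`).  So `∀ n, PD (X n) 4` (or directly a statement like
`∀ n, PD (X n) (4 + 2 * j)` → `∀ n, PD (X n) 4`, induction on `j`; from `PD (X n) m` get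
`PD (X n) (4 + 2 * m)` by monotonicity).  For `n = 0`: `E 0 ≅ X 1` so `PD (E 0) 4`, `PD (K 0) 3`,
`K 0 ≅ Q 0`, so `PD (Q 0) 3`, `ker (C1 0 → Q 0) = range (C2 0 → C1 0)` has `PD 2`,
`ker (C2 0 → C1 0) = range (C3 0 → C2 0)` has `PD 1`, i.e. is projective, so the exact sequence
`0 → C4 0 → C3 0 → range → 0` splits: contradiction.
Suggestion: prove a helper converting `Function.Exact`/injective/surjective linear maps between
`ModuleCat`s to `ShortComplex.ShortExact` (e.g. `ModuleCat.shortExact...`), then use the lemmas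
`CategoryTheory.ShortComplex.ShortExact.hasProjectiveDimensionLT_X₁` etc. of
`Mathlib/CategoryTheory/Abelian/Projective/Dimension.lean`.
-/

set_option autoImplicit false

namespace Crest.Agent.FD

open CategoryTheory

section aux

variable {A : Type} [Ring A]

/-- projective dimension `< n` for modules -/
abbrev PD (A : Type) [Ring A] (M : Type) [AddCommGroup M] [Module A M] (n : ℕ) : Prop :=
  HasProjectiveDimensionLT (ModuleCat.of A M) n

theorem PD.mono {M : Type} [AddCommGroup M] [Module A M] {n m : ℕ} (h : PD A M n) (hnm : n ≤ m) :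
    PD A M m := hasProjectiveDimensionLT_of_ge _ n m hnm

theorem PD.of_proj {M : Type} [AddCommGroup M] [Module A M] (h : Module.Projective A M) (n : ℕ) :
    PD A M (n + 1) := by
  have h1 : Projective (ModuleCat.of A M) := (IsProjective.iff_projective M).mp h
  have h2 : PD A M 1 := inferInstance
  exact h2.mono (by omega)

theorem PD.of_subsingleton {M : Type} [AddCommGroup M] [Module A M] (h : Subsingleton M) (n : ℕ) :
    PD A M n := by
  have h1 : Limits.IsZero (ModuleCat.of A M) := ModuleCat.isZero_of_subsingleton _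
  have h2 : PD A M 0 := h1.hasProjectiveDimensionLT_zero
  exact h2.mono (by omega)

section ses
variable {L M N : Type} [AddCommGroup L] [Module A L] [AddCommGroup M] [Module A M]
  [AddCommGroup N] [Module A N]

theorem ses (f : L →ₗ[A] M) (g : M →ₗ[A] N) (hf : Function.Injective f)
    (hfg : Function.Exact f g) (hg : Function.Surjective g) :
    ∃ w : ModuleCat.ofHom f ≫ ModuleCat.ofHom g = 0,
      (ShortComplex.mk (ModuleCat.ofHom f) (ModuleCat.ofHom g) w).ShortExact := by
  have w : ModuleCat.ofHom f ≫ ModuleCat.ofHom g = 0 := by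
    ext x
    exact hfg.apply_apply_eq_zero x
  refine ⟨w, ?_⟩
  exact { exact := by
            rw [ShortComplex.ShortExact.moduleCat_exact_iff_function_exact]
            exact hfg
          mono_f := (ModuleCat.mono_iff_injective _).mpr hf
          epi_g := (ModuleCat.epi_iff_surjective _).mpr hg }

theorem pd_X2 (f : L →ₗ[A] M) (g : M →ₗ[A] N) (hf : Function.Injective f)
    (hfg : Function.Exact f g) (hg : Function.Surjective g) {n : ℕ} (h1 : PD A L n)
    (h3 : PD A N n) : PD A M n := by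
  obtain ⟨w, h⟩ := ses f g hf hfg hg
  exact h.hasProjectiveDimensionLT_X₂ n h1 h3

theorem pd_X3 (f : L →ₗ[A] M) (g : M →ₗ[A] N) (hf : Function.Injective f)
    (hfg : Function.Exact f g) (hg : Function.Surjective g) {n : ℕ} (h1 : PD A L n)
    (h2 : PD A M (n + 1)) : PD A N (n + 1) := by
  obtain ⟨w, h⟩ := ses f g hf hfg hg
  exact h.hasProjectiveDimensionLT_X₃ n h1 h2

theorem pd_X1 (f : L →ₗ[A] M) (g : M →ₗ[A] N) (hf : Function.Injective f)
    (hfg : Function.Exact f g) (hg : Function.Surjective g) {n : ℕ} (h2 : PD A M n)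
    (h3 : PD A N (n + 1)) : PD A L n := by
  obtain ⟨w, h⟩ := ses f g hf hfg hg
  exact h.hasProjectiveDimensionLT_X₁ n h2 h3

/-- three-term sequence `L → M → N` exact with `L → M` arbitrary: `M → range g`, kernel. -/
theorem exact_rangeRestrict (f : L →ₗ[A] M) (g : M →ₗ[A] N) (hfg : Function.Exact f g) :
    Function.Exact f g.rangeRestrict := by
  intro x
  rw [← hfg x]
  constructor
  · intro h
    exact congrArg Subtype.val h
  · intro h
    exact Subtype.ext h

theorem exact_range_subtype (f : L →ₗ[A] M) (g : M →ₗ[A] N) (hfg : Function.Exact f g) :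
    Function.Exact (LinearMap.range f).subtype g := by
  intro x
  rw [hfg x]
  constructor
  · rintro ⟨y, rfl⟩
    exact ⟨⟨f y, y, rfl⟩, rfl⟩
  · rintro ⟨⟨_, y, rfl⟩, rfl⟩
    exact ⟨y, rfl⟩

theorem exists_retraction (f : L →ₗ[A] M) (g : M →ₗ[A] N) (hf : Function.Injective f)
    (hfg : Function.Exact f g) (hg : Function.Surjective g) (h : PD A N 1) :
    ∃ r : M →ₗ[A] L, r ∘ₗ f = LinearMap.id := by
  have h1 : Projective (ModuleCat.of A N) := projective_iff_hasProjectiveDimensionLT_one.mpr h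
  have h2 : Module.Projective A N := (IsProjective.iff_projective N).mpr h1
  obtain ⟨s, hs⟩ := Module.projective_lifting_property g LinearMap.id hg
  have hs' : ∀ x, g (s x) = x := fun x => LinearMap.congr_fun hs x
  have hk : ∀ x, (LinearMap.id - s ∘ₗ g : M →ₗ[A] M) x ∈ LinearMap.range f := by
    intro x
    have : g ((LinearMap.id - s ∘ₗ g : M →ₗ[A] M) x) = 0 := by
      simp [hs']
    exact (hfg _).mp this
  refine ⟨(LinearEquiv.ofInjective f hf).symm.toLinearMap ∘ₗ
    LinearMap.codRestrict (LinearMap.range f) (LinearMap.id - s ∘ₗ g : M →ₗ[A] M) hk, ?_⟩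
  ext x
  simp only [LinearMap.comp_apply, LinearMap.id_apply]
  have hx : (LinearMap.codRestrict (LinearMap.range f) (LinearMap.id - s ∘ₗ g : M →ₗ[A] M) hk) (f x) =
      LinearEquiv.ofInjective f hf x := by
    apply Subtype.ext
    simp [hfg.apply_apply_eq_zero]
  rw [hx]
  simp

end ses

end aux

theorem homological {A : Type} [Ring A]
    (X E Q C0 C1 C2 C3 C4 : ℕ → Type)
    [∀ n, AddCommGroup (X n)] [∀ n, Module A (X n)]
    [∀ n, AddCommGroup (E n)] [∀ n, Module A (E n)]
    [∀ n, AddCommGroup (Q n)] [∀ n, Module A (Q n)]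
    [∀ n, AddCommGroup (C0 n)] [∀ n, Module A (C0 n)]
    [∀ n, AddCommGroup (C1 n)] [∀ n, Module A (C1 n)]
    [∀ n, AddCommGroup (C2 n)] [∀ n, Module A (C2 n)]
    [∀ n, AddCommGroup (C3 n)] [∀ n, Module A (C3 n)]
    [∀ n, AddCommGroup (C4 n)] [∀ n, Module A (C4 n)]
    (hX0 : Subsingleton (X 0))
    (hC0 : ∀ n, Module.Projective A (C0 n)) (hC1 : ∀ n, Module.Projective A (C1 n))
    (hC2 : ∀ n, Module.Projective A (C2 n)) (hC3 : ∀ n, Module.Projective A (C3 n))
    (hC4 : ∀ n, Module.Projective A (C4 n))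
    (i : ∀ n, X n →ₗ[A] E n) (p : ∀ n, E n →ₗ[A] X (n + 1))
    (hi : ∀ n, Function.Injective (i n)) (hip : ∀ n, Function.Exact (i n) (p n))
    (hp : ∀ n, Function.Surjective (p n))
    (φ : ∀ n, X n →ₗ[A] Q n) (δ : ∀ n, Q n →ₗ[A] C0 n) (π : ∀ n, C0 n →ₗ[A] E n)
    (hφ : ∀ n, Function.Injective (φ n)) (hφδ : ∀ n, Function.Exact (φ n) (δ n))
    (hδπ : ∀ n, Function.Exact (δ n) (π n)) (hπ : ∀ n, Function.Surjective (π n))
    (d4 : ∀ n, C4 n →ₗ[A] C3 n) (d3 : ∀ n, C3 n →ₗ[A] C2 n) (d2 : ∀ n, C2 n →ₗ[A] C1 n)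
    (q : ∀ n, C1 n →ₗ[A] Q n)
    (h4 : ∀ n, Function.Injective (d4 n)) (h43 : ∀ n, Function.Exact (d4 n) (d3 n))
    (h32 : ∀ n, Function.Exact (d3 n) (d2 n)) (h2q : ∀ n, Function.Exact (d2 n) (q n))
    (hq : ∀ n, Function.Surjective (q n))
    (ns : ¬ ∃ r : C3 0 →ₗ[A] C4 0, r ∘ₗ d4 0 = LinearMap.id) :
    ∀ k : ℕ, ∃ n : ℕ, ¬ HasProjectiveDimensionLT (ModuleCat.of A (X n)) k ∧
      ∃ m : ℕ, HasProjectiveDimensionLT (ModuleCat.of A (X n)) m := by
  classical
  have pdK : ∀ n, Function.Exact (LinearMap.ker (π n)).subtype (π n) := by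
    intro n x
    constructor
    · intro h
      exact ⟨⟨x, h⟩, rfl⟩
    · rintro ⟨y, rfl⟩
      exact y.2
  have hKi : ∀ n, Function.Injective (LinearMap.ker (π n)).subtype := fun n =>
    Submodule.injective_subtype _
  have hδker : ∀ n, ∀ x, δ n x ∈ LinearMap.ker (π n) := fun n x =>
    (hδπ n).apply_apply_eq_zero x
  let δ' : ∀ n, Q n →ₗ[A] LinearMap.ker (π n) := fun n =>
    LinearMap.codRestrict _ (δ n) (hδker n)
  have hφδ' : ∀ n, Function.Exact (φ n) (δ' n) := by
    intro n x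
    rw [← hφδ n x]
    constructor
    · intro h
      exact congrArg Subtype.val h
    · intro h
      exact Subtype.ext h
  have hδ's : ∀ n, Function.Surjective (δ' n) := by
    rintro n ⟨y, hy⟩
    obtain ⟨x, hx⟩ := (hδπ n y).mp hy
    exact ⟨x, Subtype.ext hx⟩
  -- projective dimension of `Q n`
  have hQ : ∀ n, PD A (Q n) 4 := by
    intro n
    have h3 : PD A (LinearMap.range (d3 n)) 2 :=
      pd_X3 (d4 n) (d3 n).rangeRestrict (h4 n) (exact_rangeRestrict _ _ (h43 n))
        (d3 n).surjective_rangeRestrict (PD.of_proj (hC4 n) 0) (PD.of_proj (hC3 n) 1)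
    have h2 : PD A (LinearMap.range (d2 n)) 3 :=
      pd_X3 (LinearMap.range (d3 n)).subtype (d2 n).rangeRestrict (Submodule.injective_subtype _)
        (exact_rangeRestrict _ _ (exact_range_subtype _ _ (h32 n)))
        (d2 n).surjective_rangeRestrict h3 (PD.of_proj (hC2 n) 2)
    exact pd_X3 (LinearMap.range (d2 n)).subtype (q n) (Submodule.injective_subtype _)
      (exact_range_subtype _ _ (h2q n)) (hq n) h2 (PD.of_proj (hC1 n) 3)
  have hfin : ∀ n, ∃ m, PD A (X n) m := by
    intro n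
    induction n with
    | zero => exact ⟨0, PD.of_subsingleton hX0 0⟩
    | succ n ih =>
      obtain ⟨m, hm⟩ := ih
      have hK : PD A (LinearMap.ker (π n)) (m + 4 + 1) :=
        pd_X3 (φ n) (δ' n) (hφ n) (hφδ' n) (hδ's n) (hm.mono (by omega)) ((hQ n).mono (by omega))
      have hE : PD A (E n) (m + 4 + 1 + 1) :=
        pd_X3 _ (π n) (hKi n) (pdK n) (hπ n) hK (PD.of_proj (hC0 n) _)
      exact ⟨m + 4 + 1 + 1 + 1, pd_X3 (i n) (p n) (hi n) (hip n) (hp n) (hm.mono (by omega))
        (hE.mono (by omega))⟩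
  intro k
  by_contra hcon
  have hall : ∀ n, PD A (X n) k := by
    intro n
    by_contra h
    exact hcon ⟨n, h, hfin n⟩
  have step : ∀ a, 4 ≤ a → (∀ n, PD A (X n) (a + 2)) → ∀ n, PD A (X n) a := by
    intro a ha h n
    have hE : PD A (E n) (a + 2) :=
      pd_X2 (i n) (p n) (hi n) (hip n) (hp n) (h n) (h (n + 1))
    have hK : PD A (LinearMap.ker (π n)) (a + 1) :=
      pd_X1 _ (π n) (hKi n) (pdK n) (hπ n) (PD.of_proj (hC0 n) a) hE
    exact pd_X1 (φ n) (δ' n) (hφ n) (hφδ' n) (hδ's n) ((hQ n).mono ha) hK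
  have hdown : ∀ j, (∀ n, PD A (X n) (4 + 2 * j)) → ∀ n, PD A (X n) 4 := by
    intro j
    induction j with
    | zero => intro h; exact h
    | succ j ih =>
      intro h
      exact ih (step (4 + 2 * j) (by omega) h)
  have hX4 : ∀ n, PD A (X n) 4 := hdown k fun n => (hall n).mono (by omega)
  have hE0 : PD A (E 0) 4 := pd_X2 (i 0) (p 0) (hi 0) (hip 0) (hp 0) (hX4 0) (hX4 1)
  have hK0 : PD A (LinearMap.ker (π 0)) 3 :=
    pd_X1 _ (π 0) (hKi 0) (pdK 0) (hπ 0) (PD.of_proj (hC0 0) 2) hE0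
  have hQ0 : PD A (Q 0) 3 :=
    pd_X2 (φ 0) (δ' 0) (hφ 0) (hφδ' 0) (hδ's 0) (PD.of_subsingleton hX0 3) hK0
  have hR2 : PD A (LinearMap.range (d2 0)) 2 :=
    pd_X1 _ (q 0) (Submodule.injective_subtype _) (exact_range_subtype _ _ (h2q 0)) (hq 0)
      (PD.of_proj (hC1 0) 1) hQ0
  have hR3 : PD A (LinearMap.range (d3 0)) 1 :=
    pd_X1 _ (d2 0).rangeRestrict (Submodule.injective_subtype _)
      (exact_rangeRestrict _ _ (exact_range_subtype _ _ (h32 0)))
      (d2 0).surjective_rangeRestrict (PD.of_proj (hC2 0) 0) hR2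
  exact ns (exists_retraction (d4 0) (d3 0).rangeRestrict (h4 0) (exact_rangeRestrict _ _ (h43 0))
    (d3 0).surjective_rangeRestrict hR3)

end Crest.Agent.FD
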