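import Crest.Agent.FD.Psi

/-!
# Row 178 (S0268), chunk VALG: algebra in `V_n = ` homogeneous polynomials of degree `n`

`Vh (n+1) = V_n`, `Vh 0 = 0`.  `gV p = (∂_1 r, - ∂_0 r)` with `r = x_1 p_0 - x_0 p_1`.
-/

set_option autoImplicit false

namespace Crest.Agent.FD

open MvPolynomial

noncomputable section

theorem mem_Vh {m : ℕ} {v : Fs ℂ} : v ∈ Vh m ↔ ∀ i k, i + k + 1 ≠ m → v i k = 0 := Iff.rfl

theorem xfun_zero_apply {Y : Type} [AddCommGroup Y] (y : Fs Y) (i k : ℕ) :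
    xfun 0 y i k = if i = 0 then 0 else y (i - 1) k := rfl

theorem xfun_one_apply {Y : Type} [AddCommGroup Y] (y : Fs Y) (i k : ℕ) :
    xfun 1 y i k = if k = 0 then 0 else y i (k - 1) := rfl

theorem dfun_zero_apply {Y : Type} [AddCommGroup Y] (y : Fs Y) (i k : ℕ) :
    dfun 0 y i k = (i + 1) • y (i + 1) k := rfl

theorem dfun_one_apply {Y : Type} [AddCommGroup Y] (y : Fs Y) (i k : ℕ) :
    dfun 1 y i k = (k + 1) • y i (k + 1) := rfl

theorem xfun_mem_Vh (j : Fin 2) (m : ℕ) (v : Fs ℂ) (hv : v ∈ Vh m) : xfun j v ∈ Vh (m + 1) := by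
  rw [mem_Vh] at hv ⊢
  intro i k h
  fin_cases j
  · show xfun 0 v i k = 0
    rw [xfun_zero_apply]
    split_ifs with hi
    · rfl
    · exact hv _ _ (by omega)
  · show xfun 1 v i k = 0
    rw [xfun_one_apply]
    split_ifs with hi
    · rfl
    · exact hv _ _ (by omega)

theorem dfun_mem_Vh (j : Fin 2) (m : ℕ) (v : Fs ℂ) (hv : v ∈ Vh (m + 1)) : dfun j v ∈ Vh m := by
  rw [mem_Vh] at hv ⊢
  intro i k h
  fin_cases j
  · show dfun 0 v i k = 0
    rw [dfun_zero_apply, hv _ _ (by omega), smul_zero]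
  · show dfun 1 v i k = 0
    rw [dfun_one_apply, hv _ _ (by omega), smul_zero]

theorem xfun_injective {Y : Type} [AddCommGroup Y] (j : Fin 2) (y : Fs Y)
    (h : xfun j y = 0) : y = 0 := by
  funext i k
  fin_cases j
  · have h1 : xfun 0 y (i + 1) k = 0 := congrFun (congrFun h (i + 1)) k
    simpa [xfun_zero_apply] using h1
  · have h1 : xfun 1 y i (k + 1) = 0 := congrFun (congrFun h i) (k + 1)
    simpa [xfun_one_apply] using h1

/-- Euler -/
theorem euler_Vh (n : ℕ) (v : Fs ℂ) (hv : v ∈ Vh (n + 1)) :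
    xfun 0 (dfun 0 v) + xfun 1 (dfun 1 v) = (n : ℂ) • v := by
  funext i k
  rw [mem_Vh] at hv
  have h0 : xfun 0 (dfun 0 v) i k = (i : ℂ) * v i k := by
    rw [xfun_zero_apply]
    rcases i with _ | i
    · simp
    · simp [dfun_zero_apply]
  have h1 : xfun 1 (dfun 1 v) i k = (k : ℂ) * v i k := by
    rw [xfun_one_apply]
    rcases k with _ | k
    · simp
    · simp [dfun_one_apply]
  show xfun 0 (dfun 0 v) i k + xfun 1 (dfun 1 v) i k = (n : ℂ) * v i k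
  rw [h0, h1, ← add_mul]
  by_cases h : i + k + 1 = n + 1
  · have : i + k = n := by omega
    rw [← this]
    push_cast
    rfl
  · rw [hv i k h]
    simp

/-- `gV p = (∂_1 (x_1 p_0 - x_0 p_1), - ∂_0 (x_1 p_0 - x_0 p_1))` -/
def gV (p : Fin 2 → Fs ℂ) : Fin 2 → Fs ℂ :=
  ![dfun 1 (xfun 1 (p 0) - xfun 0 (p 1)), - dfun 0 (xfun 1 (p 0) - xfun 0 (p 1))]

theorem gV_mem (n : ℕ) (p : Fin 2 → Fs ℂ) (hp : ∀ l, p l ∈ Vh (n + 1)) :
    ∀ l, gV p l ∈ Vh (n + 1) := by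
  have hr : xfun 1 (p 0) - xfun 0 (p 1) ∈ Vh (n + 1 + 1) :=
    Submodule.sub_mem _ (xfun_mem_Vh 1 _ _ (hp 0)) (xfun_mem_Vh 0 _ _ (hp 1))
  intro l
  fin_cases l
  · exact dfun_mem_Vh 1 _ _ hr
  · exact Submodule.neg_mem _ (dfun_mem_Vh 0 _ _ hr)

theorem xfun_sub {Y : Type} [AddCommGroup Y] (j : Fin 2) (a b : Fs Y) :
    xfun j (a - b) = xfun j a - xfun j b := map_sub (xop ℤ Y j) a b

theorem dfun_sub {Y : Type} [AddCommGroup Y] (j : Fin 2) (a b : Fs Y) :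
    dfun j (a - b) = dfun j a - dfun j b := map_sub (dop ℤ Y j) a b

theorem xfun_neg {Y : Type} [AddCommGroup Y] (j : Fin 2) (a : Fs Y) :
    xfun j (-a) = - xfun j a := map_neg (xop ℤ Y j) a

theorem xfun_zero' {Y : Type} [AddCommGroup Y] (j : Fin 2) :
    xfun j (0 : Fs Y) = 0 := map_zero (xop ℤ Y j)

theorem dfun_zero' {Y : Type} [AddCommGroup Y] (j : Fin 2) :
    dfun j (0 : Fs Y) = 0 := map_zero (dop ℤ Y j)

/-- `gV` in terms of `rho` -/
theorem gV_eq (p : Fin 2 → Fs ℂ) :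
    gV p = ![rho ℂ ℂ 1 1 (p 0) + p 0 - rho ℂ ℂ 0 1 (p 1),
      - rho ℂ ℂ 1 0 (p 0) + rho ℂ ℂ 0 0 (p 1) + p 1] := by
  unfold gV
  simp only [dfun_sub, rho_apply]
  rw [dfun_xfun 1 1, dfun_xfun 1 0, dfun_xfun 0 1, dfun_xfun 0 0]
  simp only [if_true, if_neg (show ¬ ((1 : Fin 2) = 0) by decide),
    if_neg (show ¬ ((0 : Fin 2) = 1) by decide), add_zero]
  congr 2
  abel

/-- kernel of `gV` on `V_n ⊕ V_n` -/
theorem gV_ker (n : ℕ) (p : Fin 2 → Fs ℂ) (hp : ∀ l, p l ∈ Vh (n + 1)) (h : gV p = 0) :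
    ∃ q ∈ Vh n, ∀ l, p l = xfun l q := by
  have hr : xfun 1 (p 0) - xfun 0 (p 1) ∈ Vh (n + 1 + 1) :=
    Submodule.sub_mem _ (xfun_mem_Vh 1 _ _ (hp 0)) (xfun_mem_Vh 0 _ _ (hp 1))
  have h1 : dfun 1 (xfun 1 (p 0) - xfun 0 (p 1)) = 0 := congrFun h 0
  have h0 : dfun 0 (xfun 1 (p 0) - xfun 0 (p 1)) = 0 := neg_eq_zero.mp (congrFun h 1)
  have he := euler_Vh (n + 1) _ hr
  rw [h1, h0, xfun_zero', xfun_zero', add_zero] at he
  have hne : (((n + 1 : ℕ) : ℂ)) ≠ 0 := Nat.cast_ne_zero.mpr (Nat.succ_ne_zero n)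
  have hr0 : xfun 1 (p 0) - xfun 0 (p 1) = 0 := by
    rcases smul_eq_zero.mp he.symm with h2 | h2
    · exact absurd h2 hne
    · exact h2
  have heq : ∀ i k, xfun 1 (p 0) i k = xfun 0 (p 1) i k := fun i k =>
    sub_eq_zero.mp (congrFun (congrFun hr0 i) k)
  have hp0 := mem_Vh.mp (hp 0)
  refine ⟨fun i k => p 0 (i + 1) k, ?_, ?_⟩
  · rw [mem_Vh]
    intro i k hik
    exact hp0 _ _ (by omega)
  · intro l
    fin_cases l
    · funext i k
      show p 0 i k = xfun 0 (fun i k => p 0 (i + 1) k) i k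
      rw [xfun_zero_apply]
      rcases i with _ | i
      · have := heq 0 (k + 1)
        simpa [xfun_one_apply, xfun_zero_apply] using this
      · simp
    · funext i k
      show p 1 i k = xfun 1 (fun i k => p 0 (i + 1) k) i k
      rw [xfun_one_apply]
      rcases k with _ | k
      · have := heq (i + 1) 0
        simpa [xfun_one_apply, xfun_zero_apply] using this.symm
      · have := heq (i + 1) (k + 1)
        simpa [xfun_one_apply, xfun_zero_apply] using this.symm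

/-- `gV (x_0 q, x_1 q) = 0` -/
theorem gV_x (q : Fs ℂ) : gV (fun l => xfun l q) = 0 := by
  unfold gV
  rw [xfun_comm 1 0, sub_self, dfun_zero', dfun_zero', neg_zero]
  funext l
  fin_cases l <;> rfl

/-- `gV` is multiplication by `n + 1` on divergence free pairs -/
theorem gV_div (n : ℕ) (p : Fin 2 → Fs ℂ) (hp : ∀ l, p l ∈ Vh (n + 1))
    (h : dfun 0 (p 0) + dfun 1 (p 1) = 0) (l : Fin 2) : gV p l = ((n : ℂ) + 1) • p l := by
  rw [gV_eq]
  fin_cases l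
  · have h1 : dfun 1 (p 1) = - dfun 0 (p 0) := eq_neg_of_add_eq_zero_right h
    show rho ℂ ℂ 1 1 (p 0) + p 0 - rho ℂ ℂ 0 1 (p 1) = ((n : ℂ) + 1) • p 0
    rw [rho_apply, rho_apply, h1, xfun_neg, sub_neg_eq_add, add_smul, one_smul,
      ← euler_Vh n (p 0) (hp 0)]
    abel
  · have h1 : dfun 0 (p 0) = - dfun 1 (p 1) := eq_neg_of_add_eq_zero_left h
    show - rho ℂ ℂ 1 0 (p 0) + rho ℂ ℂ 0 0 (p 1) + p 1 = ((n : ℂ) + 1) • p 1
    rw [rho_apply, rho_apply, h1, xfun_neg, neg_neg, add_smul, one_smul,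
      ← euler_Vh n (p 1) (hp 1)]
    abel

/-- the divergence of `(x_0 q, x_1 q)`, `q ∈ V_(n-1)` -/
theorem div_x (n : ℕ) (q : Fs ℂ) (hq : q ∈ Vh n) :
    dfun 0 (xfun 0 q) + dfun 1 (xfun 1 q) = ((n : ℂ) + 1) • q := by
  funext i k
  rw [mem_Vh] at hq
  show dfun 0 (xfun 0 q) i k + dfun 1 (xfun 1 q) i k = ((n : ℂ) + 1) * q i k
  rw [dfun_zero_apply, dfun_one_apply, xfun_zero_apply, xfun_one_apply]
  simp only [Nat.succ_ne_zero, if_false, Nat.add_sub_cancel]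
  by_cases h : i + k + 1 = n
  · rw [← h]
    simp only [nsmul_eq_mul]
    push_cast
    ring
  · rw [hq i k h]
    simp

/-- monomial `x_0^i x_1^k` -/
def mon (i k : ℕ) : Fs ℂ := fun i' k' => if i' = i ∧ k' = k then 1 else 0

/-- evaluation `Y ⊗ V_n → V`, `y ⊗ v ↦ Φ(y) v` -/
def evG {Y V : Type} [AddCommGroup Y] [Module ℂ Y] [AddCommGroup V] [Module ℂ V]
    (Φ : Y →ₗ[ℂ] (Fs ℂ →ₗ[ℂ] V)) (n : ℕ) : Fs Y →ₗ[ℂ] V :=
  ∑ x ∈ Finset.HasAntidiagonal.antidiagonal n, (Φ.flip (mon x.1 x.2)) ∘ₗ LinearMap.proj x.2 ∘ₗ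
    (LinearMap.proj x.1 : Fs Y →ₗ[ℂ] (ℕ → Y))

theorem evG_apply {Y V : Type} [AddCommGroup Y] [Module ℂ Y] [AddCommGroup V] [Module ℂ V]
    (Φ : Y →ₗ[ℂ] (Fs ℂ →ₗ[ℂ] V)) (n : ℕ) (y : Fs Y) :
    evG Φ n y = ∑ x ∈ Finset.HasAntidiagonal.antidiagonal n, Φ (y x.1 x.2) (mon x.1 x.2) := by
  simp [evG]

/-- pure tensors -/
def pt {Y : Type} [AddCommGroup Y] [Module ℂ Y] (y : Y) (v : Fs ℂ) : Fs Y := fun i k => v i k • y

theorem Vh_eq_sum_mon (n : ℕ) (v : Fs ℂ) (hv : v ∈ Vh (n + 1)) :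
    v = ∑ x ∈ Finset.HasAntidiagonal.antidiagonal n, v x.1 x.2 • mon x.1 x.2 := by
  rw [mem_Vh] at hv
  funext i k
  rw [Finset.sum_apply, Finset.sum_apply]
  simp only [Pi.smul_apply, mon, smul_eq_mul, mul_ite, mul_one, mul_zero]
  by_cases h : i + k = n
  · rw [Finset.sum_eq_single (i, k)]
    · simp
    · rintro ⟨a, b⟩ _ hab
      rw [if_neg]
      rintro ⟨h1, h2⟩
      exact hab (by rw [h1, h2])
    · intro hcon
      exact absurd (Finset.HasAntidiagonal.mem_antidiagonal.mpr h) hcon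
  · rw [hv i k (by omega)]
    symm
    apply Finset.sum_eq_zero
    rintro ⟨a, b⟩ hab
    rw [Finset.HasAntidiagonal.mem_antidiagonal] at hab
    rw [if_neg]
    rintro ⟨h1, h2⟩
    simp only at h1 h2 hab
    omega

theorem evG_pt {Y V : Type} [AddCommGroup Y] [Module ℂ Y] [AddCommGroup V] [Module ℂ V]
    (Φ : Y →ₗ[ℂ] (Fs ℂ →ₗ[ℂ] V)) (n : ℕ) (y : Y) (v : Fs ℂ) (hv : v ∈ Vh (n + 1)) :
    evG Φ n (pt y v) = Φ y v := by
  rw [evG_apply]
  conv_rhs => rw [Vh_eq_sum_mon n v hv, map_sum]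
  refine Finset.sum_congr rfl fun x _ => ?_
  simp [pt]

theorem rho_mon_00 (i k : ℕ) : rho ℂ ℂ 0 0 (mon i k) = (i : ℂ) • mon i k := by
  funext i' k'
  show xfun 0 (dfun 0 (mon i k)) i' k' = (i : ℂ) * mon i k i' k'
  rw [xfun_zero_apply]
  rcases i' with _ | i'
  · by_cases h : i = 0
    · subst h; simp
    · simp [mon, Ne.symm h]
  · simp only [Nat.succ_ne_zero, if_false, Nat.add_sub_cancel, dfun_zero_apply, mon]
    by_cases h : i' + 1 = i ∧ k' = k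
    · rw [if_pos h, ← h.1]
      simp
    · rw [if_neg h]
      simp

theorem rho_mon_11 (i k : ℕ) : rho ℂ ℂ 1 1 (mon i k) = (k : ℂ) • mon i k := by
  funext i' k'
  show xfun 1 (dfun 1 (mon i k)) i' k' = (k : ℂ) * mon i k i' k'
  rw [xfun_one_apply]
  rcases k' with _ | k'
  · by_cases h : k = 0
    · subst h; simp
    · simp [mon, Ne.symm h]
  · simp only [Nat.succ_ne_zero, if_false, Nat.add_sub_cancel, dfun_one_apply, mon]
    by_cases h : i' = i ∧ k' + 1 = k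
    · rw [if_pos h, ← h.2]
      simp
    · rw [if_neg h]
      simp

theorem rho_mon_01 (i k : ℕ) : rho ℂ ℂ 0 1 (mon i (k + 1)) = ((k : ℂ) + 1) • mon (i + 1) k := by
  funext i' k'
  show xfun 0 (dfun 1 (mon i (k + 1))) i' k' = ((k : ℂ) + 1) * mon (i + 1) k i' k'
  rw [xfun_zero_apply]
  rcases i' with _ | i'
  · simp [mon]
  · simp only [Nat.succ_ne_zero, if_false, Nat.add_sub_cancel, dfun_one_apply, mon,
      Nat.add_right_cancel_iff]
    by_cases h : i' = i ∧ k' = k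
    · rw [if_pos h, h.2]
      simp
    · rw [if_neg h]
      simp

theorem rho_mon_01_zero (i : ℕ) : rho ℂ ℂ 0 1 (mon i 0) = 0 := by
  funext i' k'
  show xfun 0 (dfun 1 (mon i 0)) i' k' = 0
  rw [xfun_zero_apply]
  rcases i' with _ | i'
  · simp
  · simp [dfun_one_apply, mon]

theorem rho_mon_10 (i k : ℕ) : rho ℂ ℂ 1 0 (mon (i + 1) k) = ((i : ℂ) + 1) • mon i (k + 1) := by
  funext i' k'
  show xfun 1 (dfun 0 (mon (i + 1) k)) i' k' = ((i : ℂ) + 1) * mon i (k + 1) i' k'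
  rw [xfun_one_apply]
  rcases k' with _ | k'
  · simp [mon]
  · simp only [Nat.succ_ne_zero, if_false, Nat.add_sub_cancel, dfun_zero_apply, mon,
      Nat.add_right_cancel_iff]
    by_cases h : i' = i ∧ k' = k
    · rw [if_pos h, h.1]
      simp
    · rw [if_neg h]
      simp

theorem rho_mon_10_zero (k : ℕ) : rho ℂ ℂ 1 0 (mon 0 k) = 0 := by
  funext i' k'
  show xfun 1 (dfun 0 (mon 0 k)) i' k' = 0
  rw [xfun_one_apply]
  rcases k' with _ | k'
  · simp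
  · simp [dfun_zero_apply, mon]

/-- the key identity behind `evG_Top` -/
theorem evG_rho {Y V : Type} [AddCommGroup Y] [Module ℂ Y] [AddCommGroup V] [Module ℂ V]
    (Φ : Y →ₗ[ℂ] (Fs ℂ →ₗ[ℂ] V)) (n : ℕ) (i j : Fin 2) (y : Fs Y) :
    ∑ x ∈ Finset.HasAntidiagonal.antidiagonal n, Φ (y x.1 x.2) (rho ℂ ℂ i j (mon x.1 x.2)) =
    ∑ x ∈ Finset.HasAntidiagonal.antidiagonal n, Φ (rho ℂ Y i j y x.1 x.2) (mon x.1 x.2) := by
  fin_cases i <;> fin_cases j
  · refine Finset.sum_congr rfl fun x _ => ?_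
    show Φ (y x.1 x.2) (rho ℂ ℂ 0 0 (mon x.1 x.2)) = Φ (xfun 0 (dfun 0 y) x.1 x.2) (mon x.1 x.2)
    rw [rho_mon_00, xfun_zero_apply]
    rcases x with ⟨_ | a, b⟩
    · simp
    · simp [dfun_zero_apply, add_smul]
      exact Nat.cast_smul_eq_nsmul ℂ _ _
  · show ∑ x ∈ Finset.HasAntidiagonal.antidiagonal n,
        Φ (y x.1 x.2) (rho ℂ ℂ 0 1 (mon x.1 x.2)) =
      ∑ x ∈ Finset.HasAntidiagonal.antidiagonal n,
        Φ (xfun 0 (dfun 1 y) x.1 x.2) (mon x.1 x.2)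
    rcases n with _ | n
    · simp [rho_mon_01_zero, xfun_zero_apply]
    · rw [Finset.Nat.sum_antidiagonal_succ', Finset.Nat.sum_antidiagonal_succ]
      simp only [rho_mon_01_zero, rho_mon_01, xfun_zero_apply, dfun_one_apply]
      simp [add_smul]
      exact Finset.sum_congr rfl fun x _ => by rw [Nat.cast_smul_eq_nsmul]
  · show ∑ x ∈ Finset.HasAntidiagonal.antidiagonal n,
        Φ (y x.1 x.2) (rho ℂ ℂ 1 0 (mon x.1 x.2)) =
      ∑ x ∈ Finset.HasAntidiagonal.antidiagonal n,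
        Φ (xfun 1 (dfun 0 y) x.1 x.2) (mon x.1 x.2)
    rcases n with _ | n
    · simp [rho_mon_10_zero, xfun_one_apply]
    · rw [Finset.Nat.sum_antidiagonal_succ, Finset.Nat.sum_antidiagonal_succ']
      simp only [rho_mon_10_zero, rho_mon_10, xfun_one_apply, dfun_zero_apply]
      simp [add_smul]
      exact Finset.sum_congr rfl fun x _ => by rw [Nat.cast_smul_eq_nsmul]
  · refine Finset.sum_congr rfl fun x _ => ?_
    show Φ (y x.1 x.2) (rho ℂ ℂ 1 1 (mon x.1 x.2)) = Φ (xfun 1 (dfun 1 y) x.1 x.2) (mon x.1 x.2)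
    rw [rho_mon_11, xfun_one_apply]
    rcases x with ⟨a, _ | b⟩
    · simp
    · simp [dfun_one_apply, add_smul]
      exact Nat.cast_smul_eq_nsmul ℂ _ _

/-- if `Φ (r i j y) = Φ y ∘ rho i j` then `evG` kills the image of `T_a` -/
theorem evG_Top {Y V : Type} [AddCommGroup Y] [Module ℂ Y] [AddCommGroup V] [Module ℂ V]
    (Φ : Y →ₗ[ℂ] (Fs ℂ →ₗ[ℂ] V)) (n : ℕ) (r : Fin 2 → Fin 2 → Module.End ℂ Y)
    (h : ∀ i j y v, Φ (r i j y) v = Φ y (rho ℂ ℂ i j v)) (a : Fin 4) (y : Fs Y) :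
    evG Φ n (Top r a y) = 0 := by
  have key : ∀ i j : Fin 2, evG Φ n ((pw (r i j) - rho ℂ Y i j) y) = 0 := by
    intro i j
    rw [LinearMap.sub_apply, map_sub, evG_apply, evG_apply, sub_eq_zero]
    simp only [pw_apply, h]
    exact evG_rho Φ n i j y
  fin_cases a
  · exact key 0 0
  · exact key 0 1
  · exact key 1 0
  · exact key 1 1

end

end Crest.Agent.FD
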