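import Crest.Agent.FD.Snake
import Crest.Agent.FD.VAlg

/-!
# Row 178 (S0268), chunk INST: instances of `KData` / `SData`

`KS n` : `Y = S ⊗ V_n`;  `KQ n` : `Y = P2 ⊗ V_n`, `γ = gt ⊗ 1`, `Z = Q ⊗ V_n`.
All fields are pointwise consequences of `Deg.lean` and `PolyId.lean` (`Rop_comm`, `dX_mX`, ...).
-/

set_option autoImplicit false

namespace Crest.Agent.FD

open MvPolynomial

noncomputable section

/-- indices of the four matrix units -/
def e4 : Fin 4 → I4 := ![(0, 0), (0, 1), (1, 0), (1, 1)]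

/-- multiplication by `X a` on pairs -/
def mP (a : I4) : P2 →ₗ[ℂ] P2 := LinearMap.pi fun l => mX a ∘ₗ LinearMap.proj l

/-- derivative on pairs -/
def dP (a : I4) : P2 →ₗ[ℂ] P2 := LinearMap.pi fun l => dX a ∘ₗ LinearMap.proj l

@[simp] theorem mP_apply (a : I4) (h : P2) (l : Fin 2) : mP a h l = mX a (h l) := rfl
@[simp] theorem dP_apply (a : I4) (h : P2) (l : Fin 2) : dP a h l = dX a (h l) := rfl

/-- generic: a right action `r` on `Y` commuting properly gives `IsRt` for `Top r`
(the operators `rho i j` satisfy `[rho_ij, rho_kl] = δ_jk rho_il - δ_li rho_kj` and commute with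
pointwise maps) -/
theorem isRt_Top {R Y : Type} [Ring R] [AddCommGroup Y] [Module R Y]
    (r : Fin 2 → Fin 2 → Module.End R Y)
    (h : ∀ i j k l y, r i j (r k l y) - r k l (r i j y) =
      (if i = l then r k j y else 0) - (if k = j then r i l y else 0)) :
    IsRt (fun a => Top r a) := by
  constructor
  · intro y
    funext i k
    have h1 := h 0 1 0 0 (y i k)
    simp at h1
    rcases i with _ | _ | i <;> rcases k with _ | _ | k <;>
      simp [Top, rho_apply, xfun, dfun] at h1 ⊢ <;>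
      linear_combination (norm := module) h1
  · intro y
    funext i k
    have h1 := h 1 0 0 0 (y i k)
    simp at h1
    rcases i with _ | _ | i <;> rcases k with _ | _ | k <;>
      simp [Top, rho_apply, xfun, dfun] at h1 ⊢ <;>
      linear_combination (norm := module) h1
  · intro y
    funext i k
    have h1 := h 1 1 0 0 (y i k)
    simp at h1
    rcases i with _ | _ | i <;> rcases k with _ | _ | k <;>
      simp [Top, rho_apply, xfun, dfun] at h1 ⊢ <;>
      linear_combination (norm := module) h1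
  · intro y
    funext i k
    have h1 := h 1 0 0 1 (y i k)
    simp at h1
    rcases i with _ | _ | i <;> rcases k with _ | _ | k <;>
      simp [Top, rho_apply, xfun, dfun] at h1 ⊢ <;>
      linear_combination (norm := module) h1
  · intro y
    funext i k
    have h1 := h 1 1 0 1 (y i k)
    simp at h1
    rcases i with _ | _ | i <;> rcases k with _ | _ | k <;>
      simp [Top, rho_apply, xfun, dfun] at h1 ⊢ <;>
      linear_combination (norm := module) h1
  · intro y
    funext i k
    have h1 := h 1 1 1 0 (y i k)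
    simp at h1
    rcases i with _ | _ | i <;> rcases k with _ | _ | k <;>
      simp [Top, rho_apply, xfun, dfun] at h1 ⊢ <;>
      linear_combination (norm := module) h1

theorem Rt_comm (i j k l : Fin 2) (h : P2) :
    Rt i j (Rt k l h) - Rt k l (Rt i j h) =
      (if i = l then Rt k j h else 0) - (if k = j then Rt i l h else 0) := by
  have h1 := fun a b c d => Rop_comm a b c d (h 0)
  have h2 := fun a b c d => Rop_comm a b c d (h 1)
  have h3 := h1 i j k l
  have h4 := h2 i j k l
  funext m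
  fin_cases m <;> fin_cases i <;> fin_cases j <;> fin_cases k <;> fin_cases l <;>
    simp [Rt_apply] at h3 h4 ⊢ <;>
    first | linear_combination h3 | linear_combination h4

theorem RQ_comm (i j k l : Fin 2) (q : Qb) :
    RQ i j (RQ k l q) - RQ k l (RQ i j q) =
      (if i = l then RQ k j q else 0) - (if k = j then RQ i l q else 0) := by
  obtain ⟨h, rfl⟩ := qm_surjective q
  have h1 := congrArg qm (Rt_comm i j k l h)
  simp only [map_sub, RQ_qm] at h1 ⊢
  rw [h1]
  split_ifs <;> simp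

theorem inst_e4_inj {a b : Fin 4} : e4 a = e4 b ↔ a = b := by
  fin_cases a <;> fin_cases b <;> simp [e4]

theorem inst_FsF_pw {Y Z : Type} [AddCommGroup Y] [Module ℂ Y] [AddCommGroup Z] [Module ℂ Z]
    {f : Y →ₗ[ℂ] Z} {F : ℤ → Submodule ℂ Y} {F' : ℤ → Submodule ℂ Z} {p p' : ℤ} {m : ℕ}
    (hf : ∀ y ∈ F p, f y ∈ F' p') {y : Fs Y} (hy : y ∈ FsF m F p) : pw f y ∈ FsF m F' p' := by
  intro i k
  refine ⟨hf _ (hy i k).1, fun h => ?_⟩
  rw [pw_apply, (hy i k).2 h, map_zero]

theorem inst_FsF_rho {Y : Type} [AddCommGroup Y] [Module ℂ Y] {F : ℤ → Submodule ℂ Y} {p : ℤ}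
    {m : ℕ} {y : Fs Y} (hy : y ∈ FsF m F p) (i j : Fin 2) : rho ℂ Y i j y ∈ FsF m F p := by
  intro a b
  have hy1 := fun a b => (hy a b).1
  have hy2 := fun a b => (hy a b).2
  constructor
  · fin_cases i <;> fin_cases j <;> rcases a with _ | a <;> rcases b with _ | b <;>
      simp [rho_apply, xfun, dfun] <;>
      first
        | exact Submodule.nsmul_mem _ _ (hy1 _ _)
        | exact Submodule.smul_of_tower_mem _ _ (hy1 _ _)
        | exact hy1 _ _
  · intro h
    fin_cases i <;> fin_cases j <;> rcases a with _ | a <;> rcases b with _ | b <;>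
      simp [rho_apply, xfun, dfun] <;>
      first
        | rfl
        | (rw [hy2 _ _ (by omega), smul_zero])
        | exact hy2 _ _ (by omega)

/-- `gt`-like maps commute with `rho` -/
theorem inst_pw_rho {Y Z : Type} [AddCommGroup Y] [Module ℂ Y] [AddCommGroup Z] [Module ℂ Z]
    (f : Y →ₗ[ℂ] Z) (i j : Fin 2) (y : Fs Y) :
    pw f (rho ℂ Y i j y) = rho ℂ Z i j (pw f y) := by
  funext a b
  fin_cases i <;> fin_cases j <;> rcases a with _ | a <;> rcases b with _ | b <;>
    simp [rho_apply, xfun, dfun]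

theorem inst_pw_Top {Y Z : Type} [AddCommGroup Y] [Module ℂ Y] [AddCommGroup Z] [Module ℂ Z]
    (f : Y →ₗ[ℂ] Z) (r : Fin 2 → Fin 2 → Module.End ℂ Y) (r' : Fin 2 → Fin 2 → Module.End ℂ Z)
    (h : ∀ i j y, f (r i j y) = r' i j (f y)) (a : Fin 4) (y : Fs Y) :
    pw f (Top r a y) = Top r' a (pw f y) := by
  have h1 : ∀ i j, pw f (pw (r i j) y) = pw (r' i j) (pw f y) := by
    intro i j
    funext a b
    exact h i j _
  fin_cases a <;> simp [Top, map_sub, h1, inst_pw_rho]

theorem inst_Top_sub {Y : Type} [AddCommGroup Y] [Module ℂ Y]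
    (r : Fin 2 → Fin 2 → Module.End ℂ Y) (m : I4 → Y →ₗ[ℂ] Y) {F : ℤ → Submodule ℂ Y} {p : ℤ}
    (h : ∀ i j, ∀ y ∈ F p, r i j y - m (i, j) y ∈ F p) {k : ℕ} (a : Fin 4) {y : Fs Y}
    (hy : y ∈ FsF k F p) : Top r a y - pw (m (e4 a)) y ∈ FsF k F p := by
  have key : ∀ i j, (pw (r i j) - rho ℂ Y i j) y - pw (m (i, j)) y ∈ FsF k F p := by
    intro i j
    have e : (pw (r i j) - rho ℂ Y i j) y - pw (m (i, j)) y
        = pw (r i j - m (i, j)) y - rho ℂ Y i j y := by
      funext a b
      simp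
      abel
    rw [e]
    exact sub_mem (inst_FsF_pw (fun y hy => h i j y hy) hy) (inst_FsF_rho hy i j)
  fin_cases a
  · exact key 0 0
  · exact key 0 1
  · exact key 1 0
  · exact key 1 1

theorem inst_Rt_sub_mem {m : ℤ} (i j : Fin 2) (h : P2) (hh : h ∈ P2f m) :
    Rt i j h - mP (i, j) h ∈ P2f m := by
  rw [mem_P2f] at hh ⊢
  intro l
  rw [Pi.sub_apply, Rt_apply, mP_apply]
  have h1 := Rop_sub_mem i j (hh l)
  have h2 : (if l = j then h i else 0) ∈ Sf m := by
    split_ifs
    · exact hh i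
    · exact zero_mem _
  have := add_mem h1 h2
  convert this using 1
  abel

theorem inst_gt_mem {m : ℤ} (h : P2) (hh : h ∈ P2f m) : gt h ∈ P2f (m + 1) := by
  rw [mem_P2f] at hh ⊢
  intro l
  fin_cases l
  · exact sub_mem (Rop_mem 1 1 (hh 0)) (Rop_mem 0 1 (hh 1))
  · exact add_mem (neg_mem (Rop_mem 1 0 (hh 0))) (Rop_mem 0 0 (hh 1))

/-- the data for `S ⊗ V_n` -/
def KS (n : ℕ) : KData (Fs S) where
  X a := pw (mX (e4 a))
  D a := pw (dX (e4 a))
  T := Top Rop
  G := FsF (n + 1) Sf
  hX := by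
    intro a b y
    funext i k
    simp only [pw_apply, mX_apply]
    ring
  hD := by
    intro a b y
    funext i k
    exact dX_comm _ _ _
  hDX := by
    intro a b y
    funext i k
    have h := dX_mX (e4 a) (e4 b) (y i k)
    simp only [pw_apply, inst_e4_inj] at h ⊢
    rw [h, Pi.add_apply, Pi.add_apply]
    by_cases hab : a = b <;> simp [hab]
  hT := isRt_Top Rop Rop_comm
  hGneg := by
    intro m hm
    rw [eq_bot_iff]
    intro y hy
    rw [Submodule.mem_bot]
    funext i k
    have := (hy i k).1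
    rw [Sf_neg hm] at this
    exact this
  hGmono := fun m m' h y hy i k => ⟨Sf_mono h (hy i k).1, (hy i k).2⟩
  hGX := fun a m y hy => inst_FsF_pw (fun _ h => mX_mem _ h) hy
  hGD := fun a m y hy => inst_FsF_pw (fun _ h => dX_mem _ h) hy
  hGT := fun a m y hy => inst_Top_sub Rop mX (fun i j _ h => Rop_sub_mem i j h) a hy
  hGE := by
    intro m y hy i k
    refine ⟨euler_mem (hy i k).1, fun h => ?_⟩
    have := (hy i k).2 h
    simp [e4, this]

/-- the data for `0 → P2 ⊗ V_n → P2 ⊗ V_n → Q ⊗ V_n → 0` -/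
def KQ (n : ℕ) : SData (Fs P2) (Fs Qb) where
  X a := pw (mP (e4 a))
  D a := pw (dP (e4 a))
  T := Top Rt
  G := FsF (n + 1) P2f
  hX := by
    intro a b y
    funext i k l
    simp only [pw_apply, mP_apply, mX_apply]
    ring
  hD := by
    intro a b y
    funext i k l
    exact dX_comm _ _ _
  hDX := by
    intro a b y
    funext i k l
    have h := dX_mX (e4 a) (e4 b) (y i k l)
    simp only [pw_apply, mP_apply, dP_apply, inst_e4_inj] at h ⊢
    rw [h, Pi.add_apply, Pi.add_apply, Pi.add_apply]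
    by_cases hab : a = b <;> simp [hab]
  hT := isRt_Top Rt Rt_comm
  hGneg := by
    intro m hm
    rw [eq_bot_iff]
    intro y hy
    rw [Submodule.mem_bot]
    funext i k l
    have := mem_P2f.1 (hy i k).1 l
    rw [Sf_neg hm] at this
    exact this
  hGmono := fun m m' h y hy i k =>
    ⟨mem_P2f.2 fun l => Sf_mono h (mem_P2f.1 (hy i k).1 l), (hy i k).2⟩
  hGX := fun a m y hy => inst_FsF_pw
    (fun _ h => mem_P2f.2 fun l => mX_mem _ (mem_P2f.1 h l)) hy
  hGD := fun a m y hy => inst_FsF_pw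
    (fun _ h => mem_P2f.2 fun l => dX_mem _ (mem_P2f.1 h l)) hy
  hGT := fun a m y hy => inst_Top_sub Rt mP (fun i j _ h => inst_Rt_sub_mem i j _ h) a hy
  hGE := by
    intro m y hy i k
    refine ⟨mem_P2f.2 fun l => euler_mem (mem_P2f.1 (hy i k).1 l), fun h => ?_⟩
    have := (hy i k).2 h
    simp [this]
  γ := pw gt
  π := pw qm
  TZ := Top RQ
  hγT := fun a y => inst_pw_Top gt Rt Rt gt_Rt a y
  hγG := fun m y hy => inst_FsF_pw (fun _ h => inst_gt_mem _ h) hy
  hγs := by
    intro m p y hy h i k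
    refine ⟨mem_P2f.2 (gt_strict ?_), (hy i k).2⟩
    exact mem_P2f.1 (h i k).1
  hπγ := by
    intro y
    funext i k
    exact qm_gt _
  hker := by
    intro m y hy h
    have h1 : ∀ i k, ∃ h' : P2, gt h' = y i k ∧ (y i k = 0 → h' = 0) := by
      intro i k
      by_cases h0 : y i k = 0
      · exact ⟨0, by rw [h0, map_zero], fun _ => rfl⟩
      · obtain ⟨h', hh'⟩ := (qm_eq_zero_iff _).1 (congrFun (congrFun h i) k)
        exact ⟨h', hh', fun h2 => absurd h2 h0⟩
    choose y' hy' hy0 using h1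
    refine ⟨y', fun i k => ⟨mem_P2f.2 (gt_strict ?_), fun h2 => hy0 _ _ ((hy i k).2 h2)⟩, ?_⟩
    · intro l
      rw [hy' i k, sub_add_cancel]
      exact mem_P2f.1 (hy i k).1 l
    · funext i k
      exact hy' i k
  hπT := fun a y => inst_pw_Top qm Rt RQ (fun i j y => (RQ_qm i j y).symm) a y

/-- the filtration `FsF (n+1) Qf` is the image filtration -/
theorem GZ_KQ (n : ℕ) (m : ℤ) : (KQ n).GZ m = FsF (n + 1) Qf m := by
  ext y
  constructor
  · rintro ⟨y', hy', rfl⟩
    intro i k
    refine ⟨⟨y' i k, (hy' i k).1, rfl⟩, fun h => ?_⟩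
    show qm (y' i k) = 0
    rw [(hy' i k).2 h, map_zero]
  · intro hy
    have h1 : ∀ i k, ∃ h' : P2, h' ∈ P2f (m + 1) ∧ qm h' = y i k ∧ (y i k = 0 → h' = 0) := by
      intro i k
      by_cases h0 : y i k = 0
      · exact ⟨0, zero_mem _, by rw [h0, map_zero], fun _ => rfl⟩
      · obtain ⟨h', hh', h2⟩ := (hy i k).1
        exact ⟨h', hh', h2, fun h3 => absurd h3 h0⟩
    choose y' hy1 hy2 hy3 using h1
    refine ⟨y', fun i k => ⟨hy1 i k, fun h => hy3 _ _ ((hy i k).2 h)⟩, ?_⟩
    funext i k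
    exact hy2 i k

end

end Crest.Agent.FD
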