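import Crest.Agent.FD.Ops

/-!
# Row 178 (S0268), chunk KOSZUL: exactness of filtered Chevalley--Eilenberg complexes

`Y` = a `ℂ`-vector space with "multiplications" `X a`, "derivations" `D a`, a filtration `G m`
(`m : ℤ`, `G m = ⊥` for `m < 0`) and a right `gl_2`-action `T a` with `T a = X a + (order ≤ 0)`.

Proof.  (0) `ce1 (ce2 y) = 0`, `ce2 (ce3 y) = 0`, `ce3 (ce4 y) = 0` from `IsRt`.
(1) Let `h_j : K_j → K_{j+1}` be `h0 y = (D_a y)_a`, `(h1 y)_{ab} = D_a y_b - D_b y_a`,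
`(h2 y)_{abc} = D_a y_{bc} - D_b y_{ac} + D_c y_{ab}`,
`h3 y = D_0 y_{123} - D_1 y_{023} + D_2 y_{013} - D_3 y_{012}`.
The linear parts with `X` in place of `T` satisfy the Euler identity
`cel_{j+1}[X] (h_j y) + h_{j-1} (cel_j[X] y) = (∑ X_a D_a + j) y`.
(2) `ce_j[T] = cel_j[X] + cel_j[T - X] + cec_j` and the last two summands preserve `G m`
componentwise while `h` maps `G m` to `G (m-1)`.  Hence for `y ∈ K_j` with components in `G m`
the element `(ce h + h ce) y - (m + j) y` has components in `G (m-1)` (using `hGE`).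
(3) Exactness (`j ≥ 1`): induction on `m`.  If `ce y = 0` then, with `N = ce h + h ce`,
`(m+j) y = N y - (N y - (m+j) y) = ce (h y) - y''` where `y'' = N y - (m+j) y` has components in
`G (m-1)` and is again a cycle (`ce N y = ce (h (ce y)) = 0`).  By induction `y'' = ce w`, and
`m + j ≥ 1`.
(4) `ex0`: the same with `j = 0` (for `m ≥ 1`), giving `y ∈ G 0 + ce1(...)`.
(5) `sep`: if `ce1 c ∈ G 0` (`c` with components in `G m`), then `N (ce1 c) = ce1 (h0 (ce1 c)) = 0`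
as `D_a (G 0) ⊆ G (-1) = ⊥`; so `N c` (with `N = ce2 h1 + h0 ce1`, `h0 (ce1 c) = 0`) is a cycle;
`(m+1) c = N c - c''`, `c''` with components in `G (m-1)` and
`ce1 c'' = - (m+1) ce1 c ∈ G 0`; by induction `ce1 c'' = 0`, so `ce1 c = 0`.
-/

set_option autoImplicit false

namespace Crest.Agent.FD

/-- the abstract data -/
structure KData (Y : Type) [AddCommGroup Y] [Module ℂ Y] where
  X : Fin 4 → Module.End ℂ Y
  D : Fin 4 → Module.End ℂ Y
  T : Fin 4 → Module.End ℂ Y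
  G : ℤ → Submodule ℂ Y
  hX : ∀ a b y, X a (X b y) = X b (X a y)
  hD : ∀ a b y, D a (D b y) = D b (D a y)
  hDX : ∀ a b y, D a (X b y) = X b (D a y) + if a = b then y else 0
  hT : IsRt (fun a => T a)
  hGneg : ∀ m, m < 0 → G m = ⊥
  hGmono : ∀ m m', m ≤ m' → G m ≤ G m'
  hGX : ∀ a m y, y ∈ G m → X a y ∈ G (m + 1)
  hGD : ∀ a m y, y ∈ G m → D a y ∈ G (m - 1)
  hGT : ∀ a m y, y ∈ G m → T a y - X a y ∈ G m
  hGE : ∀ m y, y ∈ G m →
    (X 0 (D 0 y) + X 1 (D 1 y) + X 2 (D 2 y) + X 3 (D 3 y)) - (m : ℂ) • y ∈ G (m - 1)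

namespace KData

section sq
variable {R Y : Type} [Ring R] [AddCommGroup Y] [Module R Y] {T : Fin 4 → Module.End R Y}

theorem sw10 (hT : IsRt (fun a => T a)) (y : Y) : T 1 (T 0 y) = T 0 (T 1 y) + T 1 y :=
  eq_add_of_sub_eq' (hT.h10 y)
theorem sw20 (hT : IsRt (fun a => T a)) (y : Y) : T 2 (T 0 y) = T 0 (T 2 y) + - T 2 y :=
  eq_add_of_sub_eq' (hT.h20 y)
theorem sw30 (hT : IsRt (fun a => T a)) (y : Y) : T 3 (T 0 y) = T 0 (T 3 y) :=
  sub_eq_zero.mp (hT.h30 y)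
theorem sw21 (hT : IsRt (fun a => T a)) (y : Y) :
    T 2 (T 1 y) = T 1 (T 2 y) + (T 0 y - T 3 y) :=
  eq_add_of_sub_eq' (hT.h21 y)
theorem sw31 (hT : IsRt (fun a => T a)) (y : Y) : T 3 (T 1 y) = T 1 (T 3 y) + T 1 y :=
  eq_add_of_sub_eq' (hT.h31 y)
theorem sw32 (hT : IsRt (fun a => T a)) (y : Y) : T 3 (T 2 y) = T 2 (T 3 y) + - T 2 y :=
  eq_add_of_sub_eq' (hT.h32 y)

theorem cel1_apply (T : Fin 4 → Module.End R Y) (y : Fin 4 → Y) :
    cel1 T y = ![T 0 (y 0) + T 1 (y 1) + T 2 (y 2) + T 3 (y 3)] := rfl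
theorem cel2_apply (T : Fin 4 → Module.End R Y) (y : Fin 6 → Y) :
    cel2 T y = ![- T 1 (y 0) - T 2 (y 1) - T 3 (y 2),
    T 0 (y 0) - T 2 (y 3) - T 3 (y 4),
    T 0 (y 1) + T 1 (y 3) - T 3 (y 5),
    T 0 (y 2) + T 1 (y 4) + T 2 (y 5)] := rfl
theorem cel3_apply (T : Fin 4 → Module.End R Y) (y : Fin 4 → Y) :
    cel3 T y = ![T 2 (y 0) + T 3 (y 1),
    - T 1 (y 0) + T 3 (y 2),
    - T 1 (y 1) - T 2 (y 2),
    T 0 (y 0) + T 3 (y 3),
    T 0 (y 1) - T 2 (y 3),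
    T 0 (y 2) + T 1 (y 3)] := rfl
theorem ce4_apply (T : Fin 4 → Module.End R Y) (y : Fin 1 → Y) :
    ce4 T y = ![- T 3 (y 0), T 2 (y 0), - T 1 (y 0), T 0 (y 0)] := rfl
theorem cec2_apply (y : Fin 6 → Y) :
    (cec2 : (Fin 6 → Y) →ₗ[R] (Fin 4 → Y)) y = ![- y 3, - y 0 - y 4, y 1 + y 5, y 3] := rfl
theorem cec3_apply (y : Fin 4 → Y) :
    (cec3 : (Fin 4 → Y) →ₗ[R] (Fin 6 → Y)) y = ![y 1, - y 2, - y 0 - y 3, 0, - y 1, y 2] := rfl

theorem ce1_ce2 (hT : IsRt (fun a => T a)) (y : Fin 6 → Y) : ce1 T (ce2 T y) = 0 := by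
  funext i
  fin_cases i
  simp only [ce1, ce2, cel1_apply, cel2_apply, cec2_apply, LinearMap.add_apply, Pi.add_apply,
    Matrix.cons_val, map_add, map_sub, map_neg, sw10 hT, sw20 hT, sw30 hT, sw21 hT, sw31 hT,
    sw32 hT, Fin.zero_eta, Pi.zero_apply]
  abel

theorem ce2_ce3 (hT : IsRt (fun a => T a)) (y : Fin 4 → Y) : ce2 T (ce3 T y) = 0 := by
  funext i
  fin_cases i <;>
  simp only [ce2, ce3, cel2_apply, cel3_apply, cec2_apply, cec3_apply, LinearMap.add_apply,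
    Pi.add_apply, Matrix.cons_val, map_add, map_sub, map_neg, sw10 hT, sw20 hT, sw30 hT, sw21 hT,
    sw31 hT, sw32 hT, Fin.zero_eta, Fin.mk_one, Fin.reduceFinMk, Pi.zero_apply, map_zero] <;>
  abel

theorem ce3_ce4 (hT : IsRt (fun a => T a)) (y : Fin 1 → Y) : ce3 T (ce4 T y) = 0 := by
  funext i
  fin_cases i <;>
  simp only [ce3, ce4_apply, cel3_apply, cec3_apply, LinearMap.add_apply,
    Pi.add_apply, Matrix.cons_val, map_neg, sw10 hT, sw20 hT, sw30 hT, sw21 hT,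
    sw31 hT, sw32 hT, Fin.zero_eta, Fin.mk_one, Fin.reduceFinMk, Pi.zero_apply] <;>
  abel

end sq

variable {Y : Type} [AddCommGroup Y] [Module ℂ Y] (K : KData Y)

/-! ### homotopies -/

section homotopy

variable (D : Fin 4 → Module.End ℂ Y)

/-- homotopy `Λ⁰ → Λ¹` -/
def hh0 (y : Fin 1 → Y) : Fin 4 → Y := ![D 0 (y 0), D 1 (y 0), D 2 (y 0), D 3 (y 0)]
/-- homotopy `Λ¹ → Λ²` -/
def hh1 (y : Fin 4 → Y) : Fin 6 → Y :=
  ![D 0 (y 1) - D 1 (y 0), D 0 (y 2) - D 2 (y 0), D 0 (y 3) - D 3 (y 0),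
    D 1 (y 2) - D 2 (y 1), D 1 (y 3) - D 3 (y 1), D 2 (y 3) - D 3 (y 2)]
/-- homotopy `Λ² → Λ³` -/
def hh2 (y : Fin 6 → Y) : Fin 4 → Y :=
  ![D 0 (y 3) - D 1 (y 1) + D 2 (y 0), D 0 (y 4) - D 1 (y 2) + D 3 (y 0),
    D 0 (y 5) - D 2 (y 2) + D 3 (y 1), D 1 (y 5) - D 2 (y 4) + D 3 (y 3)]
/-- homotopy `Λ³ → Λ⁴` -/
def hh3 (y : Fin 4 → Y) : Fin 1 → Y := ![D 0 (y 3) - D 1 (y 2) + D 2 (y 1) - D 3 (y 0)]

end homotopy

/-- Euler operator -/
def EE (y : Y) : Y := K.X 0 (K.D 0 y) + K.X 1 (K.D 1 y) + K.X 2 (K.D 2 y) + K.X 3 (K.D 3 y)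

theorem euler0 (y : Fin 1 → Y) (i : Fin 1) : cel1 K.X (hh0 K.D y) i = K.EE (y i) := by
  fin_cases i
  simp [cel1_apply, hh0, EE]

theorem euler1 (y : Fin 4 → Y) (i : Fin 4) :
    cel2 K.X (hh1 K.D y) i + hh0 K.D (cel1 K.X y) i = K.EE (y i) + y i := by
  fin_cases i <;>
  simp only [cel1_apply, cel2_apply, hh0, hh1, EE, Matrix.cons_val, map_add, map_sub, K.hDX,
    Fin.zero_eta, Fin.mk_one, Fin.reduceFinMk, Fin.isValue, Fin.reduceEq, if_true, if_false,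
    add_zero] <;>
  abel

theorem euler2 (y : Fin 6 → Y) (i : Fin 6) :
    cel3 K.X (hh2 K.D y) i + hh1 K.D (cel2 K.X y) i = K.EE (y i) + (2 : ℂ) • y i := by
  rw [two_smul]
  fin_cases i <;>
  simp only [cel2_apply, cel3_apply, hh1, hh2, EE, Matrix.cons_val, map_add, map_sub, map_neg,
    K.hDX, Fin.zero_eta, Fin.mk_one, Fin.reduceFinMk, Fin.isValue, Fin.reduceEq, if_true, if_false,
    add_zero] <;>
  abel

theorem euler3 (y : Fin 4 → Y) (i : Fin 4) :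
    ce4 K.X (hh3 K.D y) i + hh2 K.D (cel3 K.X y) i = K.EE (y i) + (3 : ℂ) • y i := by
  rw [show (3 : ℂ) = 1 + 1 + 1 by norm_num, add_smul, add_smul, one_smul]
  fin_cases i <;>
  simp only [ce4_apply, cel3_apply, hh3, hh2, EE, Matrix.cons_val, map_add, map_sub, map_neg,
    K.hDX, Fin.zero_eta, Fin.mk_one, Fin.reduceFinMk, Fin.isValue, Fin.reduceEq, if_true, if_false,
    add_zero] <;>
  abel

theorem euler4 (y : Fin 1 → Y) (i : Fin 1) :
    hh3 K.D (ce4 K.X y) i = K.EE (y i) + (4 : ℂ) • y i := by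
  rw [show (4 : ℂ) = 1 + 1 + 1 + 1 by norm_num, add_smul, add_smul, add_smul, one_smul]
  fin_cases i
  simp only [ce4_apply, hh3, EE, Matrix.cons_val, map_neg,
    K.hDX, Fin.zero_eta, Fin.isValue, if_true]
  abel

/-! ### memberships -/

/-- `T - X` -/
def SS (a : Fin 4) : Module.End ℂ Y := K.T a - K.X a

theorem SS_mem (a : Fin 4) (m : ℤ) (y : Y) (hy : y ∈ K.G m) : K.SS a y ∈ K.G m :=
  K.hGT a m y hy

theorem T_eq : K.T = K.X + K.SS := by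
  funext a
  simp [SS]

theorem cel1_add' (A B : Fin 4 → Module.End ℂ Y) (y : Fin 4 → Y) :
    cel1 (A + B) y = cel1 A y + cel1 B y := by
  funext i
  fin_cases i
  simp only [cel1_apply, Pi.add_apply, LinearMap.add_apply, Matrix.cons_val, Fin.zero_eta]
  abel

theorem cel2_add' (A B : Fin 4 → Module.End ℂ Y) (y : Fin 6 → Y) :
    cel2 (A + B) y = cel2 A y + cel2 B y := by
  funext i
  fin_cases i <;>
  simp only [cel2_apply, Pi.add_apply, LinearMap.add_apply, Matrix.cons_val, Fin.zero_eta,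
    Fin.mk_one, Fin.reduceFinMk, neg_add] <;>
  abel

theorem cel3_add' (A B : Fin 4 → Module.End ℂ Y) (y : Fin 4 → Y) :
    cel3 (A + B) y = cel3 A y + cel3 B y := by
  funext i
  fin_cases i <;>
  simp only [cel3_apply, Pi.add_apply, LinearMap.add_apply, Matrix.cons_val, Fin.zero_eta,
    Fin.mk_one, Fin.reduceFinMk, neg_add] <;>
  abel

theorem ce4_add' (A B : Fin 4 → Module.End ℂ Y) (y : Fin 1 → Y) :
    ce4 (A + B) y = ce4 A y + ce4 B y := by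
  funext i
  fin_cases i <;>
  simp only [ce4_apply, Pi.add_apply, LinearMap.add_apply, Matrix.cons_val, Fin.zero_eta,
    Fin.mk_one, Fin.reduceFinMk, neg_add] 

theorem hh0_add (D : Fin 4 → Module.End ℂ Y) (y z : Fin 1 → Y) :
    hh0 D (y + z) = hh0 D y + hh0 D z := by
  funext i
  fin_cases i <;>
  simp only [hh0, Pi.add_apply, map_add, Matrix.cons_val, Fin.zero_eta, Fin.mk_one, Fin.reduceFinMk]

theorem hh1_add (D : Fin 4 → Module.End ℂ Y) (y z : Fin 4 → Y) :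
    hh1 D (y + z) = hh1 D y + hh1 D z := by
  funext i
  fin_cases i <;>
  simp only [hh1, Pi.add_apply, map_add, Matrix.cons_val, Fin.zero_eta, Fin.mk_one,
    Fin.reduceFinMk] <;>
  abel

theorem hh2_add (D : Fin 4 → Module.End ℂ Y) (y z : Fin 6 → Y) :
    hh2 D (y + z) = hh2 D y + hh2 D z := by
  funext i
  fin_cases i <;>
  simp only [hh2, Pi.add_apply, map_add, Matrix.cons_val, Fin.zero_eta, Fin.mk_one,
    Fin.reduceFinMk] <;>
  abel

theorem hh3_add (D : Fin 4 → Module.End ℂ Y) (y z : Fin 4 → Y) :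
    hh3 D (y + z) = hh3 D y + hh3 D z := by
  funext i
  fin_cases i
  simp only [hh3, Pi.add_apply, map_add, Matrix.cons_val, Fin.zero_eta]
  abel

theorem hh0_mem (m : ℤ) (y : Fin 1 → Y) (hy : ∀ a, y a ∈ K.G m) (i : Fin 4) :
    hh0 K.D y i ∈ K.G (m - 1) := by
  fin_cases i <;>
  simp only [hh0, Matrix.cons_val, Fin.zero_eta, Fin.mk_one, Fin.reduceFinMk] <;>
  exact K.hGD _ _ _ (hy _)

theorem hh1_mem (m : ℤ) (y : Fin 4 → Y) (hy : ∀ a, y a ∈ K.G m) (i : Fin 6) :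
    hh1 K.D y i ∈ K.G (m - 1) := by
  fin_cases i <;>
  simp only [hh1, Matrix.cons_val, Fin.zero_eta, Fin.mk_one, Fin.reduceFinMk] <;>
  exact sub_mem (K.hGD _ _ _ (hy _)) (K.hGD _ _ _ (hy _))

theorem hh2_mem (m : ℤ) (y : Fin 6 → Y) (hy : ∀ a, y a ∈ K.G m) (i : Fin 4) :
    hh2 K.D y i ∈ K.G (m - 1) := by
  fin_cases i <;>
  simp only [hh2, Matrix.cons_val, Fin.zero_eta, Fin.mk_one, Fin.reduceFinMk] <;>
  exact add_mem (sub_mem (K.hGD _ _ _ (hy _)) (K.hGD _ _ _ (hy _))) (K.hGD _ _ _ (hy _))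

theorem hh3_mem (m : ℤ) (y : Fin 4 → Y) (hy : ∀ a, y a ∈ K.G m) (i : Fin 1) :
    hh3 K.D y i ∈ K.G (m - 1) := by
  fin_cases i
  simp only [hh3, Matrix.cons_val, Fin.zero_eta]
  exact sub_mem (add_mem (sub_mem (K.hGD _ _ _ (hy _)) (K.hGD _ _ _ (hy _)))
    (K.hGD _ _ _ (hy _))) (K.hGD _ _ _ (hy _))

section memgen

variable {M M' : Submodule ℂ Y} {A : Fin 4 → Module.End ℂ Y}

theorem cel1_memg (hA : ∀ a y, y ∈ M → A a y ∈ M') (y : Fin 4 → Y) (hy : ∀ a, y a ∈ M)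
    (i : Fin 1) : cel1 A y i ∈ M' := by
  fin_cases i
  simp only [cel1_apply, Matrix.cons_val, Fin.zero_eta]
  exact add_mem (add_mem (add_mem (hA _ _ (hy _)) (hA _ _ (hy _))) (hA _ _ (hy _))) (hA _ _ (hy _))

theorem cel2_memg (hA : ∀ a y, y ∈ M → A a y ∈ M') (y : Fin 6 → Y) (hy : ∀ a, y a ∈ M)
    (i : Fin 4) : cel2 A y i ∈ M' := by
  have h : ∀ a b, A a (y b) ∈ M' := fun a b => hA a _ (hy b)
  fin_cases i <;>
  simp only [cel2_apply, Matrix.cons_val, Fin.zero_eta, Fin.mk_one, Fin.reduceFinMk]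
  · exact sub_mem (sub_mem (neg_mem (h _ _)) (h _ _)) (h _ _)
  · exact sub_mem (sub_mem (h _ _) (h _ _)) (h _ _)
  · exact sub_mem (add_mem (h _ _) (h _ _)) (h _ _)
  · exact add_mem (add_mem (h _ _) (h _ _)) (h _ _)

theorem cel3_memg (hA : ∀ a y, y ∈ M → A a y ∈ M') (y : Fin 4 → Y) (hy : ∀ a, y a ∈ M)
    (i : Fin 6) : cel3 A y i ∈ M' := by
  have h : ∀ a b, A a (y b) ∈ M' := fun a b => hA a _ (hy b)
  fin_cases i <;>
  simp only [cel3_apply, Matrix.cons_val, Fin.zero_eta, Fin.mk_one, Fin.reduceFinMk]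
  · exact add_mem (h _ _) (h _ _)
  · exact add_mem (neg_mem (h _ _)) (h _ _)
  · exact sub_mem (neg_mem (h _ _)) (h _ _)
  · exact add_mem (h _ _) (h _ _)
  · exact sub_mem (h _ _) (h _ _)
  · exact add_mem (h _ _) (h _ _)

theorem ce4_memg (hA : ∀ a y, y ∈ M → A a y ∈ M') (y : Fin 1 → Y) (hy : ∀ a, y a ∈ M)
    (i : Fin 4) : ce4 A y i ∈ M' := by
  have h : ∀ a b, A a (y b) ∈ M' := fun a b => hA a _ (hy b)
  fin_cases i <;>
  simp only [ce4_apply, Matrix.cons_val, Fin.zero_eta, Fin.mk_one, Fin.reduceFinMk]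
  · exact neg_mem (h _ _)
  · exact h _ _
  · exact neg_mem (h _ _)
  · exact h _ _

theorem cec2_memg (y : Fin 6 → Y) (hy : ∀ a, y a ∈ M) (i : Fin 4) :
    (cec2 : (Fin 6 → Y) →ₗ[ℂ] (Fin 4 → Y)) y i ∈ M := by
  fin_cases i <;>
  simp only [cec2_apply, Matrix.cons_val, Fin.zero_eta, Fin.mk_one, Fin.reduceFinMk]
  · exact neg_mem (hy _)
  · exact sub_mem (neg_mem (hy _)) (hy _)
  · exact add_mem (hy _) (hy _)
  · exact hy _

theorem cec3_memg (y : Fin 4 → Y) (hy : ∀ a, y a ∈ M) (i : Fin 6) :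
    (cec3 : (Fin 4 → Y) →ₗ[ℂ] (Fin 6 → Y)) y i ∈ M := by
  fin_cases i <;>
  simp only [cec3_apply, Matrix.cons_val, Fin.zero_eta, Fin.mk_one, Fin.reduceFinMk]
  · exact hy _
  · exact neg_mem (hy _)
  · exact sub_mem (neg_mem (hy _)) (hy _)
  · exact zero_mem _
  · exact neg_mem (hy _)
  · exact hy _

end memgen

/-- the differentials raise the filtration by at most one -/
theorem mem_T (a : Fin 4) (m : ℤ) (y : Y) (hy : y ∈ K.G m) : K.T a y ∈ K.G (m + 1) := by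
  have h1 := K.hGT a m y hy
  have h2 := K.hGX a m y hy
  have h3 : K.T a y = (K.T a y - K.X a y) + K.X a y := by abel
  rw [h3]
  exact add_mem (K.hGmono m (m + 1) (by omega) h1) h2

theorem ce1_mem (m : ℤ) (c : Fin 4 → Y) (hc : ∀ a, c a ∈ K.G m) :
    ∀ a, ce1 K.T c a ∈ K.G (m + 1) :=
  cel1_memg (fun a y hy => K.mem_T a m y hy) c hc

theorem ce2_mem (m : ℤ) (c : Fin 6 → Y) (hc : ∀ a, c a ∈ K.G m) :
    ∀ a, ce2 K.T c a ∈ K.G (m + 1) := fun a =>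
  add_mem (cel2_memg (fun a y hy => K.mem_T a m y hy) c hc a)
    (K.hGmono m (m + 1) (by omega) (cec2_memg c hc a))

theorem ce3_mem (m : ℤ) (c : Fin 4 → Y) (hc : ∀ a, c a ∈ K.G m) :
    ∀ a, ce3 K.T c a ∈ K.G (m + 1) := fun a =>
  add_mem (cel3_memg (fun a y hy => K.mem_T a m y hy) c hc a)
    (K.hGmono m (m + 1) (by omega) (cec3_memg c hc a))

theorem ce4_mem (m : ℤ) (c : Fin 1 → Y) (hc : ∀ a, c a ∈ K.G m) :
    ∀ a, ce4 K.T c a ∈ K.G (m + 1) :=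
  ce4_memg (fun a y hy => K.mem_T a m y hy) c hc

/-! ### the operator `N` -/

theorem N0 (m : ℤ) (y : Fin 1 → Y) (hy : ∀ a, y a ∈ K.G m) (i : Fin 1) :
    ce1 K.T (hh0 K.D y) i - (m : ℂ) • y i ∈ K.G (m - 1) := by
  have h1 : ce1 K.T (hh0 K.D y) i - (m : ℂ) • y i =
      (K.EE (y i) - (m : ℂ) • y i) + cel1 K.SS (hh0 K.D y) i := by
    rw [ce1, T_eq, cel1_add', Pi.add_apply, euler0]
    abel
  rw [h1]
  exact add_mem (K.hGE m _ (hy i)) (cel1_memg (fun a y hy => K.SS_mem a _ y hy) _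
    (K.hh0_mem m y hy) i)

theorem N1 (m : ℤ) (y : Fin 4 → Y) (hy : ∀ a, y a ∈ K.G m) (i : Fin 4) :
    ce2 K.T (hh1 K.D y) i + hh0 K.D (ce1 K.T y) i - ((m : ℂ) + 1) • y i ∈ K.G (m - 1) := by
  have h1 : ce2 K.T (hh1 K.D y) i + hh0 K.D (ce1 K.T y) i - ((m : ℂ) + 1) • y i =
      (K.EE (y i) - (m : ℂ) • y i) + (cel2 K.SS (hh1 K.D y) i +
      (cec2 : (Fin 6 → Y) →ₗ[ℂ] (Fin 4 → Y)) (hh1 K.D y) i) +
      hh0 K.D (cel1 K.SS y) i := by
    have e := K.euler1 y i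
    rw [ce1, ce2, T_eq, cel1_add', LinearMap.add_apply, cel2_add', hh0_add, add_smul, one_smul]
    simp only [Pi.add_apply]
    rw [← sub_eq_zero] at e ⊢
    rw [← e]
    abel
  rw [h1]
  refine add_mem (add_mem (K.hGE m _ (hy i)) (add_mem
    (cel2_memg (fun a y hy => K.SS_mem a _ y hy) _ (K.hh1_mem m y hy) i)
    (cec2_memg _ (K.hh1_mem m y hy) i))) ?_
  exact K.hh0_mem m _ (cel1_memg (fun a y hy => K.SS_mem a _ y hy) _ hy) i

theorem N2 (m : ℤ) (y : Fin 6 → Y) (hy : ∀ a, y a ∈ K.G m) (i : Fin 6) :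
    ce3 K.T (hh2 K.D y) i + hh1 K.D (ce2 K.T y) i - ((m : ℂ) + 2) • y i ∈ K.G (m - 1) := by
  have h1 : ce3 K.T (hh2 K.D y) i + hh1 K.D (ce2 K.T y) i - ((m : ℂ) + 2) • y i =
      (K.EE (y i) - (m : ℂ) • y i) + (cel3 K.SS (hh2 K.D y) i +
      (cec3 : (Fin 4 → Y) →ₗ[ℂ] (Fin 6 → Y)) (hh2 K.D y) i) +
      hh1 K.D (cel2 K.SS y + (cec2 : (Fin 6 → Y) →ₗ[ℂ] (Fin 4 → Y)) y) i := by
    have e := K.euler2 y i
    rw [ce2, ce3, T_eq, LinearMap.add_apply, LinearMap.add_apply, cel2_add', cel3_add', hh1_add,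
      hh1_add, hh1_add, add_smul]
    simp only [Pi.add_apply]
    rw [← sub_eq_zero] at e ⊢
    rw [← e]
    abel
  rw [h1]
  refine add_mem (add_mem (K.hGE m _ (hy i)) (add_mem
    (cel3_memg (fun a y hy => K.SS_mem a _ y hy) _ (K.hh2_mem m y hy) i)
    (cec3_memg _ (K.hh2_mem m y hy) i))) ?_
  exact K.hh1_mem m _ (fun a => add_mem (cel2_memg (fun a y hy => K.SS_mem a _ y hy) _ hy a)
    (cec2_memg _ hy a)) i

theorem N3 (m : ℤ) (y : Fin 4 → Y) (hy : ∀ a, y a ∈ K.G m) (i : Fin 4) :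
    ce4 K.T (hh3 K.D y) i + hh2 K.D (ce3 K.T y) i - ((m : ℂ) + 3) • y i ∈ K.G (m - 1) := by
  have h1 : ce4 K.T (hh3 K.D y) i + hh2 K.D (ce3 K.T y) i - ((m : ℂ) + 3) • y i =
      (K.EE (y i) - (m : ℂ) • y i) + ce4 K.SS (hh3 K.D y) i +
      hh2 K.D (cel3 K.SS y + (cec3 : (Fin 4 → Y) →ₗ[ℂ] (Fin 6 → Y)) y) i := by
    have e := K.euler3 y i
    rw [ce3, T_eq, LinearMap.add_apply, ce4_add', cel3_add', hh2_add,
      hh2_add, hh2_add, add_smul]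
    simp only [Pi.add_apply]
    rw [← sub_eq_zero] at e ⊢
    rw [← e]
    abel
  rw [h1]
  refine add_mem (add_mem (K.hGE m _ (hy i))
    (ce4_memg (fun a y hy => K.SS_mem a _ y hy) _ (K.hh3_mem m y hy) i)) ?_
  exact K.hh2_mem m _ (fun a => add_mem (cel3_memg (fun a y hy => K.SS_mem a _ y hy) _ hy a)
    (cec3_memg _ hy a)) i

theorem N4 (m : ℤ) (y : Fin 1 → Y) (hy : ∀ a, y a ∈ K.G m) (i : Fin 1) :
    hh3 K.D (ce4 K.T y) i - ((m : ℂ) + 4) • y i ∈ K.G (m - 1) := by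
  have h1 : hh3 K.D (ce4 K.T y) i - ((m : ℂ) + 4) • y i =
      (K.EE (y i) - (m : ℂ) • y i) + hh3 K.D (ce4 K.SS y) i := by
    have e := K.euler4 y i
    rw [T_eq, ce4_add', hh3_add, add_smul]
    simp only [Pi.add_apply]
    rw [← sub_eq_zero] at e ⊢
    rw [← e]
    abel
  rw [h1]
  exact add_mem (K.hGE m _ (hy i))
    (K.hh3_mem m _ (ce4_memg (fun a y hy => K.SS_mem a _ y hy) _ hy) i)

/-! ### exactness -/

theorem hh0_zero (D : Fin 4 → Module.End ℂ Y) : hh0 D 0 = 0 := by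
  funext i
  fin_cases i <;> simp [hh0]

theorem hh1_zero (D : Fin 4 → Module.End ℂ Y) : hh1 D 0 = 0 := by
  funext i
  fin_cases i <;> simp [hh1]

theorem hh2_zero (D : Fin 4 → Module.End ℂ Y) : hh2 D 0 = 0 := by
  funext i
  fin_cases i <;> simp [hh2]

theorem hh3_zero (D : Fin 4 → Module.End ℂ Y) : hh3 D 0 = 0 := by
  funext i
  fin_cases i
  simp [hh3]

theorem eq_zero_of_neg {k : ℕ} (m : ℤ) (hm : m < 0) (y : Fin k → Y) (hy : ∀ a, y a ∈ K.G m) :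
    y = 0 := by
  funext a
  have := hy a
  rw [K.hGneg m hm, Submodule.mem_bot] at this
  exact this

theorem exact_gen {k l : ℕ} {Z : Type} [AddCommGroup Z] [Module ℂ Z]
    (dB : (Fin k → Y) →ₗ[ℂ] Z) (dC : (Fin l → Y) →ₗ[ℂ] (Fin k → Y))
    (hd : ∀ w, dB (dC w) = 0) (hB : (Fin k → Y) → (Fin l → Y)) (hA : Z → (Fin k → Y))
    (hA0 : hA 0 = 0) (j : ℕ) (hj : 1 ≤ j)
    (hBm : ∀ m y, (∀ a, y a ∈ K.G m) → ∀ i, hB y i ∈ K.G (m - 1))
    (hN : ∀ (m : ℤ) y, (∀ a, y a ∈ K.G m) → ∀ i,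
      dC (hB y) i + hA (dB y) i - ((m : ℂ) + j) • y i ∈ K.G (m - 1)) :
    ∀ (n : ℕ) (m : ℤ) (_ : m < n) (y : Fin k → Y) (_ : ∀ a, y a ∈ K.G m) (_ : dB y = 0),
      ∃ w : Fin l → Y, (∀ a, w a ∈ K.G (m - 1)) ∧ dC w = y := by
  intro n
  induction n with
  | zero =>
    intro m hm y hy _
    refine ⟨0, fun a => zero_mem _, ?_⟩
    rw [map_zero, K.eq_zero_of_neg m (by simpa using hm) y hy]
  | succ n ih =>
    intro m hm y hy h
    by_cases hm0 : m < 0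
    · refine ⟨0, fun a => zero_mem _, ?_⟩
      rw [map_zero, K.eq_zero_of_neg m hm0 y hy]
    · have hNy := hN m y hy
      rw [h, hA0] at hNy
      have hc : ((m : ℂ) + j) ≠ 0 := by
        have h1 : (0 : ℤ) < m + j := by omega
        have h2 : ((m + j : ℤ) : ℂ) ≠ 0 := by
          rw [Int.cast_ne_zero]; omega
        simpa using h2
      have hy2 : ∀ a, (dC (hB y) - ((m : ℂ) + j) • y) a ∈ K.G (m - 1) := by
        intro a
        simpa using hNy a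
      have hd2 : dB (dC (hB y) - ((m : ℂ) + j) • y) = 0 := by
        rw [map_sub, map_smul, hd, h, smul_zero, sub_zero]
      obtain ⟨w, hw, hwy⟩ := ih (m - 1) (by push_cast at hm; omega) _ hy2 hd2
      refine ⟨((m : ℂ) + j)⁻¹ • (hB y - w), fun a => ?_, ?_⟩
      · refine Submodule.smul_mem _ _ (sub_mem (hBm m y hy a) ?_)
        exact K.hGmono (m - 1 - 1) (m - 1) (by omega) (hw a)
      · rw [map_smul, map_sub, hwy, sub_sub_cancel, smul_smul, inv_mul_cancel₀ hc, one_smul]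

theorem ex4 (m : ℤ) (c : Fin 1 → Y) (hc : ∀ a, c a ∈ K.G m) (h : ce4 K.T c = 0) : c = 0 := by
  obtain ⟨w, _, hw⟩ := K.exact_gen (k := 1) (l := 0) (ce4 K.T) 0 (fun w => by simp)
    (fun _ => 0) (hh3 K.D) (hh3_zero _) 4 (by norm_num) (fun m y hy i => i.elim0)
    (fun m y hy i => by simpa using K.N4 m y hy i) (m + 1).toNat m (by omega) c hc h
  rw [← hw]
  rfl

theorem ex3 (m : ℤ) (c : Fin 4 → Y) (hc : ∀ a, c a ∈ K.G m) (h : ce3 K.T c = 0) :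
    ∃ w : Fin 1 → Y, (∀ a, w a ∈ K.G (m - 1)) ∧ ce4 K.T w = c :=
  K.exact_gen (k := 4) (l := 1) (ce3 K.T) (ce4 K.T) (ce3_ce4 K.hT)
    (hh3 K.D) (hh2 K.D) (hh2_zero _) 3 (by norm_num) K.hh3_mem
    (fun m y hy i => by simpa using K.N3 m y hy i) (m + 1).toNat m (by omega) c hc h

theorem ex2 (m : ℤ) (c : Fin 6 → Y) (hc : ∀ a, c a ∈ K.G m) (h : ce2 K.T c = 0) :
    ∃ w : Fin 4 → Y, (∀ a, w a ∈ K.G (m - 1)) ∧ ce3 K.T w = c :=
  K.exact_gen (k := 6) (l := 4) (ce2 K.T) (ce3 K.T) (ce2_ce3 K.hT)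
    (hh2 K.D) (hh1 K.D) (hh1_zero _) 2 (by norm_num) K.hh2_mem
    (fun m y hy i => by simpa using K.N2 m y hy i) (m + 1).toNat m (by omega) c hc h

theorem ex1 (m : ℤ) (c : Fin 4 → Y) (hc : ∀ a, c a ∈ K.G m) (h : ce1 K.T c = 0) :
    ∃ w : Fin 6 → Y, (∀ a, w a ∈ K.G (m - 1)) ∧ ce2 K.T w = c :=
  K.exact_gen (k := 4) (l := 6) (ce1 K.T) (ce2 K.T) (ce1_ce2 K.hT)
    (hh1 K.D) (hh0 K.D) (hh0_zero _) 1 (by norm_num) K.hh1_mem
    (fun m y hy i => by simpa using K.N1 m y hy i) (m + 1).toNat m (by omega) c hc h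

theorem ex0_aux : ∀ (n : ℕ) (m : ℤ) (_ : m < n) (c : Fin 1 → Y) (_ : ∀ a, c a ∈ K.G m),
    ∃ g : Fin 1 → Y, (∀ a, g a ∈ K.G 0) ∧
      ∃ w : Fin 4 → Y, (∀ a, w a ∈ K.G (m - 1)) ∧ c = g + ce1 K.T w := by
  intro n
  induction n with
  | zero =>
    intro m hm c hc
    exact ⟨c, fun a => K.hGmono m 0 (by omega) (hc a), 0, fun a => zero_mem _, by simp⟩
  | succ n ih =>
    intro m hm c hc
    by_cases hm0 : m ≤ 0
    · exact ⟨c, fun a => K.hGmono m 0 hm0 (hc a), 0, fun a => zero_mem _, by simp⟩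
    · have hNy := K.N0 m c hc
      have hmc : (m : ℂ) ≠ 0 := by
        rw [Int.cast_ne_zero]; omega
      obtain ⟨g, hg, w, hw, hgw⟩ := ih (m - 1) (by push_cast at hm; omega)
        (ce1 K.T (hh0 K.D c) - (m : ℂ) • c) (fun a => by simpa using hNy a)
      refine ⟨-((m : ℂ)⁻¹ • g), fun a => neg_mem (Submodule.smul_mem _ _ (hg a)),
        (m : ℂ)⁻¹ • (hh0 K.D c - w), fun a => ?_, ?_⟩
      · refine Submodule.smul_mem _ _ (sub_mem (K.hh0_mem m c hc a) ?_)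
        exact K.hGmono (m - 1 - 1) (m - 1) (by omega) (hw a)
      · have h1 : (m : ℂ) • c = ce1 K.T (hh0 K.D c) - (g + ce1 K.T w) := by
          rw [← hgw]; abel
        have h2 : c = (m : ℂ)⁻¹ • ((m : ℂ) • c) := by
          rw [smul_smul, inv_mul_cancel₀ hmc, one_smul]
        rw [map_smul, map_sub]
        conv_lhs => rw [h2, h1]
        rw [smul_sub, smul_sub, smul_add]
        abel

theorem ex0 (m : ℤ) (c : Fin 1 → Y) (hc : ∀ a, c a ∈ K.G m) :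
    ∃ g : Fin 1 → Y, (∀ a, g a ∈ K.G 0) ∧
      ∃ w : Fin 4 → Y, (∀ a, w a ∈ K.G (m - 1)) ∧ c = g + ce1 K.T w :=
  K.ex0_aux (m + 1).toNat m (by omega) c hc

theorem sep_aux : ∀ (n : ℕ) (m : ℤ) (_ : m < n) (w : Fin 4 → Y) (_ : ∀ a, w a ∈ K.G m)
    (_ : ∀ a, ce1 K.T w a ∈ K.G 0), ce1 K.T w = 0 := by
  intro n
  induction n with
  | zero =>
    intro m hm w hw _
    rw [K.eq_zero_of_neg m (by simpa using hm) w hw, map_zero]
  | succ n ih =>
    intro m hm w hw h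
    by_cases hm0 : m < 0
    · rw [K.eq_zero_of_neg m hm0 w hw, map_zero]
    · have hz : hh0 K.D (ce1 K.T w) = 0 :=
        K.eq_zero_of_neg (0 - 1) (by norm_num) _ (K.hh0_mem 0 _ h)
      have hNy := K.N1 m w hw
      rw [hz] at hNy
      have hc : ((m : ℂ) + 1) ≠ 0 := by
        have h2 : ((m + 1 : ℤ) : ℂ) ≠ 0 := by
          rw [Int.cast_ne_zero]; omega
        simpa using h2
      have hce : ce1 K.T (ce2 K.T (hh1 K.D w) - ((m : ℂ) + 1) • w) =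
          - (((m : ℂ) + 1) • ce1 K.T w) := by
        rw [map_sub, map_smul, ce1_ce2 K.hT, zero_sub]
      have h3 := ih (m - 1) (by push_cast at hm; omega)
        (ce2 K.T (hh1 K.D w) - ((m : ℂ) + 1) • w) (fun a => by simpa using hNy a)
        (fun a => by
          rw [hce]
          exact neg_mem (Submodule.smul_mem _ _ (h a)))
      rw [hce, neg_eq_zero] at h3
      exact (smul_eq_zero.mp h3).resolve_left hc

theorem sep (m : ℤ) (w : Fin 4 → Y) (hw : ∀ a, w a ∈ K.G m) (h : ∀ a, ce1 K.T w a ∈ K.G 0) :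
    ce1 K.T w = 0 :=
  K.sep_aux (m + 1).toNat m (by omega) w hw h

end KData

end Crest.Agent.FD
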