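import Crest.Agent.FD.NonSplit
import Crest.Agent.FD.Homo

/-!
# Row 178 (S0268): assembly
-/

set_option autoImplicit false

namespace Crest.Agent.FD

open CategoryTheory

theorem XW_unbounded : ∀ k : ℕ, ∃ n : ℕ,
    ¬ HasProjectiveDimensionLT (ModuleCat.of AA (XW n)) k ∧
      ∃ m : ℕ, HasProjectiveDimensionLT (ModuleCat.of AA (XW n)) m :=
  homological (A := AA) XW EW QW (fun n => CW (n + 1) 1 0) (fun n => CW (n + 1) 4 1)
    (fun n => CW (n + 1) 6 2) (fun n => CW (n + 1) 4 3) (fun n => CW (n + 1) 1 4)
    XW_zero_subsingleton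
    (fun n => CW_projective _ _ _ (by norm_num) (by norm_num))
    (fun n => CW_projective _ _ _ (by norm_num) (by norm_num))
    (fun n => CW_projective _ _ _ (by norm_num) (by norm_num))
    (fun n => CW_projective _ _ _ (by norm_num) (by norm_num))
    (fun n => CW_projective _ _ _ (by norm_num) (by norm_num))
    iW pW iW_injective iW_pW_exact pW_surjective
    phiW deltaW evW phiW_injective phiW_deltaW_exact deltaW_evW_exact evW_surjective
    d4W d3W d2W (fun n => (LinearMap.range (d2W n)).mkQ)
    d4W_injective d4W_d3W_exact d3W_d2W_exact d2W_mk_exact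
    (fun n => Submodule.mkQ_surjective _) nonsplit

theorem XW_finite (n : ℕ) : Module.Finite AA (XW n) := by
  cases n with
  | zero =>
    haveI := XW_zero_subsingleton
    infer_instance
  | succ n =>
    haveI := CW_finite (n + 1) 1 0 (by norm_num) (by norm_num)
    exact Module.Finite.of_surjective (pW n ∘ₗ evW n)
      ((pW_surjective n).comp (evW_surjective n))

theorem main : ∃ (A : Type) (_ : Ring A) (_ : Algebra ℂ A), FiniteDimensional ℂ A ∧
      ∀ k : ℕ, ∃ N : ModuleCat.{0} A, Module.Finite A N ∧
        ¬ CategoryTheory.HasProjectiveDimensionLT N k ∧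
        ∃ n : ℕ, CategoryTheory.HasProjectiveDimensionLT N n := by
  refine ⟨AA, inferInstance, inferInstance, AA_finiteDimensional, fun k => ?_⟩
  obtain ⟨n, h1, h2⟩ := XW_unbounded k
  exact ⟨ModuleCat.of AA (XW n), XW_finite n, h1, h2⟩

end Crest.Agent.FD
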