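import Crest.Agent.FD.HQ

/-!
# Row 178 (S0268), chunk NEX: exactness at the level of `N ⊗ V_n`, `N = S ⊕ Q`

Everything is componentwise: for `c : Fin r → Fs N` put `sc c a i k = (c a i k).1` and
`qc c a i k = (c a i k).2`; these commute with the differentials.
-/

set_option autoImplicit false

namespace Crest.Agent.FD

open MvPolynomial

noncomputable section

/-- `S`-component -/
def sc {r : ℕ} (c : Fin r → Fs N) : Fin r → Fs S := fun a i k => (c a i k).1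

/-- `Q`-component -/
def qc {r : ℕ} (c : Fin r → Fs N) : Fin r → Fs Qb := fun a i k => (c a i k).2

/-- pairing -/
def pc {r : ℕ} (s : Fin r → Fs S) (q : Fin r → Fs Qb) : Fin r → Fs N :=
  fun a i k => (s a i k, q a i k)

section nat

variable {R R' : Type} {Y Z : Type} [Ring R] [Ring R'] [AddCommGroup Y] [Module R Y]
  [AddCommGroup Z] [Module R' Z]

theorem nx_xfun (f : Y →+ Z) (j : Fin 2) (y : Fs Y) :
    (fun i k => f (xfun j y i k)) = xfun j (fun i k => f (y i k)) := by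
  funext i k
  simp only [xfun]
  split_ifs <;> simp

theorem nx_dfun (f : Y →+ Z) (j : Fin 2) (y : Fs Y) :
    (fun i k => f (dfun j y i k)) = dfun j (fun i k => f (y i k)) := by
  funext i k
  simp only [dfun]
  split_ifs <;> simp

theorem nx_rho (f : Y →+ Z) (i j : Fin 2) (y : Fs Y) :
    (fun a b => f (rho R Y i j y a b)) = rho R' Z i j (fun a b => f (y a b)) := by
  rw [rho_apply, rho_apply, ← nx_dfun, ← nx_xfun]

theorem nx_Top (f : Y →+ Z) (r : Fin 2 → Fin 2 → Module.End R Y)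
    (r' : Fin 2 → Fin 2 → Module.End R' Z) (h : ∀ i j y, f (r i j y) = r' i j (f y)) (a : Fin 4)
    (y : Fs Y) : (fun i k => f (Top r a y i k)) = Top r' a (fun i k => f (y i k)) := by
  have key : ∀ i j, (fun b c => f ((pw (r i j) - rho R Y i j) y b c)) =
      (pw (r' i j) - rho R' Z i j) (fun i k => f (y i k)) := by
    intro i j
    have h1 := nx_rho (R := R) (R' := R') f i j y
    funext b c
    have h2 := congrFun (congrFun h1 b) c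
    simp only [LinearMap.sub_apply, Pi.sub_apply, pw_apply, map_sub, h] at h2 ⊢
    rw [h2]
  fin_cases a
  · exact key 0 0
  · exact key 0 1
  · exact key 1 0
  · exact key 1 1

variable {Y' Z' : Type} [AddCommGroup Y'] [Module R Y'] [AddCommGroup Z'] [Module R' Z']
  (F : Y' →+ Z') (T : Fin 4 → Module.End R Y') (T' : Fin 4 → Module.End R' Z')

theorem nx_ce1 (h : ∀ a y, F (T a y) = T' a (F y)) (c : Fin 4 → Y') :
    (fun a => F (ce1 T c a)) = ce1 T' (fun a => F (c a)) := by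
  funext a
  simp only [ce1, KData.cel1_apply]
  fin_cases a
  simp [h]

theorem nx_ce2 (h : ∀ a y, F (T a y) = T' a (F y)) (c : Fin 6 → Y') :
    (fun a => F (ce2 T c a)) = ce2 T' (fun a => F (c a)) := by
  funext a
  simp only [ce2, LinearMap.add_apply, KData.cel2_apply, KData.cec2_apply]
  fin_cases a <;> simp [h]

theorem nx_ce3 (h : ∀ a y, F (T a y) = T' a (F y)) (c : Fin 4 → Y') :
    (fun a => F (ce3 T c a)) = ce3 T' (fun a => F (c a)) := by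
  funext a
  simp only [ce3, LinearMap.add_apply, KData.cel3_apply, KData.cec3_apply]
  fin_cases a <;> simp [h]

theorem nx_ce4 (h : ∀ a y, F (T a y) = T' a (F y)) (c : Fin 1 → Y') :
    (fun a => F (ce4 T c a)) = ce4 T' (fun a => F (c a)) := by
  funext a
  simp only [KData.ce4_apply]
  fin_cases a <;> simp [h]

end nat

/-- first components -/
def nxF : Fs N →+ Fs S where
  toFun y i k := (y i k).1
  map_zero' := rfl
  map_add' _ _ := rfl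

/-- second components -/
def nxS : Fs N →+ Fs Qb where
  toFun y i k := (y i k).2
  map_zero' := rfl
  map_add' _ _ := rfl

theorem nxF_TN (a : Fin 4) (y : Fs N) : nxF (TN a y) = Top Rop a (nxF y) :=
  nx_Top (AddMonoidHom.fst S Qb) RNT Rop (fun _ _ _ => rfl) a y

theorem nxS_TN (a : Fin 4) (y : Fs N) : nxS (TN a y) = Top RQ a (nxS y) :=
  nx_Top (AddMonoidHom.snd S Qb) RNT RQ (fun _ _ _ => rfl) a y

theorem sc_ce1 (c : Fin 4 → Fs N) : sc (ce1 TN c) = ce1 (Top Rop) (sc c) :=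
  nx_ce1 nxF TN (Top Rop) nxF_TN c
theorem sc_ce2 (c : Fin 6 → Fs N) : sc (ce2 TN c) = ce2 (Top Rop) (sc c) :=
  nx_ce2 nxF TN (Top Rop) nxF_TN c
theorem sc_ce3 (c : Fin 4 → Fs N) : sc (ce3 TN c) = ce3 (Top Rop) (sc c) :=
  nx_ce3 nxF TN (Top Rop) nxF_TN c
theorem sc_ce4 (c : Fin 1 → Fs N) : sc (ce4 TN c) = ce4 (Top Rop) (sc c) :=
  nx_ce4 nxF TN (Top Rop) nxF_TN c
theorem qc_ce1 (c : Fin 4 → Fs N) : qc (ce1 TN c) = ce1 (Top RQ) (qc c) :=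
  nx_ce1 nxS TN (Top RQ) nxS_TN c
theorem qc_ce2 (c : Fin 6 → Fs N) : qc (ce2 TN c) = ce2 (Top RQ) (qc c) :=
  nx_ce2 nxS TN (Top RQ) nxS_TN c
theorem qc_ce3 (c : Fin 4 → Fs N) : qc (ce3 TN c) = ce3 (Top RQ) (qc c) :=
  nx_ce3 nxS TN (Top RQ) nxS_TN c
theorem qc_ce4 (c : Fin 1 → Fs N) : qc (ce4 TN c) = ce4 (Top RQ) (qc c) :=
  nx_ce4 nxS TN (Top RQ) nxS_TN c

theorem nx_ext {r : ℕ} {c c' : Fin r → Fs N} (h1 : sc c = sc c') (h2 : qc c = qc c') : c = c' := by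
  funext a i k
  exact Prod.ext (congrFun (congrFun (congrFun h1 a) i) k) (congrFun (congrFun (congrFun h2 a) i) k)

theorem nx_sc_pc {r : ℕ} (s : Fin r → Fs S) (q : Fin r → Fs Qb) : sc (pc s q) = s := rfl
theorem nx_qc_pc {r : ℕ} (s : Fin r → Fs S) (q : Fin r → Fs Qb) : qc (pc s q) = q := rfl

theorem nx_sc_mem {r : ℕ} {n : ℕ} {m : ℤ} {c : Fin r → Fs N} (hc : ∀ a, c a ∈ FsF (n + 1) Nf m)
    (a : Fin r) : sc c a ∈ FsF (n + 1) Sf m := fun i k =>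
  ⟨(hc a i k).1.1, fun h => by simp only [sc]; rw [(hc a i k).2 h]; rfl⟩

theorem nx_qc_mem {r : ℕ} {n : ℕ} {m : ℤ} {c : Fin r → Fs N} (hc : ∀ a, c a ∈ FsF (n + 1) Nf m)
    (a : Fin r) : qc c a ∈ FsF (n + 1) Qf m := fun i k =>
  ⟨(hc a i k).1.2, fun h => by simp only [qc]; rw [(hc a i k).2 h]; rfl⟩

theorem nx_pc_mem {r : ℕ} {n : ℕ} {m : ℤ} {s : Fin r → Fs S} {q : Fin r → Fs Qb}
    (hs : ∀ a, s a ∈ FsF (n + 1) Sf m) (hq : ∀ a, q a ∈ FsF (n + 1) Qf m) (a : Fin r) :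
    pc s q a ∈ FsF (n + 1) Nf m := fun i k =>
  ⟨⟨(hs a i k).1, (hq a i k).1⟩, fun h => Prod.ext ((hs a i k).2 h) ((hq a i k).2 h)⟩

theorem nx_xfun_add {Y : Type} [AddCommGroup Y] (j : Fin 2) (y y' : Fs Y) :
    xfun j (y + y') = xfun j y + xfun j y' := by
  funext i k
  simp only [xfun, Pi.add_apply]
  split_ifs <;> simp

theorem nx_xfun_smul {Y : Type} [AddCommGroup Y] [Module ℂ Y] (j : Fin 2) (t : ℂ) (y : Fs Y) :
    xfun j (t • y) = t • xfun j y := by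
  funext i k
  simp only [xfun, Pi.smul_apply]
  split_ifs <;> simp

theorem nx_pt_add {Y : Type} [AddCommGroup Y] [Module ℂ Y] (y : Y) (v w : Fs ℂ) :
    pt y (v + w) = pt y v + pt y w := by
  funext i k
  simp [pt, add_smul]

theorem nx_pt_smul {Y : Type} [AddCommGroup Y] [Module ℂ Y] (y : Y) (t : ℂ) (v : Fs ℂ) :
    pt y (t • v) = t • pt y v := by
  funext i k
  simp [pt, mul_smul]

theorem nx_zQ_add (q q' : Fs ℂ) : zQ (q + q') = zQ q + zQ q' := by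
  unfold zQ
  simp only [nx_xfun_add, nx_pt_add]
  funext a
  fin_cases a <;> simp <;> abel

theorem nx_zQ_smul (t : ℂ) (q : Fs ℂ) : zQ (t • q) = t • zQ q := by
  unfold zQ
  simp only [nx_xfun_smul, nx_pt_smul]
  funext a
  fin_cases a <;> simp

/-- `zN q = (0, zQ q)` -/
def zN : Fs ℂ →ₗ[ℂ] (Fin 4 → Fs N) where
  toFun q := pc 0 (zQ q)
  map_add' a b := by
    refine nx_ext ?_ ?_
    · funext a i k
      simp [sc, pc]
    · rw [nx_zQ_add]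
      rfl
  map_smul' t a := by
    refine nx_ext ?_ ?_
    · funext a i k
      simp [sc, pc]
    · rw [nx_zQ_smul]
      rfl

theorem zN_apply (q : Fs ℂ) : zN q = pc 0 (zQ q) := rfl

theorem zN_mem (n : ℕ) (q : Fs ℂ) (hq : q ∈ Vh n) (a : Fin 4) :
    zN q a ∈ FsF (n + 1) Nf (-1) :=
  nx_pc_mem (fun _ => Submodule.zero_mem _) (zQ_mem n q hq) a

theorem zN_cycle (q : Fs ℂ) : ce1 TN (zN q) = 0 := by
  refine nx_ext ?_ ?_
  · rw [sc_ce1]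
    exact map_zero _
  · rw [qc_ce1]
    exact zQ_cycle q

theorem isRt_TN : IsRt (fun a => TN a) := by
  refine isRt_Top RNT fun i j k l y => ?_
  have h1 := Rop_comm i j k l y.1
  have h2 := RQ_comm i j k l y.2
  refine Prod.ext ?_ ?_
  · simp only [RNT_apply, RN_apply, Prod.fst_sub]
    rw [h1]
    split_ifs <;> simp
  · simp only [RNT_apply, RN_apply, Prod.snd_sub]
    rw [h2]
    split_ifs <;> simp

/-- evaluation `N ⊗ V_n → E_n = V_n ⊕ V_(n-1)`, `n ⊗ v ↦ n • (v, 0)`, `T`-linear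
(`PhiE_smul`) -/
def evE (n : ℕ) : (Fin 1 → Fs N) →ₗ[TT] EE where
  toFun c := (∑ x ∈ Finset.HasAntidiagonal.antidiagonal n,
    PhiE (c 0 x.1 x.2) (mon x.1 x.2, 0) : Fs ℂ × Fs ℂ)
  map_add' c c' := by
    show (∑ x ∈ Finset.HasAntidiagonal.antidiagonal n,
      PhiE ((c + c') 0 x.1 x.2) (mon x.1 x.2, 0) : Fs ℂ × Fs ℂ) =
      (∑ x ∈ Finset.HasAntidiagonal.antidiagonal n,
      PhiE (c 0 x.1 x.2) (mon x.1 x.2, 0) : Fs ℂ × Fs ℂ) +
      (∑ x ∈ Finset.HasAntidiagonal.antidiagonal n,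
      PhiE (c' 0 x.1 x.2) (mon x.1 x.2, 0) : Fs ℂ × Fs ℂ)
    rw [← Finset.sum_add_distrib]
    refine Finset.sum_congr rfl fun x _ => ?_
    rw [Pi.add_apply, Pi.add_apply, Pi.add_apply, map_add]
    rfl
  map_smul' t c := by
    show (∑ x ∈ Finset.HasAntidiagonal.antidiagonal n,
      PhiE ((t • c) 0 x.1 x.2) (mon x.1 x.2, 0) : Fs ℂ × Fs ℂ) =
      PhiE (t • oneN) (∑ x ∈ Finset.HasAntidiagonal.antidiagonal n,
      PhiE (c 0 x.1 x.2) (mon x.1 x.2, 0) : Fs ℂ × Fs ℂ)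
    rw [map_sum]
    refine Finset.sum_congr rfl fun x _ => ?_
    have : (t • c) 0 x.1 x.2 = t • (c 0 x.1 x.2) := rfl
    rw [this, PhiE_smul]
    rfl

theorem nx_evE_apply (n : ℕ) (c : Fin 1 → Fs N) :
    (evE n c : Fs ℂ × Fs ℂ) = (∑ x ∈ Finset.HasAntidiagonal.antidiagonal n,
    PhiE (c 0 x.1 x.2) (mon x.1 x.2, 0) : Fs ℂ × Fs ℂ) := rfl

theorem evE_fst (n : ℕ) (c : Fin 1 → Fs N) : (evE n c : Fs ℂ × Fs ℂ).1 = evG Psi n (sc c 0) := by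
  rw [nx_evE_apply, evG_apply, Prod.fst_sum]
  rfl

theorem evE_snd (n : ℕ) (c : Fin 1 → Fs N) : (evE n c : Fs ℂ × Fs ℂ).2 = evG PsiQ n (qc c 0) := by
  rw [nx_evE_apply, evG_apply, Prod.snd_sum]
  refine Finset.sum_congr rfl fun x _ => ?_
  rw [PhiE_apply, map_zero, zero_add]
  rfl

/-- `evE ∘ ce1 = 0` (`evG_Top`) -/
theorem evE_ce1 (n : ℕ) (c : Fin 4 → Fs N) : evE n (ce1 TN c) = 0 := by
  have h1 : ∀ (i j : Fin 2) (y : S) (v : Fs ℂ), Psi (Rop i j y) v = Psi y (rho ℂ ℂ i j v) := by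
    intro i j y v
    rw [Psi_Rop]; rfl
  have h2 : ∀ (i j : Fin 2) (y : Qb) (v : Fs ℂ), PsiQ (RQ i j y) v = PsiQ y (rho ℂ ℂ i j v) := by
    intro i j y v
    rw [PsiQ_RQ]; rfl
  refine Prod.ext ?_ ?_
  · show (evE n (ce1 TN c) : Fs ℂ × Fs ℂ).1 = 0
    rw [evE_fst, sc_ce1]
    simp only [ce1, KData.cel1_apply, Matrix.cons_val, map_add, evG_Top Psi n Rop h1, add_zero]
  · show (evE n (ce1 TN c) : Fs ℂ × Fs ℂ).2 = 0
    rw [evE_snd, qc_ce1]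
    simp only [ce1, KData.cel1_apply, Matrix.cons_val, map_add, evG_Top PsiQ n RQ h2, add_zero]

theorem nx_mon_mem {i k n : ℕ} (h : i + k = n) : mon i k ∈ Vh (n + 1) := by
  intro a b hab
  unfold mon
  rw [if_neg]
  rintro ⟨rfl, rfl⟩
  omega

theorem evE_mem (n : ℕ) (m : ℤ) (c : Fin 1 → Fs N) (hc : ∀ a, c a ∈ FsF (n + 1) Nf m) (p : ℤ) :
    evE n c ∈ EF n p := by
  constructor
  · show (evE n c : Fs ℂ × Fs ℂ).1 ∈ Vh (n + 1)
    rw [evE_fst, evG_apply]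
    refine Submodule.sum_mem _ fun x hx => Psi_mem_Vh _ _ _ (nx_mon_mem ?_)
    exact Finset.HasAntidiagonal.mem_antidiagonal.1 hx
  · show (evE n c : Fs ℂ × Fs ℂ).2 ∈ Vh n
    rw [evE_snd, evG_apply]
    refine Submodule.sum_mem _ fun x hx => PsiQ_mem_Vh _ _ _ (nx_mon_mem ?_)
    exact Finset.HasAntidiagonal.mem_antidiagonal.1 hx

theorem nx_eP_mem (l : Fin 2) : eP l ∈ P2f 0 := by
  rw [mem_P2f]
  intro l'
  unfold eP
  by_cases h : l' = l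
  · subst h
    rw [Pi.single_eq_same]
    exact one_mem_Sf
  · rw [Pi.single_eq_of_ne h]
    exact Submodule.zero_mem _

theorem nx_P2f_mono {m m' : ℤ} (h : m ≤ m') : P2f m ≤ P2f m' := by
  intro y hy
  rw [mem_P2f] at hy ⊢
  exact fun l => Sf_mono h (hy l)

theorem nx_bQ_mem (l : Fin 2) : bQ l ∈ Qf 0 :=
  Submodule.mem_map_of_mem (nx_P2f_mono (by norm_num) (nx_eP_mem l))

theorem nx_PsiQ_bQ (l : Fin 2) (v : Fs ℂ) : PsiQ (bQ l) v = dfun l v := by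
  unfold bQ
  rw [PsiQ_qm, PsiP_apply]
  fin_cases l
  · simp [eP, Psi_one, dop_apply]
  · simp [eP, Psi_one, dop_apply]

/-- surjectivity: `(v, v') = evE (1 ⊗ v + (n+1)⁻¹ (b_0 ⊗ x_0 v' + b_1 ⊗ x_1 v'))` (`div_x`) -/
theorem evE_surj (n : ℕ) (v v' : Fs ℂ) (hv : v ∈ Vh (n + 1)) (hv' : v' ∈ Vh n) :
    ∃ c : Fin 1 → Fs N, (∀ a, c a ∈ FsF (n + 1) Nf 0) ∧ evE n c = ((v, v') : Fs ℂ × Fs ℂ) := by
  have hx : ∀ l, xfun l v' ∈ Vh (n + 1) := fun l => xfun_mem_Vh l n v' hv'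
  refine ⟨pc (fun _ => pt 1 v)
    (fun _ => ((n : ℂ) + 1)⁻¹ • (pt (bQ 0) (xfun 0 v') + pt (bQ 1) (xfun 1 v'))),
    nx_pc_mem (fun _ i k => ⟨Submodule.smul_mem _ _ one_mem_Sf, fun h => ?_⟩) (fun _ => ?_),
    Prod.ext ?_ ?_⟩
  · simp only [pt]
    rw [hv i k h, zero_smul]
  · refine Submodule.smul_mem _ _ (Submodule.add_mem _ ?_ ?_)
    · exact fun i k => ⟨Submodule.smul_mem _ _ (nx_bQ_mem 0), fun h => by
        simp only [pt]; rw [hx 0 i k h, zero_smul]⟩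
    · exact fun i k => ⟨Submodule.smul_mem _ _ (nx_bQ_mem 1), fun h => by
        simp only [pt]; rw [hx 1 i k h, zero_smul]⟩
  · show (evE n _ : Fs ℂ × Fs ℂ).1 = v
    rw [evE_fst, nx_sc_pc, evG_pt Psi n 1 v hv, Psi_one]
    rfl
  · show (evE n _ : Fs ℂ × Fs ℂ).2 = v'
    rw [evE_snd, nx_qc_pc, map_smul, map_add, evG_pt PsiQ n _ _ (hx 0), evG_pt PsiQ n _ _ (hx 1),
      nx_PsiQ_bQ, nx_PsiQ_bQ, div_x n v' hv', smul_smul, inv_mul_cancel₀, one_smul]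
    exact_mod_cast Nat.succ_ne_zero n

theorem NEx0 (n : ℕ) (m : ℤ) (hm : 0 ≤ m) (c : Fin 1 → Fs N)
    (hc : ∀ a, c a ∈ FsF (n + 1) Nf m) (h : evE n c = 0) :
    ∃ w : Fin 4 → Fs N, (∀ a, w a ∈ FsF (n + 1) Nf (m - 1)) ∧ ce1 TN w = c := by
  obtain ⟨s, hs, hs2⟩ := HS0 n m (sc c) (nx_sc_mem hc) (by
    rw [← evE_fst, h]; rfl)
  obtain ⟨q, hq, hq2⟩ := HQ0 n m hm (qc c) (nx_qc_mem hc) (by
    rw [← evE_snd, h]; rfl)
  refine ⟨pc s q, nx_pc_mem hs hq, nx_ext ?_ ?_⟩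
  · rw [sc_ce1, nx_sc_pc, hs2]
  · rw [qc_ce1, nx_qc_pc, hq2]

/-- (the `S`-component of `c` is a boundary by `KData.ex1`, the `Q`-component by `HQ1`) -/
theorem NEx1 (n : ℕ) (m : ℤ) (c : Fin 4 → Fs N) (hc : ∀ a, c a ∈ FsF (n + 1) Nf m)
    (h : ce1 TN c = 0) :
    ∃ q ∈ Vh n, ∃ w : Fin 6 → Fs N, (∀ a, w a ∈ FsF (n + 1) Nf (m - 1)) ∧
      c = zN q + ce2 TN w := by
  have h1 : ce1 (Top Rop) (sc c) = 0 := by rw [← sc_ce1, h]; rfl
  have h2 : ce1 (Top RQ) (qc c) = 0 := by rw [← qc_ce1, h]; rfl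
  obtain ⟨s, hs, hs2⟩ := (KS n).ex1 m (sc c) (nx_sc_mem hc) h1
  obtain ⟨q, hq, w, hw, hw2⟩ := HQ1 n m (qc c) (nx_qc_mem hc) h2
  refine ⟨q, hq, pc s w, nx_pc_mem hs hw, nx_ext ?_ ?_⟩
  · show sc c = sc (zN q) + sc (ce2 TN (pc s w))
    rw [sc_ce2, nx_sc_pc, zN_apply, nx_sc_pc, zero_add]
    exact hs2.symm
  · show qc c = qc (zN q) + qc (ce2 TN (pc s w))
    rw [qc_ce2, nx_qc_pc, zN_apply, nx_qc_pc]
    exact hw2

theorem NEx1_inj (n : ℕ) (m : ℤ) (q : Fs ℂ) (hq : q ∈ Vh n) (w : Fin 6 → Fs N)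
    (hw : ∀ a, w a ∈ FsF (n + 1) Nf m) (h : zN q = ce2 TN w) : q = 0 := by
  refine HQ1_inj n m q hq (qc w) (nx_qc_mem hw) ?_
  rw [← qc_ce2, ← h]
  rfl

theorem NEx2 (n : ℕ) (m : ℤ) (c : Fin 6 → Fs N) (hc : ∀ a, c a ∈ FsF (n + 1) Nf m)
    (h : ce2 TN c = 0) :
    ∃ w : Fin 4 → Fs N, (∀ a, w a ∈ FsF (n + 1) Nf (m - 1)) ∧ ce3 TN w = c := by
  have h1 : ce2 (Top Rop) (sc c) = 0 := by rw [← sc_ce2, h]; rfl
  have h2 : ce2 (Top RQ) (qc c) = 0 := by rw [← qc_ce2, h]; rfl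
  obtain ⟨s, hs, hs2⟩ := (KS n).ex2 m (sc c) (nx_sc_mem hc) h1
  obtain ⟨q, hq, hq2⟩ := HQ2 n m (qc c) (nx_qc_mem hc) h2
  refine ⟨pc s q, nx_pc_mem hs hq, nx_ext ?_ ?_⟩
  · rw [sc_ce3, nx_sc_pc]
    exact hs2
  · rw [qc_ce3, nx_qc_pc]
    exact hq2

theorem NEx3 (n : ℕ) (m : ℤ) (c : Fin 4 → Fs N) (hc : ∀ a, c a ∈ FsF (n + 1) Nf m)
    (h : ce3 TN c = 0) :
    ∃ w : Fin 1 → Fs N, (∀ a, w a ∈ FsF (n + 1) Nf (m - 1)) ∧ ce4 TN w = c := by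
  have h1 : ce3 (Top Rop) (sc c) = 0 := by rw [← sc_ce3, h]; rfl
  have h2 : ce3 (Top RQ) (qc c) = 0 := by rw [← qc_ce3, h]; rfl
  obtain ⟨s, hs, hs2⟩ := (KS n).ex3 m (sc c) (nx_sc_mem hc) h1
  obtain ⟨q, hq, hq2⟩ := HQ3 n m (qc c) (nx_qc_mem hc) h2
  refine ⟨pc s q, nx_pc_mem hs hq, nx_ext ?_ ?_⟩
  · rw [sc_ce4, nx_sc_pc]
    exact hs2
  · rw [qc_ce4, nx_qc_pc]
    exact hq2

theorem NEx4 (n : ℕ) (m : ℤ) (c : Fin 1 → Fs N) (hc : ∀ a, c a ∈ FsF (n + 1) Nf m)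
    (h : ce4 TN c = 0) : c = 0 := by
  have h1 : ce4 (Top Rop) (sc c) = 0 := by rw [← sc_ce4, h]; rfl
  have h2 : ce4 (Top RQ) (qc c) = 0 := by rw [← qc_ce4, h]; rfl
  have h3 := (KS n).ex4 m (sc c) (nx_sc_mem hc) h1
  have h4 := HQ4 n m (qc c) (nx_qc_mem hc) h2
  exact nx_ext (by rw [h3]; rfl) (by rw [h4]; rfl)

theorem nx_rho_mem {Y : Type} [AddCommGroup Y] [Module ℂ Y] {F : ℤ → Submodule ℂ Y} {n : ℕ} {m : ℤ}
    (i j : Fin 2) {y : Fs Y} (hy : y ∈ FsF (n + 1) F m) :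
    xfun i (dfun j y) ∈ FsF (n + 1) F m := by
  intro a b
  simp only [xfun, dfun]
  split_ifs <;> first
    | exact ⟨zero_mem _, fun _ => rfl⟩
    | exact ⟨nsmul_mem (hy _ _).1 _, fun h => by rw [(hy _ _).2 (by omega), smul_zero]⟩

theorem FsF_mono_N (n : ℕ) {m m' : ℤ} (h : m ≤ m') : FsF (n + 1) Nf m ≤ FsF (n + 1) Nf m' := by
  intro y hy i k
  exact ⟨Nf_mono h (hy i k).1, (hy i k).2⟩

/-- the differentials raise the filtration by at most one -/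
theorem TN_mem (n : ℕ) (m : ℤ) (a : Fin 4) (y : Fs N) (hy : y ∈ FsF (n + 1) Nf m) :
    TN a y ∈ FsF (n + 1) Nf (m + 1) := by
  have key : ∀ i j, (pw (RNT i j) - rho TT N i j) y ∈ FsF (n + 1) Nf (m + 1) := by
    intro i j
    have h1 : pw (RNT i j) y ∈ FsF (n + 1) Nf (m + 1) := fun a b =>
      ⟨tr_RN_Nf i j (hy a b).1, fun h => by
        rw [pw_apply, (hy a b).2 h, map_zero]⟩
    have h2 : rho TT N i j y ∈ FsF (n + 1) Nf (m + 1) :=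
      FsF_mono_N n (by omega) (nx_rho_mem i j hy)
    exact sub_mem h1 h2
  fin_cases a
  · exact key 0 0
  · exact key 0 1
  · exact key 1 0
  · exact key 1 1

section
variable {R Y : Type} [Ring R] [AddCommGroup Y] [Module R Y] [Module ℂ Y] {M M' : Submodule ℂ Y}
  {A : Fin 4 → Module.End R Y}

theorem nx_ce1_mem (hA : ∀ a y, y ∈ M → A a y ∈ M') (y : Fin 4 → Y) (hy : ∀ a, y a ∈ M)
    (i : Fin 1) : ce1 A y i ∈ M' := by
  have h : ∀ a b, A a (y b) ∈ M' := fun a b => hA a _ (hy b)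
  fin_cases i
  simp only [ce1, KData.cel1_apply, Matrix.cons_val, Fin.zero_eta]
  exact add_mem (add_mem (add_mem (h _ _) (h _ _)) (h _ _)) (h _ _)

theorem nx_ce2_mem (hMM : M ≤ M') (hA : ∀ a y, y ∈ M → A a y ∈ M') (y : Fin 6 → Y)
    (hy : ∀ a, y a ∈ M) (i : Fin 4) : ce2 A y i ∈ M' := by
  have h : ∀ a b, A a (y b) ∈ M' := fun a b => hA a _ (hy b)
  have h' : ∀ b, y b ∈ M' := fun b => hMM (hy b)
  have h1 : cel2 A y i ∈ M' := by
    fin_cases i <;>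
    simp only [KData.cel2_apply, Matrix.cons_val, Fin.zero_eta, Fin.mk_one, Fin.reduceFinMk]
    · exact sub_mem (sub_mem (neg_mem (h _ _)) (h _ _)) (h _ _)
    · exact sub_mem (sub_mem (h _ _) (h _ _)) (h _ _)
    · exact sub_mem (add_mem (h _ _) (h _ _)) (h _ _)
    · exact add_mem (add_mem (h _ _) (h _ _)) (h _ _)
  have h2 : (cec2 : (Fin 6 → Y) →ₗ[R] (Fin 4 → Y)) y i ∈ M' := by
    fin_cases i <;>
    simp only [KData.cec2_apply, Matrix.cons_val, Fin.zero_eta, Fin.mk_one, Fin.reduceFinMk]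
    · exact neg_mem (h' _)
    · exact sub_mem (neg_mem (h' _)) (h' _)
    · exact add_mem (h' _) (h' _)
    · exact h' _
  exact add_mem h1 h2

theorem nx_ce3_mem (hMM : M ≤ M') (hA : ∀ a y, y ∈ M → A a y ∈ M') (y : Fin 4 → Y)
    (hy : ∀ a, y a ∈ M) (i : Fin 6) : ce3 A y i ∈ M' := by
  have h : ∀ a b, A a (y b) ∈ M' := fun a b => hA a _ (hy b)
  have h' : ∀ b, y b ∈ M' := fun b => hMM (hy b)
  have h1 : cel3 A y i ∈ M' := by
    fin_cases i <;>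
    simp only [KData.cel3_apply, Matrix.cons_val, Fin.zero_eta, Fin.mk_one, Fin.reduceFinMk]
    · exact add_mem (h _ _) (h _ _)
    · exact add_mem (neg_mem (h _ _)) (h _ _)
    · exact sub_mem (neg_mem (h _ _)) (h _ _)
    · exact add_mem (h _ _) (h _ _)
    · exact sub_mem (h _ _) (h _ _)
    · exact add_mem (h _ _) (h _ _)
  have h2 : (cec3 : (Fin 4 → Y) →ₗ[R] (Fin 6 → Y)) y i ∈ M' := by
    fin_cases i <;>
    simp only [KData.cec3_apply, Matrix.cons_val, Fin.zero_eta, Fin.mk_one, Fin.reduceFinMk]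
    · exact h' _
    · exact neg_mem (h' _)
    · exact sub_mem (neg_mem (h' _)) (h' _)
    · exact zero_mem _
    · exact neg_mem (h' _)
    · exact h' _
  exact add_mem h1 h2

theorem nx_ce4_mem (hA : ∀ a y, y ∈ M → A a y ∈ M') (y : Fin 1 → Y) (hy : ∀ a, y a ∈ M)
    (i : Fin 4) : ce4 A y i ∈ M' := by
  have h : ∀ a b, A a (y b) ∈ M' := fun a b => hA a _ (hy b)
  fin_cases i <;>
  simp only [KData.ce4_apply, Matrix.cons_val, Fin.zero_eta, Fin.mk_one, Fin.reduceFinMk]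
  · exact neg_mem (h _ _)
  · exact h _ _
  · exact neg_mem (h _ _)
  · exact h _ _

end

theorem ce1_memN (n : ℕ) (m : ℤ) (c : Fin 4 → Fs N) (hc : ∀ a, c a ∈ FsF (n + 1) Nf m) :
    ∀ a, ce1 TN c a ∈ FsF (n + 1) Nf (m + 1) :=
  nx_ce1_mem (TN_mem n m) c hc

theorem ce2_memN (n : ℕ) (m : ℤ) (c : Fin 6 → Fs N) (hc : ∀ a, c a ∈ FsF (n + 1) Nf m) :
    ∀ a, ce2 TN c a ∈ FsF (n + 1) Nf (m + 1) :=
  nx_ce2_mem (FsF_mono_N n (by omega)) (TN_mem n m) c hc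

theorem ce3_memN (n : ℕ) (m : ℤ) (c : Fin 4 → Fs N) (hc : ∀ a, c a ∈ FsF (n + 1) Nf m) :
    ∀ a, ce3 TN c a ∈ FsF (n + 1) Nf (m + 1) :=
  nx_ce3_mem (FsF_mono_N n (by omega)) (TN_mem n m) c hc

theorem ce4_memN (n : ℕ) (m : ℤ) (c : Fin 1 → Fs N) (hc : ∀ a, c a ∈ FsF (n + 1) Nf m) :
    ∀ a, ce4 TN c a ∈ FsF (n + 1) Nf (m + 1) :=
  nx_ce4_mem (TN_mem n m) c hc

end

end Crest.Agent.FD
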