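import Crest.Agent.FD.Defs3

/-!
# Row 178 (S0268), chunk PROJ: projectivity and finiteness

`P_j = {x : Fin 5 → N | x_i ∈ N_(i-j)}` is a direct summand of `A` (column `j`):
`a ↦ (a_ij • 1)_i` is split by `x ↦` (the matrix with column `j` equal to `(toTT x_i)_i`).
`CW m r j` is a direct summand of a finite free module.
-/

set_option autoImplicit false

namespace Crest.Agent.FD

open MvPolynomial

noncomputable section

/-- the inverse of `t ↦ t • oneN` (`TT_exists`, `TT_ext`) -/
def toTT : N →ₗ[TT] TT where
  toFun n := Classical.choose (TT_exists n)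
  map_add' := by
    intro x y
    apply TT_ext
    rw [add_smul, Classical.choose_spec (TT_exists (x + y)), Classical.choose_spec (TT_exists x),
      Classical.choose_spec (TT_exists y)]
  map_smul' := by
    intro t x
    apply TT_ext
    rw [Classical.choose_spec (TT_exists (t • x)), RingHom.id_apply, smul_eq_mul, mul_smul,
      Classical.choose_spec (TT_exists x)]

theorem toTT_smul_one (n : N) : toTT n • oneN = n :=
  Classical.choose_spec (TT_exists n)

theorem toTT_smul (t : TT) : toTT (t • oneN) = t := by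
  apply TT_ext
  rw [toTT_smul_one]

/-- the projection from the finite free module -/
def pjA (m r : ℕ) (j : ℤ) (j0 : Fin 5) (hj : vz j0 = j) :
    (Fin r × Fin m → AA) →ₗ[AA] CW m r j where
  toFun A := ⟨fun i a p q =>
      if h : p + q + 1 = m then (A (a, ⟨p, by omega⟩)).mat i j0 • oneN else 0, by
    intro i a p q
    subst hj
    refine ⟨?_, fun h => ?_⟩
    · show (if h : p + q + 1 = m then (A (a, ⟨p, by omega⟩)).mat i j0 • oneN else 0) ∈
        Nf (vz i - vz j0)
      split_ifs with h
      · exact mem_Tf.1 (AA_mem _ i j0)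
      · exact Submodule.zero_mem _
    · show (if h : p + q + 1 = m then (A (a, ⟨p, by omega⟩)).mat i j0 • oneN else 0) = 0
      rw [dif_neg h]⟩
  map_add' A B := by
    apply Subtype.ext
    funext i a p q
    show (if h : p + q + 1 = m then ((A + B) (a, ⟨p, by omega⟩)).mat i j0 • oneN else 0) =
      (if h : p + q + 1 = m then (A (a, ⟨p, by omega⟩)).mat i j0 • oneN else 0) +
      (if h : p + q + 1 = m then (B (a, ⟨p, by omega⟩)).mat i j0 • oneN else 0)
    split_ifs with h
    · rw [Pi.add_apply, AA.mat_add, Matrix.add_apply, add_smul]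
    · rw [add_zero]
  map_smul' c A := by
    apply Subtype.ext
    funext i
    rw [RingHom.id_apply, Submodule.coe_smul, AA_smul_apply]
    funext a p q
    simp only [Finset.sum_apply, Pi.smul_apply]
    by_cases h : p + q + 1 = m
    · simp only [dif_pos h, smul_eq_mul, AA.mat_mul, Matrix.mul_apply, Finset.sum_smul, mul_smul]
    · simp only [dif_neg h, smul_zero, Finset.sum_const_zero]

/-- the section -/
def pjB (m r : ℕ) (j : ℤ) (j0 : Fin 5) (hj : vz j0 = j) :
    CW m r j →ₗ[AA] (Fin r × Fin m → AA) where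
  toFun x := fun b => AA.mk
    (Matrix.of fun i k => if k = j0 then toTT (x.1 i b.1 b.2.1 (m - 1 - b.2.1)) else 0) (by
      intro i k
      rw [Matrix.of_apply]
      subst hj
      split_ifs with h
      · subst h
        rw [mem_Tf, toTT_smul_one]
        exact (x.2 i b.1 b.2.1 (m - 1 - b.2.1)).1
      · exact Submodule.zero_mem _)
  map_add' x y := by
    funext b
    apply AA.ext'
    rw [Pi.add_apply, AA.mat_add, AA.mk_mat, AA.mk_mat, AA.mk_mat]
    ext i k
    rw [Matrix.add_apply, Matrix.of_apply, Matrix.of_apply, Matrix.of_apply]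
    split_ifs with h
    · rw [← map_add]; rfl
    · rw [add_zero]
  map_smul' c x := by
    funext b
    apply AA.ext'
    rw [RingHom.id_apply, Pi.smul_apply, smul_eq_mul, AA.mat_mul, AA.mk_mat, AA.mk_mat]
    ext i k
    rw [Matrix.mul_apply, Matrix.of_apply]
    simp only [Matrix.of_apply]
    split_ifs with h
    · rw [Submodule.coe_smul, AA_smul_apply]
      simp only [Finset.sum_apply, Pi.smul_apply, map_sum, map_smul, smul_eq_mul]
    · simp only [mul_zero, Finset.sum_const_zero]

theorem pjAB (m r : ℕ) (j : ℤ) (j0 : Fin 5) (hj : vz j0 = j) (x : CW m r j) :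
    pjA m r j j0 hj (pjB m r j j0 hj x) = x := by
  apply Subtype.ext
  funext i a p q
  show (if h : p + q + 1 = m then (pjB m r j j0 hj x (a, ⟨p, by omega⟩)).mat i j0 • oneN else 0) =
    x.1 i a p q
  split_ifs with h
  · show (if j0 = j0 then toTT (x.1 i a p (m - 1 - p)) else 0) • oneN = _
    rw [if_pos rfl, toTT_smul_one, show m - 1 - p = q by omega]
  · exact ((x.2 i a p q).2 h).symm

theorem pj_exists {j : ℤ} (h0 : 0 ≤ j) (h4 : j ≤ 4) : ∃ j0 : Fin 5, vz j0 = j := by
  refine ⟨⟨j.toNat, by omega⟩, ?_⟩
  show ((j.toNat : ℕ) : ℤ) = j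
  omega

theorem CW_projective (m r : ℕ) (j : ℤ) (h0 : 0 ≤ j) (h4 : j ≤ 4) :
    Module.Projective AA (CW m r j) := by
  obtain ⟨j0, hj⟩ := pj_exists h0 h4
  exact Module.Projective.of_split (pjB m r j j0 hj) (pjA m r j j0 hj)
    (LinearMap.ext fun x => pjAB m r j j0 hj x)

theorem CW_finite (m r : ℕ) (j : ℤ) (h0 : 0 ≤ j) (h4 : j ≤ 4) :
    Module.Finite AA (CW m r j) := by
  obtain ⟨j0, hj⟩ := pj_exists h0 h4
  exact Module.Finite.of_surjective (pjA m r j j0 hj) fun x => ⟨_, pjAB m r j j0 hj x⟩

/-- `A` embeds linearly into the product of the `N_(i-j)` (`Nf_finite`) -/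
theorem AA_finiteDimensional : FiniteDimensional ℂ AA := by
  let f : AA →ₗ[ℂ] (∀ p : Fin 5 × Fin 5, Nf (vz p.1 - vz p.2)) :=
    { toFun := fun a p => ⟨a.mat p.1 p.2 • oneN, mem_Tf.1 (AA_mem a p.1 p.2)⟩
      map_add' := by
        intro a b
        funext p
        apply Subtype.ext
        show (a + b).mat p.1 p.2 • oneN = a.mat p.1 p.2 • oneN + b.mat p.1 p.2 • oneN
        rw [AA.mat_add, Matrix.add_apply, add_smul]
      map_smul' := by
        intro c a
        funext p
        apply Subtype.ext
        show (c • a).mat p.1 p.2 • oneN = c • (a.mat p.1 p.2 • oneN)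
        rw [AA.mat_smul, Matrix.smul_apply, smul_assoc] }
  have hf : Function.Injective f := by
    intro a b h
    apply AA.ext'
    ext i k
    apply TT_ext
    have := congrArg Subtype.val (congrFun h (i, k))
    exact this
  have : ∀ p : Fin 5 × Fin 5, Module.Finite ℂ (Nf (vz p.1 - vz p.2)) := fun p => Nf_finite _
  exact Module.Finite.of_injective f hf

end

end Crest.Agent.FD
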