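import Crest.Agent.FD.Cplx
import Crest.Agent.FD.Proj

/-!
# Row 178 (S0268), chunk NS: `d4 : C_4 → C_3` has no retraction for `n = 0`

Let `u ∈ C_4` be concentrated at vertex `4`, equal to `oneN` in degree `(0,0)`.  Since
`rho_a` kills constants, `d4 u` is, at vertex `4`, `(- X_11, X_10, - X_01, X_00)` (as elements
`(X_a, 0)` of `N`), zero elsewhere.  So `d4 u = ∑_ω a_ω • ε_ω`, where `ε_ω ∈ C_3` is concentrated at
vertex `3`, component `ω`, with value `oneN` in degree `(0,0)`, and `a_ω ∈ A` has the only entry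
`± LN i j` (as an element of `T`) at position `(4,3)`.  If `r ∘ d4 = id` then
`u = ∑ a_ω • r(ε_ω)`; at vertex `4`: `oneN = ∑ ± LN i j • (r ε_ω)_3`, and
`(r ε_ω)_3 ∈ FsF 1 Nf (3 - 4)`, so its `S`-component lies in `Sf (-1) = ⊥`.  So the `S`-component of
the right hand side is `0`, but `1 ≠ 0`.
-/

set_option autoImplicit false

namespace Crest.Agent.FD

open MvPolynomial

theorem ns_oneN_mem : oneN ∈ Nf 0 := ⟨one_mem_Sf, Submodule.zero_mem _⟩

/-- `ε_ω` -/
noncomputable def nsEps (ω : Fin 4) : CW (0 + 1) 4 3 :=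
  ⟨fun i ω' a b => if i = 3 ∧ ω' = ω ∧ a = 0 ∧ b = 0 then oneN else 0, by
    intro i ω' a b
    show (if i = 3 ∧ ω' = ω ∧ a = 0 ∧ b = 0 then oneN else 0) ∈ Nf (vz i - 3) ∧
      (a + b + 1 ≠ 0 + 1 → (if i = 3 ∧ ω' = ω ∧ a = 0 ∧ b = 0 then oneN else 0) = 0)
    by_cases h : i = 3 ∧ ω' = ω ∧ a = 0 ∧ b = 0
    · rw [if_pos h]
      obtain ⟨rfl, rfl, rfl, rfl⟩ := h
      exact ⟨ns_oneN_mem, fun h => absurd rfl h⟩
    · rw [if_neg h]
      exact ⟨Submodule.zero_mem _, fun _ => rfl⟩⟩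

theorem nsEps_apply (ω : Fin 4) (i : Fin 5) (ω' : Fin 4) (a b : ℕ) :
    (nsEps ω).1 i ω' a b = if i = 3 ∧ ω' = ω ∧ a = 0 ∧ b = 0 then oneN else 0 := rfl

/-- `u` -/
noncomputable def nsU : CW (0 + 1) 1 4 :=
  ⟨fun i _ a b => if i = 4 ∧ a = 0 ∧ b = 0 then oneN else 0, by
    intro i ω' a b
    show (if i = 4 ∧ a = 0 ∧ b = 0 then oneN else 0) ∈ Nf (vz i - 4) ∧
      (a + b + 1 ≠ 0 + 1 → (if i = 4 ∧ a = 0 ∧ b = 0 then oneN else 0) = 0)
    by_cases h : i = 4 ∧ a = 0 ∧ b = 0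
    · rw [if_pos h]
      obtain ⟨rfl, rfl, rfl⟩ := h
      exact ⟨ns_oneN_mem, fun h => absurd rfl h⟩
    · rw [if_neg h]
      exact ⟨Submodule.zero_mem _, fun _ => rfl⟩⟩

theorem nsU_apply (i : Fin 5) (ω : Fin 1) (a b : ℕ) :
    nsU.1 i ω a b = if i = 4 ∧ a = 0 ∧ b = 0 then oneN else 0 := rfl

/-- `a_ω` -/
noncomputable def nsA (t : TT) (ht : t ∈ Tf 1) : AA :=
  AA.mk (fun i j => if i = 4 ∧ j = 3 then t else 0) (by
    intro i j
    show (if i = 4 ∧ j = 3 then t else 0) ∈ Tf (vz i - vz j)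
    by_cases h : i = 4 ∧ j = 3
    · rw [if_pos h]
      obtain ⟨rfl, rfl⟩ := h
      exact ht
    · rw [if_neg h]
      exact Submodule.zero_mem _)

theorem nsA_mat (t : TT) (ht : t ∈ Tf 1) (i j : Fin 5) :
    (nsA t ht).mat i j = if i = 4 ∧ j = 3 then t else 0 := rfl

theorem ns_A_smul {Y : Type} [AddCommGroup Y] [Module ℂ Y] [Module TT Y] (t : TT) (ht : t ∈ Tf 1)
    (x : Fin 5 → Y) (i : Fin 5) :
    (nsA t ht • x) i = if i = 4 then t • x 3 else 0 := by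
  rw [AA_smul_apply]
  simp only [nsA_mat]
  by_cases h : i = 4
  · subst h
    rw [Finset.sum_eq_single (3 : Fin 5)]
    · simp
    · intro j _ hj
      simp [hj]
    · simp
  · simp [h]

theorem ns_neg {m : ℤ} (hm : m < 0) {n : N} (hn : n ∈ Nf m) : n.1 = 0 := by
  have h := (mem_Nf.1 hn).1
  by_contra h0
  obtain ⟨α, hα⟩ := MvPolynomial.ne_zero_iff.1 h0
  have h' : n.1 ∈ restrictSupport ℂ {α : I4 →₀ ℕ | ((α.degree : ℕ) : ℤ) ≤ m} := h
  rw [MvPolynomial.mem_restrictSupport_iff] at h'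
  have := h' (MvPolynomial.mem_support_iff.2 hα)
  have h2 : ((α.degree : ℕ) : ℤ) ≤ m := this
  omega

theorem ns_smul_fst (t : TT) {n : N} (hn : n.1 = 0) : (t • n).1 = 0 := by
  obtain ⟨s, q⟩ := n
  simp only at hn
  subst hn
  exact TT_smul_snd t q

set_option synthInstance.maxHeartbeats 400000 in
theorem nonsplit : ¬ ∃ r : CW (0 + 1) 4 3 →ₗ[AA] CW (0 + 1) 1 4, r ∘ₗ d4W 0 = LinearMap.id := by
  rintro ⟨r, hr⟩
  have h := LinearMap.congr_fun hr nsU
  have h1 : r (d4W 0 nsU) = nsU := h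
  set c := d4W 0 nsU with hc
  have hc0 : ∀ i, i ≠ 4 → c.1 i = 0 := by
    intro i hi
    have : c.1 i = ce4 TN (nsU.1 i) := rfl
    rw [this]
    have : nsU.1 i = 0 := by
      funext ω a b
      simp [nsU_apply, hi]
    rw [this, map_zero]
  have hmem : ∀ ω a b, c.1 4 ω a b ∈ Nf (4 - 3) ∧ (a + b + 1 ≠ 0 + 1 → c.1 4 ω a b = 0) :=
    fun ω a b => c.2 4 ω a b
  choose t ht using fun ω => TT_exists (c.1 4 ω 0 0)
  have htm : ∀ ω, t ω ∈ Tf 1 := by
    intro ω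
    rw [mem_Tf, ht]
    exact (hmem ω 0 0).1
  have hsum : c = ∑ ω, nsA (t ω) (htm ω) • nsEps ω := by
    apply Subtype.ext
    rw [Submodule.coe_sum]
    funext i
    rw [Finset.sum_apply]
    have e : ∀ ω : Fin 4, ((nsA (t ω) (htm ω) • nsEps ω : CW (0 + 1) 4 3).1) i =
        if i = 4 then t ω • (nsEps ω).1 3 else 0 := fun ω => ns_A_smul _ _ _ _
    rw [Finset.sum_congr rfl fun ω _ => e ω]
    by_cases hi : i = 4
    · subst hi
      simp only [if_true]
      funext ω' a b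
      simp only [Finset.sum_apply, Pi.smul_apply, nsEps_apply]
      by_cases hab : a = 0 ∧ b = 0
      · obtain ⟨rfl, rfl⟩ := hab
        rw [Finset.sum_eq_single ω']
        · simp [ht]
        · intro ω _ hω
          simp [hω.symm]
        · simp
      · rw [(hmem ω' a b).2 (by omega)]
        symm
        apply Finset.sum_eq_zero
        intro ω _
        rw [if_neg (fun h => hab h.2.2), smul_zero]
    · simp [hi, hc0 i hi]
  rw [hsum, map_sum] at h1
  have h2 := congrArg (fun x : CW (0 + 1) 1 4 => x.1 4 0 0 0) h1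
  have e2 : ∀ ω : Fin 4, (((r (nsA (t ω) (htm ω) • nsEps ω)) : CW (0 + 1) 1 4).1) 4 =
        t ω • (r (nsEps ω)).1 3 := by
    intro ω
    rw [map_smul]
    exact (ns_A_smul _ _ _ _).trans (if_pos rfl)
  simp only [Submodule.coe_sum, Finset.sum_apply, e2, Pi.smul_apply] at h2
  have h3 := congrArg (fun x : N => x.1) h2
  simp only [Prod.fst_sum] at h3
  rw [Finset.sum_eq_zero] at h3
  · simp [nsU_apply, oneN] at h3
  · intro ω _
    apply ns_smul_fst
    refine ns_neg (m := 3 - 4) (by norm_num) ?_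
    exact ((r (nsEps ω)).2 3 0 0 0).1

end Crest.Agent.FD
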