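import Crest.Agent.FD.Defs1

set_option autoImplicit false

namespace Crest.Agent.FD

open MvPolynomial

theorem pderiv_comm' (a b : I4) (p : S) : pderiv a (pderiv b p) = pderiv b (pderiv a p) := by
  have h : (⁅(pderiv a : Derivation ℂ S S), (pderiv b : Derivation ℂ S S)⁆ : Derivation ℂ S S) = 0 := by
    apply MvPolynomial.derivation_ext
    intro i
    rw [Derivation.commutator_apply]
    simp only [pderiv_X, Derivation.coe_zero, Pi.zero_apply]
    by_cases h1 : i = b <;> by_cases h2 : i = a <;> by_cases h3 : a = b <;>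
      simp_all [Pi.single_apply]
  have := congrArg (fun D : Derivation ℂ S S => D p) h
  simp only [Derivation.commutator_apply, Derivation.coe_zero, Pi.zero_apply] at this
  exact sub_eq_zero.mp this

theorem dX_comm (a b : I4) (p : S) : dX a (dX b p) = dX b (dX a p) := pderiv_comm' a b p

theorem dX_mX (a b : I4) (p : S) : dX a (mX b p) = mX b (dX a p) + (if a = b then p else 0) := by
  simp only [dX_apply, mX_apply, pderiv_mul, pderiv_X]
  by_cases h : a = b
  · subst h; simp [add_comm]
  · simp [Pi.single_apply, h, Ne.symm h, eq_comm]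

theorem dX_Rop (k l i j : Fin 2) (p : S) :
    dX (k, l) (Rop i j p) = Rop i j (dX (k, l) p) +
      (if l = j then ((if k = i then p else 0) + dX (k, i) p) else 0) := by
  simp only [dX_apply, Rop_apply, map_add, pderiv_mul, pderiv_X,
    pderiv_comm' (k, l) (0, i) p, pderiv_comm' (k, l) (1, i) p]
  fin_cases k <;> fin_cases l <;> fin_cases i <;> fin_cases j <;>
    simp [Pi.single_apply] <;> ring

theorem dX_Lop (k l i j : Fin 2) (p : S) :
    dX (k, l) (Lop i j p) = Lop i j (dX (k, l) p) +
      (if k = i then ((if l = j then p else 0) + dX (j, l) p) else 0) := by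
  simp only [dX_apply, Lop_apply, map_add, pderiv_mul, pderiv_X,
    pderiv_comm' (k, l) (j, 0) p, pderiv_comm' (k, l) (j, 1) p]
  fin_cases k <;> fin_cases l <;> fin_cases i <;> fin_cases j <;>
    simp [Pi.single_apply] <;> ring

/-- `[R_ij, R_kl] = δ_il R_kj - δ_kj R_il` -/
theorem Rop_comm (i j k l : Fin 2) (p : S) :
    Rop i j (Rop k l p) - Rop k l (Rop i j p) =
      (if i = l then Rop k j p else 0) - (if k = j then Rop i l p else 0) := by
  have h := fun c : I4 => dX_Rop c.1 c.2 k l p
  have h' := fun c : I4 => dX_Rop c.1 c.2 i j p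
  rw [Rop_apply i j (Rop k l p), Rop_apply k l (Rop i j p)]
  simp only [← dX_apply]
  rw [dX_Rop, dX_Rop, dX_Rop, dX_Rop]
  simp only [Rop_apply, dX_apply, pderiv_comm' (0, k) (0, i) p, pderiv_comm' (0, k) (1, i) p,
    pderiv_comm' (1, k) (0, i) p, pderiv_comm' (1, k) (1, i) p]
  fin_cases k <;> fin_cases l <;> fin_cases i <;> fin_cases j <;>
    simp [] <;> ring

/-- left and right multiplications commute -/
theorem Lop_Rop (i j k l : Fin 2) (p : S) : Lop i j (Rop k l p) = Rop k l (Lop i j p) := by
  rw [Lop_apply i j (Rop k l p), Rop_apply k l (Lop i j p)]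
  simp only [← dX_apply]
  rw [dX_Rop, dX_Rop, dX_Lop, dX_Lop]
  simp only [Rop_apply, Lop_apply, dX_apply, pderiv_comm' (0, k) (j, 0) p,
    pderiv_comm' (0, k) (j, 1) p, pderiv_comm' (1, k) (j, 0) p, pderiv_comm' (1, k) (j, 1) p]
  fin_cases k <;> fin_cases l <;> fin_cases i <;> fin_cases j <;>
    simp [] <;> ring

theorem gt_Rt (i j : Fin 2) (h : P2) : gt (Rt i j h) = Rt i j (gt h) := by
  have h1 := fun a b c d => Rop_comm a b c d (h 0)
  have h2 := fun a b c d => Rop_comm a b c d (h 1)
  funext l
  fin_cases l <;> fin_cases i <;> fin_cases j <;>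
    simp only [gt_zero, gt_one, Rt_apply, map_add, map_sub, map_neg, Fin.isValue,
      Fin.zero_eta, Fin.mk_one, if_true, if_false, zero_ne_one, one_ne_zero, map_zero, add_zero]
  · have a1 := h1 1 1 0 0; have a2 := h2 0 1 0 0
    simp at a1 a2
    linear_combination a1 - a2
  · have a1 := h1 1 1 0 1; have a2 := h2 0 1 0 1
    simp at a1 a2
    linear_combination a1 - a2
  · have a1 := h1 1 1 1 0; have a2 := h2 0 1 1 0
    simp at a1 a2
    linear_combination a1 - a2
  · have a1 := h1 1 1 1 1; have a2 := h2 0 1 1 1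
    simp at a1 a2
    linear_combination a1 - a2
  · have a1 := h1 1 0 0 0; have a2 := h2 0 0 0 0
    simp at a1 a2
    linear_combination -a1 + a2
  · have a1 := h1 1 0 0 1; have a2 := h2 0 0 0 1
    simp at a1 a2
    linear_combination -a1 + a2
  · have a1 := h1 1 0 1 0; have a2 := h2 0 0 1 0
    simp at a1 a2
    linear_combination -a1 + a2
  · have a1 := h1 1 0 1 1; have a2 := h2 0 0 1 1
    simp at a1 a2
    linear_combination -a1 + a2

theorem gt_Lt (i j : Fin 2) (h : P2) : gt (Lt i j h) = Lt i j (gt h) := by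
  funext l
  fin_cases l <;> simp [Lop_Rop]

theorem Lt_Rt (i j k l : Fin 2) (h : P2) : Lt i j (Rt k l h) = Rt k l (Lt i j h) := by
  funext m
  by_cases hm : m = l <;> simp [Rt_apply, hm, Lop_Rop]

end Crest.Agent.FD
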