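import Crest.Agent.FD.Defs3

/-!
# Row 178 (S0268), chunk PSI: the representation of `U(gl_2)` on `ℂ[[x_0, x_1]]`

`Psi s` is the normally ordered differential operator: `Psi (X^α) = x^(row α) ∂^(col α)`.
-/

set_option autoImplicit false

namespace Crest.Agent.FD

open MvPolynomial

noncomputable section

/-- the operator attached to a monomial: `x^(row α) ∂^(col α)` -/
def PsiM (α : I4 →₀ ℕ) : Module.End ℂ (Fs ℂ) :=
  (xop ℂ ℂ 0) ^ (α (0, 0) + α (0, 1)) * (xop ℂ ℂ 1) ^ (α (1, 0) + α (1, 1)) *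
    ((dop ℂ ℂ 0) ^ (α (0, 0) + α (1, 0)) * (dop ℂ ℂ 1) ^ (α (0, 1) + α (1, 1)))

/-- the representation of `S` -/
def Psi : S →ₗ[ℂ] Module.End ℂ (Fs ℂ) := (basisMonomials I4 ℂ).constr ℂ PsiM

/-- Weyl relations; generic in the coefficients -/
theorem dfun_xfun {Y : Type} [AddCommGroup Y] (i j : Fin 2) (y : Fs Y) :
    dfun i (xfun j y) = xfun j (dfun i y) + if i = j then y else 0 := by
  funext a b
  rw [Pi.add_apply, Pi.add_apply]
  fin_cases i <;> fin_cases j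
  · rcases a with _ | a
    · simp [dfun, xfun]
    · simp [dfun, xfun, succ_nsmul]
  · rcases b with _ | b
    · simp [dfun, xfun]
    · simp [dfun, xfun]
  · rcases a with _ | a
    · simp [dfun, xfun]
    · simp [dfun, xfun]
  · rcases b with _ | b
    · simp [dfun, xfun]
    · simp [dfun, xfun, succ_nsmul]

theorem xfun_comm {Y : Type} [AddCommGroup Y] (i j : Fin 2) (y : Fs Y) :
    xfun i (xfun j y) = xfun j (xfun i y) := by
  funext a b
  fin_cases i <;> fin_cases j <;> rcases a with _ | a <;> rcases b with _ | b <;> simp [xfun]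

theorem dfun_comm {Y : Type} [AddCommGroup Y] (i j : Fin 2) (y : Fs Y) :
    dfun i (dfun j y) = dfun j (dfun i y) := by
  funext a b
  fin_cases i <;> fin_cases j
  · rfl
  · simp only [dfun, Fin.zero_eta, Fin.mk_one, if_true, one_ne_zero, if_false]
    exact smul_comm _ _ _
  · simp only [dfun, Fin.zero_eta, Fin.mk_one, if_true, one_ne_zero, if_false]
    exact smul_comm _ _ _
  · rfl

theorem psi_xx (i j : Fin 2) : xop ℂ ℂ i * xop ℂ ℂ j = xop ℂ ℂ j * xop ℂ ℂ i :=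
  LinearMap.ext fun y => xfun_comm i j y

theorem psi_dd (i j : Fin 2) : dop ℂ ℂ i * dop ℂ ℂ j = dop ℂ ℂ j * dop ℂ ℂ i :=
  LinearMap.ext fun y => dfun_comm i j y

theorem psi_dx (i j : Fin 2) : dop ℂ ℂ i * xop ℂ ℂ j = xop ℂ ℂ j * dop ℂ ℂ i +
    if i = j then 1 else 0 := by
  refine LinearMap.ext fun y => ?_
  have h := dfun_xfun i j y
  by_cases hij : i = j
  · rw [if_pos hij] at h ⊢
    exact h
  · rw [if_neg hij] at h ⊢
    exact h

theorem psi_PsiM_add (α : I4 →₀ ℕ) (i j : Fin 2) :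
    PsiM (α + Finsupp.single (i, j) 1) = xop ℂ ℂ i * PsiM α * dop ℂ ℂ j := by
  have hx : Commute (xop ℂ ℂ 1) (xop ℂ ℂ 0) := psi_xx 1 0
  have hd : Commute (dop ℂ ℂ 1) (dop ℂ ℂ 0) := psi_dd 1 0
  have hx' : ∀ a b : ℕ, (xop ℂ ℂ 0) ^ a * (xop ℂ ℂ 1) ^ (b + 1) =
      xop ℂ ℂ 1 * ((xop ℂ ℂ 0) ^ a * (xop ℂ ℂ 1) ^ b) := by
    intro a b
    rw [pow_succ', ← mul_assoc, ← mul_assoc, (hx.pow_right a).eq]
  have hd' : ∀ a b : ℕ, (dop ℂ ℂ 0) ^ (a + 1) * (dop ℂ ℂ 1) ^ b =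
      ((dop ℂ ℂ 0) ^ a * (dop ℂ ℂ 1) ^ b) * dop ℂ ℂ 0 := by
    intro a b
    rw [pow_succ, mul_assoc, mul_assoc, (hd.pow_left b).eq]
  have hd'' : ∀ a b : ℕ, (dop ℂ ℂ 0) ^ a * (dop ℂ ℂ 1) ^ (b + 1) =
      ((dop ℂ ℂ 0) ^ a * (dop ℂ ℂ 1) ^ b) * dop ℂ ℂ 1 := by
    intro a b
    rw [pow_succ, mul_assoc]
  have hx'' : ∀ a b : ℕ, (xop ℂ ℂ 0) ^ (a + 1) * (xop ℂ ℂ 1) ^ b =
      xop ℂ ℂ 0 * ((xop ℂ ℂ 0) ^ a * (xop ℂ ℂ 1) ^ b) := by
    intro a b
    rw [pow_succ', mul_assoc]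
  unfold PsiM
  fin_cases i <;> fin_cases j
  · have e1 : (α + Finsupp.single ((0, 0) : I4) 1 : I4 →₀ ℕ) (0, 0) = α (0, 0) + 1 := by simp
    have e2 : (α + Finsupp.single ((0, 0) : I4) 1 : I4 →₀ ℕ) (0, 1) = α (0, 1) := by simp
    have e3 : (α + Finsupp.single ((0, 0) : I4) 1 : I4 →₀ ℕ) (1, 0) = α (1, 0) := by simp
    have e4 : (α + Finsupp.single ((0, 0) : I4) 1 : I4 →₀ ℕ) (1, 1) = α (1, 1) := by simp
    simp only [Fin.zero_eta]
    rw [e1, e2, e3, e4, show α (0, 0) + 1 + α (0, 1) = α (0, 0) + α (0, 1) + 1 by ring,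
      show α (0, 0) + 1 + α (1, 0) = α (0, 0) + α (1, 0) + 1 by ring, hx'', hd']
    simp only [mul_assoc]
  · have e1 : (α + Finsupp.single ((0, 1) : I4) 1 : I4 →₀ ℕ) (0, 0) = α (0, 0) := by simp
    have e2 : (α + Finsupp.single ((0, 1) : I4) 1 : I4 →₀ ℕ) (0, 1) = α (0, 1) + 1 := by simp
    have e3 : (α + Finsupp.single ((0, 1) : I4) 1 : I4 →₀ ℕ) (1, 0) = α (1, 0) := by simp
    have e4 : (α + Finsupp.single ((0, 1) : I4) 1 : I4 →₀ ℕ) (1, 1) = α (1, 1) := by simp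
    simp only [Fin.zero_eta, Fin.mk_one]
    rw [e1, e2, e3, e4, show α (0, 0) + (α (0, 1) + 1) = α (0, 0) + α (0, 1) + 1 by ring,
      show α (0, 1) + 1 + α (1, 1) = α (0, 1) + α (1, 1) + 1 by ring, hx'', hd'']
    simp only [mul_assoc]
  · have e1 : (α + Finsupp.single ((1, 0) : I4) 1 : I4 →₀ ℕ) (0, 0) = α (0, 0) := by simp
    have e2 : (α + Finsupp.single ((1, 0) : I4) 1 : I4 →₀ ℕ) (0, 1) = α (0, 1) := by simp
    have e3 : (α + Finsupp.single ((1, 0) : I4) 1 : I4 →₀ ℕ) (1, 0) = α (1, 0) + 1 := by simp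
    have e4 : (α + Finsupp.single ((1, 0) : I4) 1 : I4 →₀ ℕ) (1, 1) = α (1, 1) := by simp
    simp only [Fin.zero_eta, Fin.mk_one]
    rw [e1, e2, e3, e4, show α (1, 0) + 1 + α (1, 1) = α (1, 0) + α (1, 1) + 1 by ring,
      show α (0, 0) + (α (1, 0) + 1) = α (0, 0) + α (1, 0) + 1 by ring, hx', hd']
    simp only [mul_assoc]
  · have e1 : (α + Finsupp.single ((1, 1) : I4) 1 : I4 →₀ ℕ) (0, 0) = α (0, 0) := by simp
    have e2 : (α + Finsupp.single ((1, 1) : I4) 1 : I4 →₀ ℕ) (0, 1) = α (0, 1) := by simp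
    have e3 : (α + Finsupp.single ((1, 1) : I4) 1 : I4 →₀ ℕ) (1, 0) = α (1, 0) := by simp
    have e4 : (α + Finsupp.single ((1, 1) : I4) 1 : I4 →₀ ℕ) (1, 1) = α (1, 1) + 1 := by simp
    simp only [Fin.mk_one]
    rw [e1, e2, e3, e4, show α (1, 0) + (α (1, 1) + 1) = α (1, 0) + α (1, 1) + 1 by ring,
      show α (0, 1) + (α (1, 1) + 1) = α (0, 1) + α (1, 1) + 1 by ring, hx', hd'']
    simp only [mul_assoc]

theorem psi_monomial (α : I4 →₀ ℕ) : Psi (monomial α 1) = PsiM α := by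
  have := (basisMonomials I4 ℂ).constr_basis ℂ PsiM α
  rwa [coe_basisMonomials] at this

theorem Psi_one : Psi 1 = 1 := by
  have h : (1 : S) = monomial 0 1 := rfl
  rw [h, psi_monomial]
  simp [PsiM]

/-- `Psi (X_ij s) = x_i Psi(s) ∂_j` -/
theorem Psi_mX (i j : Fin 2) (s : S) : Psi (mX (i, j) s) = xop ℂ ℂ i * Psi s * dop ℂ ℂ j := by
  induction s using MvPolynomial.induction_on' with
  | monomial α c =>
    have e : (monomial α c : S) = c • monomial α 1 := by rw [smul_monomial, smul_eq_mul, mul_one]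
    rw [e, map_smul, map_smul, map_smul, mX_apply, X, monomial_mul, one_mul, psi_monomial,
      psi_monomial, add_comm, psi_PsiM_add, mul_smul_comm, smul_mul_assoc]
  | add p q hp hq =>
    rw [map_add, map_add, map_add, hp, hq, mul_add, add_mul]

/-- `Psi(s) x_i = x_i Psi(s) + ∑_k x_k Psi(∂_{ki} s)` (induction on `s` with `Psi_mX`) -/
theorem Psi_mul_xop (i : Fin 2) (s : S) :
    Psi s * xop ℂ ℂ i = xop ℂ ℂ i * Psi s +
      (xop ℂ ℂ 0 * Psi (dX (0, i) s) + xop ℂ ℂ 1 * Psi (dX (1, i) s)) := by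
  induction s using MvPolynomial.induction_on with
  | C c =>
    have h : (C c : S) = c • 1 := by rw [smul_eq_C_mul, mul_one]
    have h0 : ∀ a : I4, dX a (C c : S) = 0 := fun a => by simp
    rw [h0, h0, h, map_smul, Psi_one]
    simp
  | add p q hp hq =>
    simp only [map_add, add_mul, mul_add, hp, hq]
    abel
  | mul_X p kl hp =>
    obtain ⟨k, l⟩ := kl
    have e : p * X (k, l) = mX (k, l) p := by rw [mX_apply, mul_comm]
    rw [e, dX_mX, dX_mX, map_add, map_add, Psi_mX, Psi_mX, Psi_mX, mul_assoc, psi_dx, mul_add,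
      ← mul_assoc (xop ℂ ℂ k * Psi p), mul_assoc (xop ℂ ℂ k) (Psi p) (xop ℂ ℂ i), hp]
    have e1 : xop ℂ ℂ k * Psi p * (if l = i then 1 else 0) =
        xop ℂ ℂ 0 * Psi (if ((0, i) : I4) = (k, l) then p else 0) +
        xop ℂ ℂ 1 * Psi (if ((1, i) : I4) = (k, l) then p else 0) := by
      by_cases hl : l = i
      · subst hl
        fin_cases k <;> simp
      · have hl' : ¬ i = l := fun h => hl h.symm
        simp [hl, hl', Prod.ext_iff]
    rw [e1]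
    have c1 : ∀ (m : Fin 2) (T : Module.End ℂ (Fs ℂ)),
        xop ℂ ℂ k * (xop ℂ ℂ m * T) = xop ℂ ℂ m * (xop ℂ ℂ k * T) := by
      intro m T
      rw [← mul_assoc, psi_xx, mul_assoc]
    simp only [mul_add, add_mul, c1]
    simp only [← mul_assoc]
    abel

theorem Psi_Rop (i j : Fin 2) (s : S) : Psi (Rop i j s) = Psi s * rho ℂ ℂ i j := by
  have e : Rop i j s = mX (i, j) s + (mX (0, j) (dX (0, i) s) + mX (1, j) (dX (1, i) s)) :=
    Rop_apply i j s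
  have e2 : rho ℂ ℂ i j = xop ℂ ℂ i * dop ℂ ℂ j := rfl
  rw [e, e2, ← mul_assoc, Psi_mul_xop, map_add, map_add, Psi_mX, Psi_mX, Psi_mX]
  simp only [add_mul]

theorem psi_rho_Vh (m : ℕ) (i j : Fin 2) (v : Fs ℂ) (hv : v ∈ Vh m) : rho ℂ ℂ i j v ∈ Vh m := by
  intro a b hab
  rw [rho_apply]
  have hv' : ∀ a b : ℕ, a + b + 1 ≠ m → v a b = 0 := hv
  fin_cases i <;> fin_cases j
  · rcases a with _ | a
    · simp [xfun]
    · have := hv' (a + 1) b hab
      simp [xfun, dfun, this]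
  · rcases a with _ | a
    · simp [xfun]
    · have := hv' a (b + 1) (by omega)
      simp [xfun, dfun, this]
  · rcases b with _ | b
    · simp [xfun]
    · have := hv' (a + 1) b (by omega)
      simp [xfun, dfun, this]
  · rcases b with _ | b
    · simp [xfun]
    · have := hv' a (b + 1) (by omega)
      simp [xfun, dfun, this]

theorem Psi_mem_Vh (m : ℕ) (s : S) (v : Fs ℂ) (hv : v ∈ Vh m) : Psi s v ∈ Vh m := by
  obtain ⟨d, hd⟩ := exists_mem_Sf s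
  refine Sf_induction_R (P := fun _ s => ∀ v ∈ Vh m, Psi s v ∈ Vh m) ?_ ?_ ?_ ?_ ?_ ?_ d s hd v hv
  · intro v hv
    rw [Psi_one]; exact hv
  · intro _ v _
    rw [map_zero]; exact Submodule.zero_mem _
  · intro _ s s' h h' v hv
    rw [map_add]; exact Submodule.add_mem _ (h v hv) (h' v hv)
  · intro _ c s h v hv
    rw [map_smul]; exact Submodule.smul_mem _ c (h v hv)
  · intro _ s h; exact h
  · intro _ s i j h v hv
    rw [Psi_Rop]
    exact h _ (psi_rho_Vh m i j v hv)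

/-- `h ↦ Psi(h_0) ∂_0 + Psi(h_1) ∂_1` -/
def PsiP : P2 →ₗ[ℂ] Module.End ℂ (Fs ℂ) where
  toFun h := Psi (h 0) * dop ℂ ℂ 0 + Psi (h 1) * dop ℂ ℂ 1
  map_add' a b := by simp [add_mul]; abel
  map_smul' c a := by simp [smul_add]

@[simp] theorem PsiP_apply (h : P2) :
    PsiP h = Psi (h 0) * dop ℂ ℂ 0 + Psi (h 1) * dop ℂ ℂ 1 := rfl

theorem PsiP_gt (h : P2) : PsiP (gt h) = 0 := by
  have e2 : ∀ i j, rho ℂ ℂ i j = xop ℂ ℂ i * dop ℂ ℂ j := fun _ _ => rfl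
  rw [PsiP_apply, gt_zero, gt_one, map_sub, map_add, map_neg, Psi_Rop, Psi_Rop, Psi_Rop, Psi_Rop]
  refine LinearMap.ext fun v => ?_
  simp only [e2, LinearMap.add_apply, LinearMap.sub_apply, LinearMap.neg_apply,
    Module.End.mul_apply, LinearMap.zero_apply]
  have h1 := LinearMap.congr_fun (psi_dd 1 0) v
  rw [Module.End.mul_apply, Module.End.mul_apply] at h1
  rw [h1]
  abel

/-- the action of `Q` : `ℂ[[x]] → ℂ[[x]]`, lowers the degree by one -/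
def PsiQ : Qb →ₗ[ℂ] Module.End ℂ (Fs ℂ) :=
  (LinearMap.range gt).liftQ PsiP (by
    rintro _ ⟨h, rfl⟩
    exact PsiP_gt h)

@[simp] theorem PsiQ_qm (h : P2) : PsiQ (qm h) = PsiP h := rfl

theorem PsiQ_RQ (i j : Fin 2) (q : Qb) : PsiQ (RQ i j q) = PsiQ q * rho ℂ ℂ i j := by
  obtain ⟨h, rfl⟩ := qm_surjective q
  have e2 : ∀ i j, rho ℂ ℂ i j = xop ℂ ℂ i * dop ℂ ℂ j := fun _ _ => rfl
  rw [RQ_qm, PsiQ_qm, PsiQ_qm, PsiP_apply, PsiP_apply, Rt_apply, Rt_apply, map_add, map_add,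
    Psi_Rop, Psi_Rop]
  simp only [e2, add_mul, mul_assoc]
  rw [← mul_assoc (dop ℂ ℂ 0), ← mul_assoc (dop ℂ ℂ 1), psi_dx, psi_dx]
  simp only [add_mul, mul_add, mul_assoc]
  rw [psi_dd j 0, psi_dd j 1]
  fin_cases i <;> fin_cases j <;> simp <;> abel

theorem psi_d_Vh (m : ℕ) (k : Fin 2) (v : Fs ℂ) (hv : v ∈ Vh (m + 1)) : dop ℂ ℂ k v ∈ Vh m := by
  intro a b hab
  rw [dop_apply]
  have hv' : ∀ a b : ℕ, a + b + 1 ≠ m + 1 → v a b = 0 := hv
  fin_cases k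
  · have := hv' (a + 1) b (by omega)
    simp [dfun, this]
  · have := hv' a (b + 1) (by omega)
    simp [dfun, this]

theorem PsiQ_mem_Vh (m : ℕ) (q : Qb) (v : Fs ℂ) (hv : v ∈ Vh (m + 1)) : PsiQ q v ∈ Vh m := by
  obtain ⟨h, rfl⟩ := qm_surjective q
  rw [PsiQ_qm, PsiP_apply]
  exact Submodule.add_mem _ (Psi_mem_Vh m _ _ (psi_d_Vh m 0 v hv))
    (Psi_mem_Vh m _ _ (psi_d_Vh m 1 v hv))

/-- the action of `N` on pairs: `(s, q) (v, v') = (s v, s v' + q v)` -/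
def PhiE : N →ₗ[ℂ] Module.End ℂ (Fs ℂ × Fs ℂ) where
  toFun n := LinearMap.prod (Psi n.1 ∘ₗ LinearMap.fst ℂ _ _)
    (Psi n.1 ∘ₗ LinearMap.snd ℂ _ _ + PsiQ n.2 ∘ₗ LinearMap.fst ℂ _ _)
  map_add' a b := by
    refine LinearMap.ext fun x => ?_
    show (Psi (a + b).1 x.1, Psi (a + b).1 x.2 + PsiQ (a + b).2 x.1) =
      (Psi a.1 x.1, Psi a.1 x.2 + PsiQ a.2 x.1) + (Psi b.1 x.1, Psi b.1 x.2 + PsiQ b.2 x.1)
    simp only [Prod.fst_add, Prod.snd_add, map_add, LinearMap.add_apply, Prod.mk_add_mk]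
    congr 1
    abel
  map_smul' c a := by
    refine LinearMap.ext fun x => ?_
    simp

@[simp] theorem PhiE_apply (n : N) (v : Fs ℂ × Fs ℂ) :
    PhiE n v = (Psi n.1 v.1, Psi n.1 v.2 + PsiQ n.2 v.1) := rfl

theorem PhiE_one : PhiE oneN = 1 := by
  refine LinearMap.ext fun v => ?_
  rw [PhiE_apply, show (oneN : N).1 = 1 from rfl, show (oneN : N).2 = 0 from rfl, Psi_one, map_zero]
  simp

/-- right action of `E_ij` on pairs -/
def rE (i j : Fin 2) : Module.End ℂ (Fs ℂ × Fs ℂ) := LinearMap.prodMap (rho ℂ ℂ i j) (rho ℂ ℂ i j)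

/-- right action of `b_k` on pairs -/
def bE (k : Fin 2) : Module.End ℂ (Fs ℂ × Fs ℂ) :=
  LinearMap.inr ℂ _ _ ∘ₗ dop ℂ ℂ k ∘ₗ LinearMap.fst ℂ _ _

theorem PhiE_RN (i j : Fin 2) (n : N) : PhiE (RN i j n) = PhiE n * rE i j := by
  refine LinearMap.ext fun v => ?_
  rw [PhiE_apply, Module.End.mul_apply, PhiE_apply]
  show (Psi (Rop i j n.1) v.1, Psi (Rop i j n.1) v.2 + PsiQ (RQ i j n.2) v.1) = _
  rw [Psi_Rop, PsiQ_RQ]
  rfl

theorem PhiE_RB (k : Fin 2) (n : N) : PhiE (RB k n) = PhiE n * bE k := by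
  refine LinearMap.ext fun v => ?_
  rw [PhiE_apply, Module.End.mul_apply, PhiE_apply]
  show (Psi 0 v.1, Psi 0 v.2 + PsiQ (qm (Pi.single k n.1)) v.1) =
    (Psi n.1 0, Psi n.1 (dop ℂ ℂ k v.1) + PsiQ n.2 0)
  rw [PsiQ_qm, PsiP_apply]
  fin_cases k <;> simp

/-- multiplicativity: `TT_module_aux` -/
theorem PhiE_smul (t : TT) (n : N) : PhiE (t • n) = PhiE (t • oneN) * PhiE n :=
  TT_module_aux PhiE rE bE PhiE_one PhiE_RN PhiE_RB t n

theorem Psi_smul (t : TT) (n : N) : Psi (t • n).1 = Psi (t • oneN).1 * Psi n.1 := by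
  have h := PhiE_smul t n
  refine LinearMap.ext fun v => ?_
  have := congrArg (fun f : Module.End ℂ (Fs ℂ × Fs ℂ) => (f (v, 0)).1) h
  simpa using this

/-- `ℂ[[x_0, x_1]]` as a `T`-module -/
def VV : Type := Fs ℂ

instance : AddCommGroup VV := inferInstanceAs (AddCommGroup (Fs ℂ))
instance : Module ℂ VV := inferInstanceAs (Module ℂ (Fs ℂ))

/-- pairs, as a `T`-module -/
def EE : Type := Fs ℂ × Fs ℂ

instance : AddCommGroup EE := inferInstanceAs (AddCommGroup (Fs ℂ × Fs ℂ))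
instance : Module ℂ EE := inferInstanceAs (Module ℂ (Fs ℂ × Fs ℂ))

instance : Module TT VV where
  smul t v := (Psi (t • oneN).1 v : Fs ℂ)
  one_smul v := by
    show (Psi ((1 : TT) • oneN).1 v : Fs ℂ) = v
    rw [one_smul]
    show (Psi 1 v : Fs ℂ) = v
    rw [Psi_one]; rfl
  mul_smul t t' v := by
    show (Psi ((t * t') • oneN).1 v : Fs ℂ) = Psi (t • oneN).1 (Psi (t' • oneN).1 v : Fs ℂ)
    rw [mul_smul, Psi_smul]; rfl
  smul_zero t := map_zero (Psi (t • oneN).1)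
  smul_add t v w := map_add (Psi (t • oneN).1) v w
  add_smul t t' v := by
    show (Psi ((t + t') • oneN).1 v : Fs ℂ) = Psi (t • oneN).1 v + Psi (t' • oneN).1 v
    rw [add_smul, Prod.fst_add, map_add]; rfl
  zero_smul v := by
    show (Psi ((0 : TT) • oneN).1 v : Fs ℂ) = 0
    rw [zero_smul, Prod.fst_zero, map_zero]; rfl

theorem VV_smul_def (t : TT) (v : VV) : t • v = (Psi (t • oneN).1 v : Fs ℂ) := rfl

instance : Module TT EE where
  smul t v := (PhiE (t • oneN) v : Fs ℂ × Fs ℂ)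
  one_smul v := by
    show (PhiE ((1 : TT) • oneN) v : Fs ℂ × Fs ℂ) = v
    rw [one_smul, PhiE_one]; rfl
  mul_smul t t' v := by
    show (PhiE ((t * t') • oneN) v : Fs ℂ × Fs ℂ) =
      PhiE (t • oneN) (PhiE (t' • oneN) v : Fs ℂ × Fs ℂ)
    rw [mul_smul, PhiE_smul]; rfl
  smul_zero t := map_zero (PhiE (t • oneN))
  smul_add t v w := map_add (PhiE (t • oneN)) v w
  add_smul t t' v := by
    show (PhiE ((t + t') • oneN) v : Fs ℂ × Fs ℂ) = PhiE (t • oneN) v + PhiE (t' • oneN) v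
    rw [add_smul, map_add]; rfl
  zero_smul v := by
    show (PhiE ((0 : TT) • oneN) v : Fs ℂ × Fs ℂ) = 0
    rw [zero_smul, map_zero]; rfl

theorem EE_smul_def (t : TT) (v : EE) : t • v = (PhiE (t • oneN) v : Fs ℂ × Fs ℂ) := rfl

/-- `v' ↦ (0, v')` -/
def iE : VV →ₗ[TT] EE where
  toFun v := ((0, v) : Fs ℂ × Fs ℂ)
  map_add' _ _ := Prod.ext (add_zero 0).symm rfl
  map_smul' t a := by
    refine Prod.ext ?_ ?_
    · exact (map_zero (Psi (t • oneN).1)).symm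
    · show Psi (t • oneN).1 a = Psi (t • oneN).1 a + PsiQ (t • oneN).2 0
      rw [map_zero, add_zero]

/-- `(v, v') ↦ v` -/
def pE : EE →ₗ[TT] VV where
  toFun v := (v : Fs ℂ × Fs ℂ).1
  map_add' _ _ := rfl
  map_smul' _ _ := rfl

@[simp] theorem iE_apply (v : VV) : iE v = ((0, v) : Fs ℂ × Fs ℂ) := rfl
@[simp] theorem pE_apply (v : EE) : pE v = (v : Fs ℂ × Fs ℂ).1 := rfl

/-- filtration of `VV`: constant, equal to `V_(m-1)` -/
def XF (m : ℕ) (_p : ℤ) : Submodule ℂ VV := Vh m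

/-- filtration of `EE`: constant, equal to `V_n × V_(n-1)` -/
def EF (n : ℕ) (_p : ℤ) : Submodule ℂ EE := (Vh (n + 1)).prod (Vh n)

theorem compatX (m : ℕ) : Compat (XF m) := fun _ _ t v _ hv => Psi_mem_Vh m (t • oneN).1 v hv

theorem compatE (n : ℕ) : Compat (EF n) := fun _ _ t v _ hv =>
  ⟨Psi_mem_Vh (n + 1) (t • oneN).1 _ hv.1,
    Submodule.add_mem _ (Psi_mem_Vh n (t • oneN).1 _ hv.2) (PsiQ_mem_Vh n (t • oneN).2 _ hv.1)⟩

/-- the `A`-module `X_(m-1)` (zero for `m = 0`) -/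
abbrev XW (m : ℕ) : Type := WS (XF m) (compatX m)

/-- the `A`-module `E_n` -/
abbrev EW (n : ℕ) : Type := WS (EF n) (compatE n)

/-- `0 → X_(n-1) → E_n → X_n → 0` -/
def iW (n : ℕ) : XW n →ₗ[AA] EW n :=
  Wmap iE fun _ _ hy => ⟨Submodule.zero_mem _, hy⟩

def pW (n : ℕ) : EW n →ₗ[AA] XW (n + 1) :=
  Wmap pE fun _ _ hy => hy.1

theorem iW_injective (n : ℕ) : Function.Injective (iW n) := by
  intro x y h
  apply Subtype.ext
  funext i
  have h1 := congrArg (fun z : EW n => ((z.1 i : EE) : Fs ℂ × Fs ℂ).2) h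
  exact h1

theorem iW_pW_exact (n : ℕ) : Function.Exact (iW n) (pW n) := by
  intro y
  constructor
  · intro h
    have h1 : ∀ i, ((y.1 i : EE) : Fs ℂ × Fs ℂ).1 = 0 := fun i =>
      congrArg (fun z : XW (n + 1) => z.1 i) h
    refine ⟨⟨fun i => ((y.1 i : EE) : Fs ℂ × Fs ℂ).2, fun i => (y.2 i).2⟩, ?_⟩
    apply Subtype.ext
    funext i
    exact Prod.ext (h1 i).symm rfl
  · rintro ⟨x, rfl⟩
    apply Subtype.ext
    funext i
    rfl

theorem pW_surjective (n : ℕ) : Function.Surjective (pW n) := by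
  intro y
  refine ⟨⟨fun i => ((y.1 i, 0) : Fs ℂ × Fs ℂ), fun i => ⟨y.2 i, Submodule.zero_mem _⟩⟩, ?_⟩
  apply Subtype.ext
  funext i
  rfl

theorem XW_zero_subsingleton : Subsingleton (XW 0) := by
  refine ⟨fun x y => ?_⟩
  apply Subtype.ext
  funext i
  have hx : ∀ a b : ℕ, a + b + 1 ≠ 0 → (x.1 i : Fs ℂ) a b = 0 := x.2 i
  have hy : ∀ a b : ℕ, a + b + 1 ≠ 0 → (y.1 i : Fs ℂ) a b = 0 := y.2 i
  have : (x.1 i : Fs ℂ) = (y.1 i : Fs ℂ) := by
    funext a b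
    rw [hx a b (by omega), hy a b (by omega)]
  exact this

end

end Crest.Agent.FD
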