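import Crest.Agent.FD.Koszul

/-!
# Row 178 (S0268), chunk SNAKE: homology of `K(Z)` for `Z = Y / γ(Y)`

`0 → K(Y) --γ--> K(Y) --π--> K(Z) → 0` with filtrations shifted by one, and the exactness results
of `Koszul.lean` for `Y`.
-/

set_option autoImplicit false

namespace Crest.Agent.FD

/-- `KData` with a quotient -/
structure SData (Y Z : Type) [AddCommGroup Y] [Module ℂ Y] [AddCommGroup Z] [Module ℂ Z]
    extends KData Y where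
  γ : Module.End ℂ Y
  π : Y →ₗ[ℂ] Z
  TZ : Fin 4 → Module.End ℂ Z
  hγT : ∀ a y, γ (T a y) = T a (γ y)
  hγG : ∀ m y, y ∈ G m → γ y ∈ G (m + 1)
  hγs : ∀ m p y, y ∈ G p → γ y ∈ G (m + 1) → y ∈ G m
  hπγ : ∀ y, π (γ y) = 0
  hker : ∀ m y, y ∈ G m → π y = 0 → ∃ y' ∈ G (m - 1), γ y' = y
  hπT : ∀ a y, π (T a y) = TZ a (π y)

section nat

variable {Y Z : Type} [AddCommGroup Y] [Module ℂ Y] [AddCommGroup Z] [Module ℂ Z]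
  (φ : Y →ₗ[ℂ] Z) {T : Fin 4 → Module.End ℂ Y} {TZ : Fin 4 → Module.End ℂ Z}

theorem snk_nat1 (h : ∀ a y, φ (T a y) = TZ a (φ y)) (c : Fin 4 → Y) :
    ce1 TZ (fun a => φ (c a)) = fun i => φ (ce1 T c i) := by
  funext i
  fin_cases i
  simp only [ce1, KData.cel1_apply, Matrix.cons_val, map_add, h, Fin.zero_eta]

theorem snk_nat2 (h : ∀ a y, φ (T a y) = TZ a (φ y)) (c : Fin 6 → Y) :
    ce2 TZ (fun a => φ (c a)) = fun i => φ (ce2 T c i) := by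
  funext i
  fin_cases i <;>
  simp only [ce2, KData.cel2_apply, KData.cec2_apply, LinearMap.add_apply, Pi.add_apply,
    Matrix.cons_val, map_add, map_sub, map_neg, h, Fin.zero_eta, Fin.mk_one, Fin.reduceFinMk]

theorem snk_nat3 (h : ∀ a y, φ (T a y) = TZ a (φ y)) (c : Fin 4 → Y) :
    ce3 TZ (fun a => φ (c a)) = fun i => φ (ce3 T c i) := by
  funext i
  fin_cases i <;>
  simp only [ce3, KData.cel3_apply, KData.cec3_apply, LinearMap.add_apply, Pi.add_apply,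
    Matrix.cons_val, map_add, map_sub, map_neg, map_zero, h, Fin.zero_eta, Fin.mk_one,
    Fin.reduceFinMk]

theorem snk_nat4 (h : ∀ a y, φ (T a y) = TZ a (φ y)) (c : Fin 1 → Y) :
    ce4 TZ (fun a => φ (c a)) = fun i => φ (ce4 T c i) := by
  funext i
  fin_cases i <;>
  simp only [KData.ce4_apply, Matrix.cons_val, map_neg, h, Fin.zero_eta, Fin.mk_one,
    Fin.reduceFinMk]

end nat

namespace SData

variable {Y Z : Type} [AddCommGroup Y] [Module ℂ Y] [AddCommGroup Z] [Module ℂ Z]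
  (K : SData Y Z)

/-- the filtration of `Z` -/
def GZ (m : ℤ) : Submodule ℂ Z := (K.G (m + 1)).map K.π

/-- `γ` is injective on `⋃ G p` -/
theorem γ_inj (p : ℤ) (y : Y) (hy : y ∈ K.G p) (h : K.γ y = 0) : y = 0 := by
  have h1 : y ∈ K.G (-1) := K.hγs (-1) p y hy (by rw [h]; exact zero_mem _)
  rw [K.hGneg (-1) (by norm_num), Submodule.mem_bot] at h1
  exact h1

theorem snk_γ_inj {k : ℕ} (p : ℤ) (y : Fin k → Y) (hy : ∀ a, y a ∈ K.G p)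
    (h : (fun a => K.γ (y a)) = 0) : y = 0 := by
  funext a
  exact K.γ_inj p (y a) (hy a) (congrFun h a)

/-- lift along `π` -/
theorem snk_lift {k : ℕ} (m : ℤ) (c : Fin k → Z) (hc : ∀ a, c a ∈ K.GZ m) :
    ∃ c' : Fin k → Y, (∀ a, c' a ∈ K.G (m + 1)) ∧ (fun a => K.π (c' a)) = c := by
  choose f hf using fun a => Submodule.mem_map.1 (hc a)
  exact ⟨f, fun a => (hf a).1, funext fun a => (hf a).2⟩

/-- kernel of `π` -/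
theorem snk_ker {k : ℕ} (m : ℤ) (c : Fin k → Y) (hc : ∀ a, c a ∈ K.G (m + 1))
    (h : (fun a => K.π (c a)) = 0) :
    ∃ y : Fin k → Y, (∀ a, y a ∈ K.G m) ∧ (fun a => K.γ (y a)) = c := by
  choose f hf using fun a => K.hker (m + 1) (c a) (hc a) (congrFun h a)
  exact ⟨f, fun a => by simpa using (hf a).1, funext fun a => (hf a).2⟩

theorem snk_πγ {k : ℕ} (w : Fin k → Y) : (fun a => K.π (K.γ (w a))) = 0 :=
  funext fun a => K.hπγ (w a)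

/-- generic step of the snake argument -/
theorem snk_gen {k l q r : ℕ} (d1 : (Fin k → Y) →ₗ[ℂ] (Fin l → Y))
    (dZ1 : (Fin k → Z) →ₗ[ℂ] (Fin l → Z))
    (hn1 : ∀ c, dZ1 (fun a => K.π (c a)) = fun i => K.π (d1 c i))
    (hg1 : ∀ c, d1 (fun a => K.γ (c a)) = fun i => K.γ (d1 c i))
    (d2 : (Fin l → Y) →ₗ[ℂ] (Fin q → Y))
    (hg2 : ∀ c, d2 (fun a => K.γ (c a)) = fun i => K.γ (d2 c i))
    (hdd : ∀ c, d2 (d1 c) = 0)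
    (hm1 : ∀ m c, (∀ a, c a ∈ K.G m) → ∀ a, d1 c a ∈ K.G (m + 1))
    (hm2 : ∀ m c, (∀ a, c a ∈ K.G m) → ∀ a, d2 c a ∈ K.G (m + 1))
    (hex2 : ∀ m c, (∀ a, c a ∈ K.G m) → d2 c = 0 →
      ∃ w : Fin k → Y, (∀ a, w a ∈ K.G (m - 1)) ∧ d1 w = c)
    (d0 : (Fin r → Y) →ₗ[ℂ] (Fin k → Y))
    (hex1 : ∀ m c, (∀ a, c a ∈ K.G m) → d1 c = 0 →
      ∃ w : Fin r → Y, (∀ a, w a ∈ K.G (m - 1)) ∧ d0 w = c)
    (m : ℤ) (c : Fin k → Z) (hc : ∀ a, c a ∈ K.GZ m) (h : dZ1 c = 0) :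
    ∃ v : Fin r → Y, (∀ a, v a ∈ K.G m) ∧ (fun a => K.π (d0 v a)) = c := by
  obtain ⟨c', hc', rfl⟩ := K.snk_lift m c hc
  rw [hn1] at h
  obtain ⟨y, hy, hyc⟩ := K.snk_ker (m + 1) (d1 c') (hm1 _ _ hc') h
  have h2 : d2 y = 0 := by
    refine K.snk_γ_inj (m + 1 + 1) _ (hm2 _ _ hy) ?_
    rw [← hg2, hyc, hdd]
  obtain ⟨w, hw, hwy⟩ := hex2 (m + 1) y hy h2
  rw [add_sub_cancel_right] at hw
  have h3 : d1 (c' - fun a => K.γ (w a)) = 0 := by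
    rw [map_sub, hg1, hwy, hyc, sub_self]
  obtain ⟨v, hv, hvc⟩ := hex1 (m + 1) (c' - fun a => K.γ (w a))
    (fun a => sub_mem (hc' a) (K.hγG m _ (hw a))) h3
  rw [add_sub_cancel_right] at hv
  refine ⟨v, hv, ?_⟩
  rw [hvc]
  funext a
  simp [K.hπγ]

theorem exZ4 (m : ℤ) (c : Fin 1 → Z) (hc : ∀ a, c a ∈ K.GZ m) (h : ce4 K.TZ c = 0) : c = 0 := by
  obtain ⟨v, _, hv⟩ := K.snk_gen (ce4 K.T) (ce4 K.TZ) (snk_nat4 K.π K.hπT)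
    (snk_nat4 K.γ K.hγT) (ce3 K.T) (snk_nat3 K.γ K.hγT) (KData.ce3_ce4 K.hT)
    K.ce4_mem K.ce3_mem K.ex3 (0 : (Fin 0 → Y) →ₗ[ℂ] (Fin 1 → Y))
    (fun m c hc h => ⟨0, fun a => zero_mem _, by rw [K.ex4 m c hc h]; rfl⟩) m c hc h
  rw [← hv]
  funext a
  simp

theorem exZ3 (m : ℤ) (c : Fin 4 → Z) (hc : ∀ a, c a ∈ K.GZ m) (h : ce3 K.TZ c = 0) :
    ∃ w : Fin 1 → Z, (∀ a, w a ∈ K.GZ (m - 1)) ∧ ce4 K.TZ w = c := by
  obtain ⟨v, hv, hvc⟩ := K.snk_gen (ce3 K.T) (ce3 K.TZ) (snk_nat3 K.π K.hπT)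
    (snk_nat3 K.γ K.hγT) (ce2 K.T) (snk_nat2 K.γ K.hγT) (KData.ce2_ce3 K.hT)
    K.ce3_mem K.ce2_mem K.ex2 (ce4 K.T) K.ex3 m c hc h
  refine ⟨fun a => K.π (v a), fun a => ?_, ?_⟩
  · exact Submodule.mem_map_of_mem (by rw [sub_add_cancel]; exact hv a)
  · rw [snk_nat4 K.π K.hπT, hvc]

theorem exZ2 (m : ℤ) (c : Fin 6 → Z) (hc : ∀ a, c a ∈ K.GZ m) (h : ce2 K.TZ c = 0) :
    ∃ w : Fin 4 → Z, (∀ a, w a ∈ K.GZ (m - 1)) ∧ ce3 K.TZ w = c := by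
  obtain ⟨v, hv, hvc⟩ := K.snk_gen (ce2 K.T) (ce2 K.TZ) (snk_nat2 K.π K.hπT)
    (snk_nat2 K.γ K.hγT) (ce1 K.T) (snk_nat1 K.γ K.hγT) (KData.ce1_ce2 K.hT)
    K.ce2_mem K.ce1_mem K.ex1 (ce3 K.T) K.ex2 m c hc h
  refine ⟨fun a => K.π (v a), fun a => ?_, ?_⟩
  · exact Submodule.mem_map_of_mem (by rw [sub_add_cancel]; exact hv a)
  · rw [snk_nat3 K.π K.hπT, hvc]

/-- a cycle in `K_1(Z)` lifts to `c'` in `K_1(Y)` with `ce1 c' = γ (y₀)`, `y₀ ∈ G 0`.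
(Lift `c` to `c''`; `ce1 c'' = γ y`; by `ex0` `y = y₀ + ce1 w`; `c' = c'' - γ w`.) -/
theorem exZ1 (m : ℤ) (c : Fin 4 → Z) (hc : ∀ a, c a ∈ K.GZ m) (h : ce1 K.TZ c = 0) :
    ∃ c' : Fin 4 → Y, (∀ a, c' a ∈ K.G (m + 1)) ∧ (∀ a, K.π (c' a) = c a) ∧
      ∃ y₀ : Fin 1 → Y, (∀ a, y₀ a ∈ K.G 0) ∧ ce1 K.T c' = fun a => K.γ (y₀ a) := by
  obtain ⟨c'', hc'', rfl⟩ := K.snk_lift m c hc
  rw [snk_nat1 K.π K.hπT] at h
  obtain ⟨y, hy, hyc⟩ := K.snk_ker (m + 1) (ce1 K.T c'') (K.ce1_mem _ _ hc'') h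
  obtain ⟨y₀, hy₀, w, hw, hyw⟩ := K.ex0 (m + 1) y hy
  rw [add_sub_cancel_right] at hw
  refine ⟨c'' - fun a => K.γ (w a), fun a => sub_mem (hc'' a) (K.hγG m _ (hw a)), fun a => ?_,
    y₀, hy₀, ?_⟩
  · simp [K.hπγ]
  · rw [map_sub, snk_nat1 K.γ K.hγT, ← hyc, hyw]
    funext a
    simp

theorem exZ0 (m : ℤ) (c : Fin 1 → Z) (hc : ∀ a, c a ∈ K.GZ m) :
    ∃ y₀ : Fin 1 → Y, (∀ a, y₀ a ∈ K.G 0) ∧
      ∃ w : Fin 4 → Z, (∀ a, w a ∈ K.GZ (m - 1)) ∧ c = (fun a => K.π (y₀ a)) + ce1 K.TZ w := by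
  obtain ⟨c', hc', rfl⟩ := K.snk_lift m c hc
  obtain ⟨y₀, hy₀, w, hw, hyw⟩ := K.ex0 (m + 1) c' hc'
  rw [add_sub_cancel_right] at hw
  refine ⟨y₀, hy₀, fun a => K.π (w a), fun a => ?_, ?_⟩
  · exact Submodule.mem_map_of_mem (by rw [sub_add_cancel]; exact hw a)
  · rw [snk_nat1 K.π K.hπT, hyw]
    funext a
    simp

end SData

end Crest.Agent.FD
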