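import Crest.Agent.FD.Defs2
import Crest.Agent.FD.Deg

/-!
# Row 178 (S0268), chunk TRING: the ring `T` (centraliser of the right multiplications of `N`)
-/

set_option autoImplicit false

namespace Crest.Agent.FD

open MvPolynomial

theorem tr_Rt_single (i j k : Fin 2) (s : S) :
    Rt i j (Pi.single k s) = Pi.single k (Rop i j s) + (if k = i then Pi.single j s else 0) := by
  funext l
  rw [Rt_apply]
  by_cases hkl : l = k
  · subst hkl
    by_cases hlj : l = j
    · subst hlj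
      by_cases hli : l = i
      · subst hli; simp
      · have : i ≠ l := fun h => hli h.symm
        simp [hli, this]
    · by_cases hli : l = i
      · subst hli; simp [hlj]
      · simp [hli, hlj]
  · by_cases hlj : l = j
    · subst hlj
      by_cases hki : k = i
      · subst hki; simp [hkl]
      · have : i ≠ k := fun h => hki h.symm
        simp [hkl, hki, this]
    · by_cases hki : k = i
      · subst hki; simp [hkl, hlj]
      · simp [hkl, hki, hlj]

theorem tr_qm_decomp (h : P2) :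
    ((0, qm h) : N) = RB 0 (h 0, 0) + RB 1 (h 1, 0) := by
  have : h = Pi.single 0 (h 0) + Pi.single 1 (h 1) := by
    funext l
    fin_cases l <;> simp
  rw [RB_apply, RB_apply, Prod.mk_add_mk, ← map_add, ← this, add_zero]

/-- `(u E_ij) b_k = (u b_k) E_ij - δ_ki u b_j` -/
theorem RB_RN (k i j : Fin 2) (n : N) :
    RB k (RN i j n) = RN i j (RB k n) - (if k = i then RB j n else 0) := by
  rw [RB_apply, RB_apply, RB_apply, RN_apply, RN_apply, RQ_qm, tr_Rt_single]
  by_cases h : k = i <;> simp [h]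

/-- `N` is generated by `oneN` under right multiplications.
(For `(s, 0)`: `Sf_induction_R`; `(0, qm h) = RB 0 (h 0, 0) + RB 1 (h 1, 0)`.) -/
theorem N_induction (M : Submodule ℂ N) (h1 : oneN ∈ M) (hR : ∀ i j, ∀ n ∈ M, RN i j n ∈ M)
    (hB : ∀ k, ∀ n ∈ M, RB k n ∈ M) (n : N) : n ∈ M := by
  have key : ∀ s : S, ((s, 0) : N) ∈ M := by
    intro s
    obtain ⟨m, hm⟩ := exists_mem_Sf s
    refine Sf_induction_R (P := fun _ s => ((s, 0) : N) ∈ M) h1 (fun _ => M.zero_mem) ?_ ?_ ?_ ?_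
      m s hm
    · intro _ s s' h h'
      have := M.add_mem h h'
      simpa using this
    · intro _ c s h
      have := M.smul_mem c h
      simpa using this
    · intro _ s h; exact h
    · intro _ s i j h
      have := hR i j _ h
      simpa using this
  obtain ⟨s, q⟩ := n
  obtain ⟨h, rfl⟩ := qm_surjective q
  have e : ((s, qm h) : N) = (s, 0) + (RB 0 (h 0, 0) + RB 1 (h 1, 0)) := by
    rw [← tr_qm_decomp]; simp
  rw [e]
  exact M.add_mem (key s) (M.add_mem (hB _ _ (key _)) (hB _ _ (key _)))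

/-- `t ↦ t • 1` is injective -/
theorem TT_ext {t t' : TT} (h : t • oneN = t' • oneN) : t = t' := by
  have : ∀ n : N, n ∈ LinearMap.eqLocus t.toEnd t'.toEnd := by
    refine N_induction _ ?_ ?_ ?_
    · exact h
    · intro i j n hn
      have hn' : t • n = t' • n := hn
      show t • (RN i j n) = t' • (RN i j n)
      rw [TT_RN, TT_RN, hn']
    · intro k n hn
      have hn' : t • n = t' • n := hn
      show t • (RB k n) = t' • (RB k n)
      rw [TT_RB, TT_RB, hn']
  exact TT.ext' (LinearMap.ext fun n => this n)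

/-- `LN i j ∈ T` and `LB k ∈ T` (use `Lop_Rop`, `Lt_Rt`, `dX_Rop`, `dX_Lop`) -/
theorem LN_mem (i j : Fin 2) : LN i j ∈ Tsub := by
  rw [mem_Tsub]
  refine ⟨fun k l n => ?_, fun k n => ?_⟩
  · obtain ⟨s, q⟩ := n
    obtain ⟨h, rfl⟩ := qm_surjective q
    simp only [LN_apply, RN_apply, LQ_qm, RQ_qm, Lop_Rop, Lt_Rt]
  · obtain ⟨s, q⟩ := n
    simp only [LN_apply, RB_apply, LQ_qm, map_zero]
    congr 2
    funext l
    rw [Lt_apply]
    by_cases hl : l = k
    · subst hl; simp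
    · simp [hl]

theorem tr_LBp_Rop (k i j : Fin 2) (s : S) : LBp k (Rop i j s) = Rt i j (LBp k s) := by
  funext l
  rw [LBp_apply, Rt_apply, LBp_apply, LBp_apply, dX_Rop, map_add]
  by_cases hkl : k = l
  · simp [hkl, add_assoc]
  · simp [hkl]

theorem LB_mem (k : Fin 2) : LB k ∈ Tsub := by
  rw [mem_Tsub]
  refine ⟨fun i j n => ?_, fun k' n => ?_⟩
  · simp only [LB_apply, RN_apply, RQ_qm, map_zero, tr_LBp_Rop]
  · simp

/-- the basic elements of `T`: `t_s` with `t_s • (1, 0) = (s, 0)` -/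
theorem tr_exists_s (s : S) : ∃ t : TT, t • ((1, 0) : N) = (s, 0) ∧
    ∀ k : Fin 2, t • ((0, qm (Pi.single k 1)) : N) = (0, qm (Pi.single k s)) := by
  refine S_induction_L (P := fun s => ∃ t : TT, t • ((1, 0) : N) = (s, 0) ∧
    ∀ k : Fin 2, t • ((0, qm (Pi.single k 1)) : N) = (0, qm (Pi.single k s))) ?_ ?_ ?_ ?_ s
  · exact ⟨1, one_smul _ _, fun k => one_smul _ _⟩
  · rintro s s' ⟨t, h1, h2⟩ ⟨t', h1', h2'⟩
    refine ⟨t + t', ?_, fun k => ?_⟩
    · rw [add_smul, h1, h1']; simp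
    · rw [add_smul, h2, h2', Prod.mk_add_mk, ← map_add, Pi.single_add]; simp
  · rintro c s ⟨t, h1, h2⟩
    refine ⟨c • t, ?_, fun k => ?_⟩
    · rw [smul_assoc, h1]; simp
    · rw [smul_assoc, h2, Prod.smul_mk, ← map_smul, ← Pi.single_smul]; simp
  · rintro s i j ⟨t, h1, h2⟩
    refine ⟨TT.mk (LN i j) (LN_mem i j) * t, ?_, fun k => ?_⟩
    · rw [mul_smul, h1]
      show LN i j (s, 0) = _
      simp
    · rw [mul_smul, h2]
      show LN i j (0, qm (Pi.single k s)) = _
      rw [LN_apply, LQ_qm]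
      simp only [map_zero]
      congr 2
      funext l
      rw [Lt_apply]
      by_cases hl : l = k
      · subst hl; simp
      · simp [hl]

/-- `t ↦ t • 1` is surjective.  First by `S_induction_L`: for every `s` there is `t : TT` with
`t • (1, 0) = (s, 0)` and `t • (0, qm (Pi.single k 1)) = (0, qm (Pi.single k s))` for `k = 0, 1`.
Then `(0, qm h) = t₀ b_0 + t₁ b_1` with `b_k = LB k`. -/
theorem TT_exists (n : N) : ∃ t : TT, t • oneN = n := by
  obtain ⟨s, q⟩ := n
  obtain ⟨h, rfl⟩ := qm_surjective q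
  obtain ⟨t, ht, -⟩ := tr_exists_s s
  obtain ⟨t0, -, h0⟩ := tr_exists_s (h 0)
  obtain ⟨t1, -, h1⟩ := tr_exists_s (h 1)
  have hb : ∀ k : Fin 2, TT.mk (LB k) (LB_mem k) • oneN = (0, qm (Pi.single k 1)) := by
    intro k
    show LB k oneN = _
    rw [LB_apply]
    congr 2
    funext l
    rw [LBp_apply]
    by_cases hl : k = l
    · subst hl; simp [oneN]
    · have : l ≠ k := fun h => hl h.symm
      simp [hl, this, oneN]
  refine ⟨t + t0 * TT.mk (LB 0) (LB_mem 0) + t1 * TT.mk (LB 1) (LB_mem 1), ?_⟩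
  rw [add_smul, add_smul, mul_smul, mul_smul, hb, hb, h0, h1]
  have e : h = Pi.single 0 (h 0) + Pi.single 1 (h 1) := by
    funext l
    fin_cases l <;> simp
  have e2 : qm h = qm (Pi.single 0 (h 0)) + qm (Pi.single 1 (h 1)) := by
    rw [← map_add, ← e]
  rw [e2, show (oneN : N) = (1, 0) from rfl, ht]
  simp

theorem tr_Nf_mono {m m' : ℤ} (h : m ≤ m') : Nf m ≤ Nf m' := by
  intro n hn
  rw [mem_Nf] at hn ⊢
  refine ⟨Sf_mono h hn.1, ?_⟩
  obtain ⟨p, hp, e⟩ := hn.2
  refine ⟨p, ?_, e⟩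
  have hp' : p ∈ P2f (m + 1) := hp
  show p ∈ P2f (m' + 1)
  rw [mem_P2f] at hp' ⊢
  exact fun l => Sf_mono (by omega) (hp' l)

theorem tr_RN_Nf {m : ℤ} {n : N} (i j : Fin 2) (hn : n ∈ Nf m) : RN i j n ∈ Nf (m + 1) := by
  rw [mem_Nf] at hn ⊢
  refine ⟨Rop_mem i j hn.1, ?_⟩
  obtain ⟨p, hp, e⟩ := hn.2
  have hp' : p ∈ P2f (m + 1) := hp
  rw [mem_P2f] at hp'
  refine ⟨Rt i j p, ?_, ?_⟩
  · show Rt i j p ∈ P2f (m + 1 + 1)
    rw [mem_P2f]
    intro l
    rw [Rt_apply]
    refine Submodule.add_mem _ (Rop_mem i j (hp' l)) ?_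
    split_ifs
    · exact Sf_mono (by omega) (hp' i)
    · exact Submodule.zero_mem _
  · rw [RN_apply, ← e]; rfl

theorem tr_RB_Nf {m : ℤ} {n : N} (k : Fin 2) (hn : n ∈ Nf (m + 1)) : RB k n ∈ Nf m := by
  rw [mem_Nf] at hn ⊢
  rw [RB_apply]
  refine ⟨Submodule.zero_mem _, ⟨Pi.single k n.1, ?_, rfl⟩⟩
  show Pi.single k n.1 ∈ P2f (m + 1)
  rw [mem_P2f]
  intro l
  by_cases hl : l = k
  · subst hl; simpa using hn.1
  · simp [hl]

/-- the filtrations are compatible (`Sf_induction_R` for `n = (s, 0)`, then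
`(0, qm h) = RB 0 (h 0, 0) + RB 1 (h 1, 0)`) -/
theorem Tf_smul {m p : ℤ} {t : TT} {n : N} (ht : t ∈ Tf m) (hn : n ∈ Nf p) :
    t • n ∈ Nf (m + p) := by
  rw [mem_Tf] at ht
  have key : ∀ p s, s ∈ Sf p → t • ((s, 0) : N) ∈ Nf (m + p) := by
    refine Sf_induction_R (P := fun p s => t • ((s, 0) : N) ∈ Nf (m + p)) ?_ ?_ ?_ ?_ ?_ ?_
    · rw [add_zero]; exact ht
    · intro p
      have : ((0, 0) : N) = 0 := rfl
      rw [this, smul_zero]
      exact Submodule.zero_mem _
    · intro p s s' h h'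
      have e : ((s + s', 0) : N) = (s, 0) + (s', 0) := by simp
      rw [e, smul_add]
      exact Submodule.add_mem _ h h'
    · intro p c s h
      have e : ((c • s, 0) : N) = c • (s, 0) := by simp
      rw [e, smul_comm]
      exact Submodule.smul_mem _ c h
    · intro p s h
      exact tr_Nf_mono (by omega) h
    · intro p s i j h
      have e : ((Rop i j s, 0) : N) = RN i j (s, 0) := by simp
      rw [e, TT_RN]
      have := tr_RN_Nf i j h
      rwa [add_assoc] at this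
  obtain ⟨s, q⟩ := n
  rw [mem_Nf] at hn
  obtain ⟨h, hh, e⟩ := hn.2
  have hh' : h ∈ P2f (p + 1) := hh
  rw [mem_P2f] at hh'
  have e' : ((s, q) : N) = (s, 0) + (RB 0 (h 0, 0) + RB 1 (h 1, 0)) := by
    rw [← tr_qm_decomp]
    have : qm h = q := e
    rw [this]; simp
  rw [e', smul_add, smul_add, TT_RB, TT_RB]
  refine Submodule.add_mem _ (key p s hn.1) (Submodule.add_mem _ ?_ ?_)
  · apply tr_RB_Nf
    have := key (p + 1) (h 0) (hh' 0)
    rwa [← add_assoc] at this
  · apply tr_RB_Nf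
    have := key (p + 1) (h 1) (hh' 1)
    rwa [← add_assoc] at this

theorem Tf_mul {m p : ℤ} {t t' : TT} (ht : t ∈ Tf m) (ht' : t' ∈ Tf p) :
    t * t' ∈ Tf (m + p) := by
  rw [mem_Tf, mul_smul]
  exact Tf_smul ht ht'

theorem one_mem_Tf : (1 : TT) ∈ Tf 0 := by
  rw [mem_Tf, one_smul, mem_Nf]
  exact ⟨one_mem_Sf, Submodule.zero_mem _⟩

/-- `T` preserves `Q ⊂ N` -/
theorem TT_smul_snd (t : TT) (q : Qb) : (t • ((0, q) : N)).1 = 0 := by
  obtain ⟨h, rfl⟩ := qm_surjective q
  rw [tr_qm_decomp, smul_add, TT_RB, TT_RB, RB_apply, RB_apply]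
  simp

/-- modules over `T` from right actions -/
theorem TT_module_aux {E : Type} [AddCommGroup E] [Module ℂ E] (Φ : N →ₗ[ℂ] Module.End ℂ E)
    (r : Fin 2 → Fin 2 → Module.End ℂ E) (b : Fin 2 → Module.End ℂ E) (h1 : Φ oneN = 1)
    (hR : ∀ i j n, Φ (RN i j n) = Φ n * r i j) (hB : ∀ k n, Φ (RB k n) = Φ n * b k)
    (t : TT) (n : N) : Φ (t • n) = Φ (t • oneN) * Φ n := by
  let f : N →ₗ[ℂ] Module.End ℂ E := Φ ∘ₗ t.toEnd
  let g : N →ₗ[ℂ] Module.End ℂ E := LinearMap.mulLeft ℂ (Φ (t • oneN)) ∘ₗ Φ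
  have : ∀ n : N, n ∈ LinearMap.eqLocus f g := by
    refine N_induction _ ?_ ?_ ?_
    · show Φ (t • oneN) = Φ (t • oneN) * Φ oneN
      rw [h1, mul_one]
    · intro i j n hn
      have hn' : Φ (t • n) = Φ (t • oneN) * Φ n := hn
      show Φ (t • (RN i j n)) = Φ (t • oneN) * Φ (RN i j n)
      rw [TT_RN, hR, hR, hn', mul_assoc]
    · intro k n hn
      have hn' : Φ (t • n) = Φ (t • oneN) * Φ n := hn
      show Φ (t • (RB k n)) = Φ (t • oneN) * Φ (RB k n)
      rw [TT_RB, hB, hB, hn', mul_assoc]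
  exact this n

theorem Nf_mono {m m' : ℤ} (h : m ≤ m') : Nf m ≤ Nf m' := tr_Nf_mono h

theorem Tf_mono {m m' : ℤ} (h : m ≤ m') : Tf m ≤ Tf m' := by
  intro t ht
  exact Nf_mono h ht

theorem Nf_finite (m : ℤ) : Module.Finite ℂ (Nf m) := by
  have hS : ∀ m : ℤ, (Sf m).FG := fun m => Module.Finite.iff_fg.1 (Sf_finite m)
  have hP : (P2f (m + 1)).FG := by
    have e : P2f (m + 1) =
        (Sf (m + 1)).map (LinearMap.single ℂ (fun _ : Fin 2 => S) 0) ⊔
        (Sf (m + 1)).map (LinearMap.single ℂ (fun _ : Fin 2 => S) 1) := by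
      apply le_antisymm
      · intro h hh
        rw [mem_P2f] at hh
        have e : h = Pi.single 0 (h 0) + Pi.single 1 (h 1) := by
          funext l
          fin_cases l <;> simp
        rw [e]
        exact Submodule.add_mem_sup ⟨h 0, hh 0, rfl⟩ ⟨h 1, hh 1, rfl⟩
      · refine sup_le ?_ ?_
        · rintro _ ⟨s, hs, rfl⟩
          rw [mem_P2f]
          intro l
          fin_cases l
          · simpa using hs
          · simp
        · rintro _ ⟨s, hs, rfl⟩
          rw [mem_P2f]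
          intro l
          fin_cases l
          · simp
          · simpa using hs
    rw [e]
    exact ((hS _).map _).sup ((hS _).map _)
  exact Module.Finite.iff_fg.2 (Submodule.FG.prod (hS m) (hP.map qm))

end Crest.Agent.FD
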