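import Crest.Agent.FD.NEx

/-!
# Row 178 (S0268), chunk ZLIN: `zN` is `T`-linear modulo boundaries

For `t : T`, `t • oneN = (s, *)`, one has `t • (0, b_l) = t • RB l oneN = RB l (t • oneN) =
(0, qm (Pi.single l s))`, so `t • zN q = pc 0 (zS s q)`, where `zS s q` is `zQ q` with `b_l`
replaced by `s b_l`.

Claim (by `Sf_induction_R` with
`P m s := s ∈ Sf m ∧ ∀ q ∈ Vh n, ∃ w ∈ K_2, comps in FsF (n+1) Qf (m-2),
  zS s q - zQ (Psi s q) = ce2 (Top RQ) w`).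
The step `s = R_a s'` (`a = E_ij`) uses: for `κ ∈ K_1` with `ce1 κ = 0`,
`ce2 (e_a ∧ κ) = T_a κ - ad_a κ` (componentwise `T_a`, `ad_a (e_b y) = [a, b] y`), applied to
`κ = zS s' q` (a cycle, because it is `t' • zN q` for any `t'` with `t' • oneN = (s', 0)`), and the
invariance identity `T_a κ - ad_a κ = zS (R_a s') q - zS s' (rho_a q)`, which follows from
`(u E_ij) b_l = (u b_l) E_ij - δ_li u b_j` (`RB_RN`) and the Weyl relations; a check of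
4 (`a`) × 4 (components) identities.  Then `Psi (R_a s') = Psi s' rho_a` (`Psi_Rop`).
-/

set_option autoImplicit false

namespace Crest.Agent.FD

open MvPolynomial

noncomputable section

/-- `zS s q = s • zQ q` -/
def zS (s : S) (q : Fs ℂ) : Fin 4 → Fs Qb :=
  ![pt (qm (Pi.single 1 s)) (xfun 1 q), - pt (qm (Pi.single 0 s)) (xfun 1 q),
    - pt (qm (Pi.single 1 s)) (xfun 0 q), pt (qm (Pi.single 0 s)) (xfun 0 q)]

theorem zS_one (q : Fs ℂ) : zS 1 q = zQ q := rfl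

/-! ### helpers -/

theorem zl_pt_add_left {Y : Type} [AddCommGroup Y] [Module ℂ Y] (y y' : Y) (v : Fs ℂ) :
    pt (y + y') v = pt y v + pt y' v := by
  funext i k
  simp [pt, smul_add]

theorem zl_pt_smul_left {Y : Type} [AddCommGroup Y] [Module ℂ Y] (c : ℂ) (y : Y) (v : Fs ℂ) :
    pt (c • y) v = c • pt y v := by
  funext i k
  simp only [pt, Pi.smul_apply]
  exact smul_comm _ _ _

theorem zl_pt_zero_left {Y : Type} [AddCommGroup Y] [Module ℂ Y] (v : Fs ℂ) :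
    pt (0 : Y) v = 0 := by
  funext i k
  simp [pt]

theorem zl_pt_add_right {Y : Type} [AddCommGroup Y] [Module ℂ Y] (y : Y) (v v' : Fs ℂ) :
    pt y (v + v') = pt y v + pt y v' := by
  funext i k
  simp [pt, add_smul]

theorem zl_pt_zero_right {Y : Type} [AddCommGroup Y] [Module ℂ Y] (y : Y) :
    pt y (0 : Fs ℂ) = 0 := by
  funext i k
  simp [pt]

theorem zl_pw_pt {Y : Type} [AddCommGroup Y] [Module ℂ Y] (f : Y →ₗ[ℂ] Y) (y : Y) (v : Fs ℂ) :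
    pw f (pt y v) = pt (f y) v := by
  funext i k
  simp [pt]

theorem zl_rho_pt {Y : Type} [AddCommGroup Y] [Module ℂ Y] (i j : Fin 2) (y : Y) (v : Fs ℂ) :
    rho ℂ Y i j (pt y v) = pt y (rho ℂ ℂ i j v) := by
  funext a b
  simp only [rho_apply, xfun, dfun, pt]
  split_ifs <;> simp [mul_smul, ← Nat.cast_smul_eq_nsmul ℂ]

theorem zl_rho_xfun (i j l : Fin 2) (q : Fs ℂ) :
    rho ℂ ℂ i j (xfun l q) = xfun l (rho ℂ ℂ i j q) + (if j = l then xfun i q else 0) := by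
  rw [rho_apply, rho_apply, dfun_xfun, ← xop_apply (R := ℂ), map_add, xop_apply, xop_apply,
    xfun_comm]
  congr 1
  split_ifs
  · rfl
  · rw [← xop_apply (R := ℂ), map_zero]

/-- `t • (0, b_l) = (0, qm (single l s))` -/
theorem zl_smul_b (t : TT) (l : Fin 2) :
    t • ((0, bQ l) : N) = (0, qm (Pi.single l (t • oneN).1)) := by
  have h : ((0, bQ l) : N) = RB l oneN := rfl
  rw [h, TT_RB, RB_apply]

theorem zl_smul_pt (t : TT) (l : Fin 2) (v : Fs ℂ) (i k : ℕ) :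
    t • ((0, pt (bQ l) v i k) : N) = (0, pt (qm (Pi.single l (t • oneN).1)) v i k) := by
  have h : ((0, pt (bQ l) v i k) : N) = v i k • ((0, bQ l) : N) := by simp [pt]
  rw [h, smul_comm, zl_smul_b]
  simp [pt]

theorem zl_smul_neg_pt (t : TT) (l : Fin 2) (v : Fs ℂ) (i k : ℕ) :
    t • ((0, (- pt (bQ l) v) i k) : N) = (0, (- pt (qm (Pi.single l (t • oneN).1)) v) i k) := by
  have h : ((0, (- pt (bQ l) v) i k) : N) = - ((0, pt (bQ l) v i k) : N) := by simp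
  rw [h, smul_neg, zl_smul_pt]
  simp

theorem smul_zN (t : TT) (q : Fs ℂ) : t • zN q = pc 0 (zS (t • oneN).1 q) := by
  funext a i k
  show t • ((0, zQ q a i k) : N) = (0, zS (t • oneN).1 q a i k)
  fin_cases a
  · exact zl_smul_pt t 1 (xfun 1 q) i k
  · exact zl_smul_neg_pt t 0 (xfun 1 q) i k
  · exact zl_smul_neg_pt t 1 (xfun 0 q) i k
  · exact zl_smul_pt t 0 (xfun 0 q) i k

theorem zS_cycle (s : S) (q : Fs ℂ) : ce1 (Top RQ) (zS s q) = 0 := by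
  obtain ⟨t, ht⟩ := TT_exists ((s, 0) : N)
  have h1 : ce1 TN (t • zN q) = 0 := by
    rw [map_smul, zN_cycle, smul_zero]
  rw [smul_zN, ht] at h1
  have h2 := qc_ce1 (pc 0 (zS s q))
  rw [h1] at h2
  exact h2.symm

/-- `T_a (y ⊗ v) = y E_a ⊗ v - y ⊗ rho_a v` -/
theorem zl_Top_pt (y : Qb) (v : Fs ℂ) :
    Top RQ 0 (pt y v) = pt (RQ 0 0 y) v - pt y (rho ℂ ℂ 0 0 v) ∧
    Top RQ 1 (pt y v) = pt (RQ 0 1 y) v - pt y (rho ℂ ℂ 0 1 v) ∧
    Top RQ 2 (pt y v) = pt (RQ 1 0 y) v - pt y (rho ℂ ℂ 1 0 v) ∧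
    Top RQ 3 (pt y v) = pt (RQ 1 1 y) v - pt y (rho ℂ ℂ 1 1 v) := by
  refine ⟨?_, ?_, ?_, ?_⟩ <;>
  · simp only [Top, Matrix.cons_val, LinearMap.sub_apply]
    rw [zl_pw_pt, zl_rho_pt]

theorem zl_RQ_single (i j k : Fin 2) (s : S) :
    RQ i j (qm (Pi.single k s)) =
      qm (Pi.single k (Rop i j s)) + (if k = i then qm (Pi.single j s) else 0) := by
  rw [RQ_qm, tr_Rt_single, map_add]
  split_ifs <;> simp

theorem zl_pt_mem (n : ℕ) (m : ℤ) (l j : Fin 2) (s : S) (hs : s ∈ Sf m) (q : Fs ℂ)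
    (hq : q ∈ Vh n) : pt (qm (Pi.single l s)) (xfun j q) ∈ FsF (n + 1) Qf (m - 1) := by
  rw [mem_FsF]
  have hx := xfun_mem_Vh j n q hq
  intro i k
  refine ⟨?_, fun h => ?_⟩
  · apply Submodule.smul_mem
    refine ⟨Pi.single l s, ?_, rfl⟩
    show Pi.single l s ∈ P2f (m - 1 + 1)
    rw [mem_P2f, sub_add_cancel]
    intro a
    by_cases ha : a = l
    · subst ha; simpa using hs
    · simp [ha]
  · have : xfun j q i k = 0 := hx i k h
    simp [pt, this]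

theorem zl_zS_mem (n : ℕ) (m : ℤ) (s : S) (hs : s ∈ Sf m) (q : Fs ℂ)
    (hq : q ∈ Vh n) (a : Fin 4) : zS s q a ∈ FsF (n + 1) Qf (m - 1) := by
  fin_cases a
  · exact zl_pt_mem n m 1 1 s hs q hq
  · exact Submodule.neg_mem _ (zl_pt_mem n m 0 1 s hs q hq)
  · exact Submodule.neg_mem _ (zl_pt_mem n m 1 0 s hs q hq)
  · exact zl_pt_mem n m 0 0 s hs q hq

/-- the exterior product `e_a ∧ κ` -/
def zlW (a : Fin 4) (κ : Fin 4 → Fs Qb) : Fin 6 → Fs Qb :=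
  match a with
  | 0 => ![κ 1, κ 2, κ 3, 0, 0, 0]
  | 1 => ![- κ 0, 0, 0, κ 2, κ 3, 0]
  | 2 => ![0, - κ 0, 0, - κ 1, 0, κ 3]
  | 3 => ![0, 0, - κ 0, 0, - κ 1, - κ 2]

theorem zl_W_mem (n : ℕ) (m : ℤ) (κ : Fin 4 → Fs Qb) (hκ : ∀ a, κ a ∈ FsF (n + 1) Qf m)
    (a : Fin 4) (b : Fin 6) : zlW a κ b ∈ FsF (n + 1) Qf m := by
  have h0 : (0 : Fs Qb) ∈ FsF (n + 1) Qf m := Submodule.zero_mem _
  fin_cases a <;> fin_cases b <;>
    first
    | exact hκ _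
    | exact h0
    | exact Submodule.neg_mem _ (hκ _)

theorem zl_ce1_eq (T : Fin 4 → Module.End ℂ (Fs Qb)) (κ : Fin 4 → Fs Qb)
    (h : ce1 T κ = 0) : T 0 (κ 0) + T 1 (κ 1) + T 2 (κ 2) + T 3 (κ 3) = 0 :=
  congrFun h 0

theorem zl_ce2_apply (T : Fin 4 → Module.End ℂ (Fs Qb)) (y : Fin 6 → Fs Qb) :
    ce2 T y = ![- T 1 (y 0) - T 2 (y 1) - T 3 (y 2) + - y 3,
      T 0 (y 0) - T 2 (y 3) - T 3 (y 4) + (- y 0 - y 4),
      T 0 (y 1) + T 1 (y 3) - T 3 (y 5) + (y 1 + y 5),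
      T 0 (y 2) + T 1 (y 4) + T 2 (y 5) + y 3] := by
  funext c
  fin_cases c <;> rfl

theorem zl_ce2_W0 (T : Fin 4 → Module.End ℂ (Fs Qb)) (κ : Fin 4 → Fs Qb) (h : ce1 T κ = 0) :
    ce2 T (zlW 0 κ) = ![T 0 (κ 0), T 0 (κ 1) - κ 1, T 0 (κ 2) + κ 2, T 0 (κ 3)] := by
  have hc := zl_ce1_eq T κ h
  rw [zl_ce2_apply]
  have e : T 0 (κ 0) = - T 1 (κ 1) - T 2 (κ 2) - T 3 (κ 3) := by
    rw [← sub_eq_zero, ← hc]; abel
  funext c
  fin_cases c <;> simp [zlW, e] <;> abel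

theorem zl_ce2_W1 (T : Fin 4 → Module.End ℂ (Fs Qb)) (κ : Fin 4 → Fs Qb) (h : ce1 T κ = 0) :
    ce2 T (zlW 1 κ) = ![T 1 (κ 0) - κ 2, T 1 (κ 1) + κ 0 - κ 3, T 1 (κ 2), T 1 (κ 3) + κ 2] := by
  have hc := zl_ce1_eq T κ h
  rw [zl_ce2_apply]
  have e : T 1 (κ 1) = - T 0 (κ 0) - T 2 (κ 2) - T 3 (κ 3) := by
    rw [← sub_eq_zero, ← hc]; abel
  funext c
  fin_cases c <;> simp [zlW, e] <;> abel

theorem zl_ce2_W2 (T : Fin 4 → Module.End ℂ (Fs Qb)) (κ : Fin 4 → Fs Qb) (h : ce1 T κ = 0) :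
    ce2 T (zlW 2 κ) = ![T 2 (κ 0) + κ 1, T 2 (κ 1), T 2 (κ 2) - κ 0 + κ 3, T 2 (κ 3) - κ 1] := by
  have hc := zl_ce1_eq T κ h
  rw [zl_ce2_apply]
  have e : T 2 (κ 2) = - T 0 (κ 0) - T 1 (κ 1) - T 3 (κ 3) := by
    rw [← sub_eq_zero, ← hc]; abel
  funext c
  fin_cases c <;> simp [zlW, e] <;> abel

theorem zl_ce2_W3 (T : Fin 4 → Module.End ℂ (Fs Qb)) (κ : Fin 4 → Fs Qb) (h : ce1 T κ = 0) :
    ce2 T (zlW 3 κ) = ![T 3 (κ 0), T 3 (κ 1) + κ 1, T 3 (κ 2) - κ 2, T 3 (κ 3)] := by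
  have hc := zl_ce1_eq T κ h
  rw [zl_ce2_apply]
  have e : T 3 (κ 3) = - T 0 (κ 0) - T 1 (κ 1) - T 2 (κ 2) := by
    rw [← sub_eq_zero, ← hc]; abel
  funext c
  fin_cases c <;> simp [zlW, e] <;> abel

/-- index of the matrix unit `E_ij` -/
def zlI (i j : Fin 2) : Fin 4 := if i = 0 then (if j = 0 then 0 else 1) else (if j = 0 then 2 else 3)

theorem zl_step_eq (i j : Fin 2) (s : S) (q : Fs ℂ) :
    zS (Rop i j s) q - zS s (rho ℂ ℂ i j q) = ce2 (Top RQ) (zlW (zlI i j) (zS s q)) := by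
  have hc := zS_cycle s q
  have h0 := fun (y : Qb) (v : Fs ℂ) => (zl_Top_pt y v).1
  have h1 := fun (y : Qb) (v : Fs ℂ) => (zl_Top_pt y v).2.1
  have h2 := fun (y : Qb) (v : Fs ℂ) => (zl_Top_pt y v).2.2.1
  have h3 := fun (y : Qb) (v : Fs ℂ) => (zl_Top_pt y v).2.2.2
  fin_cases i <;> fin_cases j
  · show _ = ce2 (Top RQ) (zlW 0 (zS s q))
    rw [zl_ce2_W0 _ _ hc]
    funext c
    fin_cases c <;>
    · simp [-RQ_qm, zS, h0, zl_RQ_single, zl_rho_xfun, zl_pt_add_left, zl_pt_add_right]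
      try abel
  · show _ = ce2 (Top RQ) (zlW 1 (zS s q))
    rw [zl_ce2_W1 _ _ hc]
    funext c
    fin_cases c <;>
    · simp [-RQ_qm, zS, h1, zl_RQ_single, zl_rho_xfun, zl_pt_add_left, zl_pt_add_right]
      try abel
  · show _ = ce2 (Top RQ) (zlW 2 (zS s q))
    rw [zl_ce2_W2 _ _ hc]
    funext c
    fin_cases c <;>
    · simp [-RQ_qm, zS, h2, zl_RQ_single, zl_rho_xfun, zl_pt_add_left, zl_pt_add_right]
      try abel
  · show _ = ce2 (Top RQ) (zlW 3 (zS s q))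
    rw [zl_ce2_W3 _ _ hc]
    funext c
    fin_cases c <;>
    · simp [-RQ_qm, zS, h3, zl_RQ_single, zl_rho_xfun, zl_pt_add_left, zl_pt_add_right]
      try abel

/-- the four homotopies: `zS (R_a s) q - zS s (rho_a q) = ce2 (e_a ∧ zS s q)` -/
theorem zS_step (n : ℕ) (m : ℤ) (i j : Fin 2) (s : S) (hs : s ∈ Sf m) (q : Fs ℂ) (hq : q ∈ Vh n) :
    ∃ w : Fin 6 → Fs Qb, (∀ a, w a ∈ FsF (n + 1) Qf (m - 1)) ∧
      zS (Rop i j s) q - zS s (rho ℂ ℂ i j q) = ce2 (Top RQ) w :=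
  ⟨zlW (zlI i j) (zS s q), zl_W_mem n (m - 1) _ (zl_zS_mem n m s hs q hq) _,
    zl_step_eq i j s q⟩

theorem zl_zS_add (s s' : S) (q : Fs ℂ) : zS (s + s') q = zS s q + zS s' q := by
  funext c
  fin_cases c <;> simp [zS, Pi.single_add, zl_pt_add_left] <;> abel

theorem zl_zS_smul (c : ℂ) (s : S) (q : Fs ℂ) : zS (c • s) q = c • zS s q := by
  funext a
  fin_cases a <;> simp [zS, Pi.single_smul, zl_pt_smul_left]

theorem zl_zS_zero (q : Fs ℂ) : zS 0 q = 0 := by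
  have := zl_zS_smul 0 0 q
  rwa [zero_smul, zero_smul] at this

theorem zl_xfun_add (l : Fin 2) (v w : Fs ℂ) : xfun l (v + w) = xfun l v + xfun l w := by
  rw [← xop_apply (R := ℂ), map_add, xop_apply, xop_apply]

theorem zl_zQ_add (v w : Fs ℂ) : zQ (v + w) = zQ v + zQ w := by
  funext c
  fin_cases c <;> simp [zQ, zl_xfun_add, zl_pt_add_right] <;> abel

theorem zl_xfun_smul (l : Fin 2) (c : ℂ) (v : Fs ℂ) : xfun l (c • v) = c • xfun l v := by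
  rw [← xop_apply (R := ℂ), map_smul, xop_apply]

theorem zl_pt_smul_right {Y : Type} [AddCommGroup Y] [Module ℂ Y] (c : ℂ) (y : Y) (v : Fs ℂ) :
    pt y (c • v) = c • pt y v := by
  funext i k
  simp [pt, mul_smul]

theorem zl_zQ_smul (c : ℂ) (v : Fs ℂ) : zQ (c • v) = c • zQ v := by
  funext a
  fin_cases a <;> simp [zQ, zl_xfun_smul, zl_pt_smul_right]

theorem zl_zQ_zero : zQ 0 = 0 := by
  have := zl_zQ_smul 0 0
  rwa [zero_smul, zero_smul] at this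

theorem zl_Qf_mono {m m' : ℤ} (h : m ≤ m') : Qf m ≤ Qf m' := by
  rintro _ ⟨p, hp, rfl⟩
  refine ⟨p, ?_, rfl⟩
  have hp' : p ∈ P2f (m + 1) := hp
  show p ∈ P2f (m' + 1)
  rw [mem_P2f] at hp' ⊢
  exact fun l => Sf_mono (by omega) (hp' l)

theorem zl_FsF_mono (n : ℕ) {m m' : ℤ} (h : m ≤ m') : FsF n Qf m ≤ FsF n Qf m' := by
  intro y hy i k
  exact ⟨zl_Qf_mono h (hy i k).1, (hy i k).2⟩

theorem zl_rho_mem (n : ℕ) (i j : Fin 2) (q : Fs ℂ) (hq : q ∈ Vh n) : rho ℂ ℂ i j q ∈ Vh n := by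
  cases n with
  | zero =>
    have : q = 0 := by
      funext a b
      exact hq a b (by omega)
    rw [this, map_zero]
    exact Submodule.zero_mem _
  | succ n =>
    rw [rho_apply]
    exact xfun_mem_Vh i n _ (dfun_mem_Vh j n q hq)

theorem zS_claim (n : ℕ) (m : ℤ) (s : S) (hs : s ∈ Sf m) (q : Fs ℂ) (hq : q ∈ Vh n) :
    ∃ w : Fin 6 → Fs Qb, (∀ a, w a ∈ FsF (n + 1) Qf (m - 2)) ∧
      zS s q - zQ (Psi s q) = ce2 (Top RQ) w := by
  have key := Sf_induction_R (P := fun m s => s ∈ Sf m ∧ ∀ q ∈ Vh n,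
    ∃ w : Fin 6 → Fs Qb, (∀ a, w a ∈ FsF (n + 1) Qf (m - 2)) ∧
      zS s q - zQ (Psi s q) = ce2 (Top RQ) w) ?_ ?_ ?_ ?_ ?_ ?_ m s hs
  · exact key.2 q hq
  · refine ⟨one_mem_Sf, fun q hq => ⟨0, fun a => Submodule.zero_mem _, ?_⟩⟩
    rw [zS_one, Psi_one, map_zero]
    exact sub_self _
  · intro m
    refine ⟨Submodule.zero_mem _, fun q hq => ⟨0, fun a => Submodule.zero_mem _, ?_⟩⟩
    rw [zl_zS_zero, map_zero, map_zero, LinearMap.zero_apply, zl_zQ_zero, sub_self]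
  · rintro m s s' ⟨h1, h2⟩ ⟨h1', h2'⟩
    refine ⟨Submodule.add_mem _ h1 h1', fun q hq => ?_⟩
    obtain ⟨w, hw, e⟩ := h2 q hq
    obtain ⟨w', hw', e'⟩ := h2' q hq
    refine ⟨w + w', fun a => Submodule.add_mem _ (hw a) (hw' a), ?_⟩
    rw [map_add Psi, LinearMap.add_apply, zl_zQ_add, zl_zS_add, map_add (ce2 (Top RQ)), ← e, ← e']
    abel
  · rintro m c s ⟨h1, h2⟩
    refine ⟨Submodule.smul_mem _ _ h1, fun q hq => ?_⟩
    obtain ⟨w, hw, e⟩ := h2 q hq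
    refine ⟨c • w, fun a => Submodule.smul_mem _ _ (hw a), ?_⟩
    rw [map_smul Psi, LinearMap.smul_apply, zl_zQ_smul, zl_zS_smul, map_smul (ce2 (Top RQ)), ← e,
      smul_sub]
  · rintro m s ⟨h1, h2⟩
    refine ⟨Sf_mono (by omega) h1, fun q hq => ?_⟩
    obtain ⟨w, hw, e⟩ := h2 q hq
    exact ⟨w, fun a => zl_FsF_mono _ (by omega) (hw a), e⟩
  · rintro m s i j ⟨h1, h2⟩
    refine ⟨Rop_mem i j h1, fun q hq => ?_⟩
    obtain ⟨w, hw, e⟩ := zS_step n m i j s h1 q hq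
    obtain ⟨w', hw', e'⟩ := h2 _ (zl_rho_mem n i j q hq)
    refine ⟨w + w', fun a => Submodule.add_mem _ (zl_FsF_mono _ (by omega) (hw a))
      (zl_FsF_mono _ (by omega) (hw' a)), ?_⟩
    rw [map_add, ← e, ← e', Psi_Rop]
    have : (Psi s * rho ℂ ℂ i j) q = Psi s (rho ℂ ℂ i j q) := rfl
    rw [this]
    abel

theorem zl_ce2_pc (w : Fin 6 → Fs Qb) : ce2 TN (pc 0 w) = pc 0 (ce2 (Top RQ) w) := by
  have h1 := sc_ce2 (pc 0 w)
  have h2 := qc_ce2 (pc 0 w)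
  have e1 : sc (pc 0 w) = 0 := rfl
  have e2 : qc (pc 0 w) = w := rfl
  rw [e1, map_zero] at h1
  rw [e2] at h2
  funext a i k
  refine Prod.ext ?_ ?_
  · exact congrFun (congrFun (congrFun h1 a) i) k
  · exact congrFun (congrFun (congrFun h2 a) i) k

theorem zlin (n : ℕ) (m : ℤ) (t : TT) (ht : t ∈ Tf m) (q : Fs ℂ) (hq : q ∈ Vh n) :
    ∃ w : Fin 6 → Fs N, (∀ a, w a ∈ FsF (n + 1) Nf (m - 2)) ∧
      t • zN q - zN (Psi (t • oneN).1 q) = ce2 TN w := by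
  obtain ⟨w, hw, e⟩ := zS_claim n m (t • oneN).1 (mem_Tf.1 ht).1 q hq
  refine ⟨pc 0 w, fun a => ?_, ?_⟩
  · rw [mem_FsF]
    intro i k
    have h := hw a i k
    refine ⟨⟨Submodule.zero_mem _, h.1⟩, fun hk => ?_⟩
    show ((0, w a i k) : N) = 0
    rw [h.2 hk]
    rfl
  · rw [zl_ce2_pc, ← e, smul_zN, zN_apply]
    funext a i k
    refine Prod.ext ?_ ?_
    · show (0 : S) - 0 = 0
      simp
    · rfl

end

end Crest.Agent.FD
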